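import Vale.Agent.Lib.P066.Neg

/-!
The algebra of the independent-set sums for graphs in which the lower neighbours of each vertex
form a clique of consecutive vertices: the formal `-1` value of a block of colours is a product of
`q`-integers, and the linear term in the variable marking sources is `[m] τ`.
-/

open Finset

namespace Vale.Agent.Lib.P066

set_option linter.unusedSectionVars false

variable {R : Type*} [CommRing R]

/-- The `q`-integer `1 + q + ⋯ + q^(m-1)`. -/
def qI (q : R) (m : ℕ) : R := ∑ i ∈ Finset.range m, q ^ i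

@[simp] lemma qI_zero (q : R) : qI q 0 = 0 := by simp [qI]

@[simp] lemma qI_one (q : R) : qI q 1 = 1 := by simp [qI]

lemma qI_succ (q : R) (m : ℕ) : qI q (m + 1) = 1 + q * qI q m := by
  unfold qI
  rw [Finset.sum_range_succ', Finset.mul_sum, add_comm]
  simp only [pow_zero, pow_succ]
  congr 1
  refine Finset.sum_congr rfl fun i _ => ?_
  ring

lemma qI_succ' (q : R) (m : ℕ) : qI q (m + 1) = qI q m + q ^ m := by
  unfold qI
  rw [Finset.sum_range_succ]

variable {V : Type*} [LinearOrder V] (E : V → V → Prop) [DecidableRel E]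

/-- Number of lower neighbours of `j` in `U`. -/
def aC (U : Finset V) (j : V) : ℕ := (U.filter fun i => E i j).card

/-- The product of `[1 + a_j(U)]`. -/
def aPr (q : R) (U : Finset V) : R := ∏ j ∈ U, qI q (1 + aC E U j)

/-- The product of `[a_j(U)]` over the non-minimal vertices of `U`. -/
def tauU (q : R) (U : Finset V) : R :=
  ∏ j ∈ U, if ∃ i ∈ U, i < j then qI q (aC E U j) else 1

/-- A single term. -/
def termT (q s : R) (U I : Finset V) : R :=
  zeta E s I * q ^ eCount E I (U \ I) * aPr E q (U \ I)

/-- The sum over independent `I ⊆ U` disjoint from `K`. -/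
def Zf (q s : R) (K U : Finset V) : R :=
  ∑ I ∈ U.powerset, if Disjoint I K then termT E q s U I else 0

variable {E} (hE : ∀ a b, E a b → a < b)
  (hW : ∀ i i' j, i < i' → i' < j → E i j → E i' j ∧ E i i')

include hE in
lemma aC_insert_of_lt (X : Finset V) (n j : V) (hj : j < n) :
    aC E (insert n X) j = aC E X j := by
  unfold aC
  rw [Finset.filter_insert, if_neg]
  intro h
  exact lt_asymm (hE _ _ h) hj

include hE in
lemma aPr_insert (q : R) (X : Finset V) (n : V) (hX : ∀ x ∈ X, x < n) :
    aPr E q (insert n X) = qI q (1 + aC E X n) * aPr E q X := by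
  have hn : n ∉ X := fun h => lt_irrefl _ (hX n h)
  unfold aPr
  rw [Finset.prod_insert hn]
  congr 1
  · congr 2
    unfold aC
    rw [Finset.filter_insert, if_neg]
    intro h
    exact lt_irrefl _ (hE _ _ h)
  · refine Finset.prod_congr rfl fun j hj => ?_
    rw [aC_insert_of_lt hE X n j (hX j hj)]

include hE in
lemma tauU_insert (q : R) (X : Finset V) (n : V) (hX : ∀ x ∈ X, x < n) :
    tauU E q (insert n X) = (if X = ∅ then 1 else qI q (aC E X n)) * tauU E q X := by
  have hn : n ∉ X := fun h => lt_irrefl _ (hX n h)
  unfold tauU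
  rw [Finset.prod_insert hn]
  congr 1
  · have hc : aC E (insert n X) n = aC E X n := by
      unfold aC
      rw [Finset.filter_insert, if_neg]
      intro h
      exact lt_irrefl _ (hE _ _ h)
    by_cases hemp : X = ∅
    · subst hemp
      simp
    · rw [if_neg hemp, if_pos, hc]
      obtain ⟨x, hx⟩ := Finset.nonempty_iff_ne_empty.mpr hemp
      exact ⟨x, Finset.mem_insert_of_mem hx, hX x hx⟩
  · refine Finset.prod_congr rfl fun j hj => ?_
    rw [aC_insert_of_lt hE X n j (hX j hj)]
    have : (∃ i ∈ insert n X, i < j) ↔ (∃ i ∈ X, i < j) := by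
      constructor
      · rintro ⟨i, hi, hij⟩
        rcases Finset.mem_insert.mp hi with rfl | hi
        · exact absurd hij (lt_asymm (hX j hj))
        · exact ⟨i, hi, hij⟩
      · rintro ⟨i, hi, hij⟩
        exact ⟨i, Finset.mem_insert_of_mem hi, hij⟩
    simp only [this]

/-- The lower neighbours of `n` in `X`. -/
def nbr (E : V → V → Prop) [DecidableRel E] (X : Finset V) (n : V) : Finset V :=
  X.filter fun i => E i n

lemma card_nbr (X : Finset V) (n : V) : (nbr E X n).card = aC E X n := rfl

include hW in
/-- an independent set meets the lower neighbourhood of `n` in at most one vertex -/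
lemma card_inter_nbr_le (X I : Finset V) (n : V) (hX : ∀ x ∈ X, x < n)
    (hI : I ⊆ X) (hind : ∀ a ∈ I, ∀ b ∈ I, ¬ E a b) : (I ∩ nbr E X n).card ≤ 1 := by
  rw [Finset.card_le_one]
  intro a ha b hb
  rw [Finset.mem_inter] at ha hb
  by_contra hne
  have hna : E a n := (Finset.mem_filter.mp ha.2).2
  have hnb : E b n := (Finset.mem_filter.mp hb.2).2
  rcases lt_or_gt_of_ne hne with h | h
  · exact hind a ha.1 b hb.1 (hW a b n h (hX b (hI hb.1)) hna).2
  · exact hind b hb.1 a ha.1 (hW b a n h (hX a (hI ha.1)) hnb).2

lemma eCount_singleton_right (I : Finset V) (n : V) :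
    eCount E I {n} = (I.filter fun i => E i n).card := by
  unfold eCount
  simp only [Finset.sum_singleton]
  rw [Finset.card_filter]

include hE in
lemma eCount_singleton_left (n : V) (X : Finset V) (hX : ∀ x ∈ X, x < n) :
    eCount E {n} X = 0 := by
  unfold eCount
  simp only [Finset.sum_singleton]
  refine Finset.sum_eq_zero fun b hb => ?_
  rw [if_neg]
  intro h
  exact lt_asymm (hE _ _ h) (hX b hb)

lemma filter_eq_inter_nbr (X I : Finset V) (n : V) (hI : I ⊆ X) :
    (I.filter fun i => E i n) = I ∩ nbr E X n := by
  ext x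
  simp only [Finset.mem_filter, Finset.mem_inter, nbr]
  constructor
  · rintro ⟨h1, h2⟩
    exact ⟨h1, hI h1, h2⟩
  · rintro ⟨h1, _, h2⟩
    exact ⟨h1, h2⟩

include hE hW in
/-- effect of adding a top vertex `n`, for `I` below `n` -/
lemma termT_insert_A (q s : R) (X I : Finset V) (n : V) (hX : ∀ x ∈ X, x < n) (hI : I ⊆ X) :
    termT E q s (insert n X) I =
      termT E q s X I *
        (if Disjoint I (nbr E X n) then qI q (aC E X n + 1) else q * qI q (aC E X n)) := by
  unfold termT
  by_cases hind : ∀ a ∈ I, ∀ b ∈ I, ¬ E a b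
  · have hnI : n ∉ I := fun h => lt_irrefl _ (hX n (hI h))
    have hs : insert n X \ I = insert n (X \ I) := Finset.insert_sdiff_of_notMem _ hnI
    have hsub : ∀ x ∈ X \ I, x < n := fun x hx => hX x (Finset.mem_sdiff.mp hx).1
    have hdis : Disjoint ({n} : Finset V) (X \ I) := by
      rw [Finset.disjoint_singleton_left]
      intro h
      exact lt_irrefl _ (hsub n h)
    have he : eCount E I (insert n X \ I) =
        (I ∩ nbr E X n).card + eCount E I (X \ I) := by
      rw [hs, Finset.insert_eq, eCount_union_right E _ _ _ hdis, eCount_singleton_right,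
        filter_eq_inter_nbr X I n hI]
    have hcount : aC E (X \ I) n + (I ∩ nbr E X n).card = aC E X n := by
      unfold aC
      rw [← Finset.card_union_of_disjoint]
      · congr 1
        ext x
        simp only [Finset.mem_union, Finset.mem_filter, Finset.mem_sdiff, Finset.mem_inter, nbr]
        constructor
        · rintro (⟨⟨h1, _⟩, h3⟩ | ⟨h1, h2, h3⟩)
          · exact ⟨h1, h3⟩
          · exact ⟨h2, h3⟩
        · rintro ⟨h1, h2⟩
          by_cases hxI : x ∈ I
          · exact Or.inr ⟨hxI, h1, h2⟩
          · exact Or.inl ⟨⟨h1, hxI⟩, h2⟩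
      · rw [Finset.disjoint_left]
        intro x hx hx'
        exact (Finset.mem_sdiff.mp (Finset.mem_filter.mp hx).1).2 (Finset.mem_inter.mp hx').1
    have hle := card_inter_nbr_le hW X I n hX hI hind
    rw [he, hs, aPr_insert hE q (X \ I) n hsub]
    have hsimp : insert n (X \ I) = insert n X \ I := hs.symm
    by_cases hd : Disjoint I (nbr E X n)
    · rw [if_pos hd]
      have h0 : (I ∩ nbr E X n).card = 0 := by
        rw [Finset.card_eq_zero]
        exact Finset.disjoint_iff_inter_eq_empty.mp hd
      rw [h0] at hcount ⊢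
      rw [add_zero] at hcount
      rw [hcount, zero_add, add_comm 1]
      ring
    · rw [if_neg hd]
      have h1 : (I ∩ nbr E X n).card = 1 := by
        have : (I ∩ nbr E X n).card ≠ 0 := by
          intro h
          rw [Finset.card_eq_zero] at h
          exact hd (Finset.disjoint_iff_inter_eq_empty.mpr h)
        omega
      rw [h1] at hcount ⊢
      rw [← hcount]
      simp only [add_comm 1 (aC E (X \ I) n), pow_add, pow_one]
      ring
  · have : zeta E s I = 0 := by
      unfold zeta
      rw [if_neg hind]
    simp [this]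

include hE in
/-- effect of adding a top vertex `n` which belongs to the independent set -/
lemma termT_insert_B (q s : R) (X I : Finset V) (n : V) (hX : ∀ x ∈ X, x < n) (hI : I ⊆ X) :
    termT E q s (insert n X) (insert n I) =
      if Disjoint I (nbr E X n) then s * termT E q s X I else 0 := by
  unfold termT
  have hnI : n ∉ I := fun h => lt_irrefl _ (hX n (hI h))
  have hnX : n ∉ X := fun h => lt_irrefl _ (hX n h)
  have hs : insert n X \ insert n I = X \ I := by
    ext x
    simp only [Finset.mem_sdiff, Finset.mem_insert]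
    constructor
    · rintro ⟨h1, h2⟩
      push Not at h2
      rcases h1 with h1 | h1
      · exact absurd h1 h2.1
      · exact ⟨h1, h2.2⟩
    · rintro ⟨h1, h2⟩
      refine ⟨Or.inr h1, ?_⟩
      push Not
      refine ⟨?_, h2⟩
      rintro rfl
      exact hnX h1
  have hsub : ∀ x ∈ X \ I, x < n := fun x hx => hX x (Finset.mem_sdiff.mp hx).1
  have hdis : Disjoint ({n} : Finset V) I := by
    rw [Finset.disjoint_singleton_left]
    exact hnI
  have he : eCount E (insert n I) (X \ I) = eCount E I (X \ I) := by
    rw [Finset.insert_eq, eCount_union_left E _ _ _ hdis, eCount_singleton_left hE n _ hsub,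
      zero_add]
  rw [hs, he]
  by_cases hind : ∀ a ∈ I, ∀ b ∈ I, ¬ E a b
  · by_cases hd : Disjoint I (nbr E X n)
    · rw [if_pos hd]
      have hind' : ∀ a ∈ insert n I, ∀ b ∈ insert n I, ¬ E a b := by
        intro a ha b hb hab
        rcases Finset.mem_insert.mp ha with ha' | ha'
        · rcases Finset.mem_insert.mp hb with hb' | hb'
          · rw [ha', hb'] at hab
            exact lt_irrefl _ (hE _ _ hab)
          · rw [ha'] at hab
            exact lt_asymm (hE _ _ hab) (hX b (hI hb'))
        · rcases Finset.mem_insert.mp hb with hb' | hb'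
          · rw [hb'] at hab
            exact (Finset.disjoint_left.mp hd ha') (Finset.mem_filter.mpr ⟨hI ha', hab⟩)
          · exact hind a ha' b hb' hab
      unfold zeta
      rw [if_pos hind', if_pos hind, Finset.card_insert_of_notMem hnI, pow_succ]
      ring
    · rw [if_neg hd]
      have hnind : ¬ ∀ a ∈ insert n I, ∀ b ∈ insert n I, ¬ E a b := by
        intro h
        apply hd
        rw [Finset.disjoint_left]
        intro x hx hx'
        exact h x (Finset.mem_insert_of_mem hx) n (Finset.mem_insert_self _ _)
          (Finset.mem_filter.mp hx').2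
      unfold zeta
      rw [if_neg hnind]
      simp
  · have hnind : ¬ ∀ a ∈ insert n I, ∀ b ∈ insert n I, ¬ E a b := by
      intro h
      exact hind fun a ha b hb =>
        h a (Finset.mem_insert_of_mem ha) b (Finset.mem_insert_of_mem hb)
    unfold zeta
    rw [if_neg hnind, if_neg hind]
    simp

include hE hW in
/-- recursion `(1)` -/
lemma Zf_empty_insert (q s : R) (X : Finset V) (n : V) (hX : ∀ x ∈ X, x < n) :
    Zf E q s ∅ (insert n X) =
      q * qI q (aC E X n) * Zf E q s ∅ X + (1 + s) * Zf E q s (nbr E X n) X := by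
  have hnX : n ∉ X := fun h => lt_irrefl _ (hX n h)
  unfold Zf
  rw [Finset.sum_powerset_insert hnX]
  simp only [Finset.disjoint_empty_right, if_true]
  rw [Finset.mul_sum, Finset.mul_sum, ← Finset.sum_add_distrib, ← Finset.sum_add_distrib]
  refine Finset.sum_congr rfl fun I hI => ?_
  have hI' := Finset.mem_powerset.mp hI
  rw [termT_insert_A hE hW q s X I n hX hI', termT_insert_B hE q s X I n hX hI']
  by_cases hd : Disjoint I (nbr E X n)
  · simp only [if_pos hd, qI_succ]
    ring
  · simp only [if_neg hd]
    ring

include hE hW in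
/-- recursion `(2)` -/
lemma Zf_insert_insert (q s : R) (X K₁ : Finset V) (n : V) (hX : ∀ x ∈ X, x < n)
    (hK : K₁ ⊆ nbr E X n) :
    Zf E q s (insert n K₁) (insert n X) =
      Zf E q s (nbr E X n) X + q * qI q (aC E X n) * Zf E q s K₁ X := by
  have hnX : n ∉ X := fun h => lt_irrefl _ (hX n h)
  unfold Zf
  rw [Finset.sum_powerset_insert hnX]
  have h2 : ∑ t ∈ X.powerset, (if Disjoint (insert n t) (insert n K₁)
      then termT E q s (insert n X) (insert n t) else 0) = 0 := by
    refine Finset.sum_eq_zero fun t _ => ?_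
    rw [if_neg]
    intro h
    exact (Finset.disjoint_left.mp h (Finset.mem_insert_self n t)) (Finset.mem_insert_self n K₁)
  rw [h2, add_zero, Finset.mul_sum, ← Finset.sum_add_distrib]
  refine Finset.sum_congr rfl fun I hI => ?_
  have hI' := Finset.mem_powerset.mp hI
  have hnI : n ∉ I := fun h => hnX (hI' h)
  have hd1 : Disjoint I (insert n K₁) ↔ Disjoint I K₁ := by
    rw [Finset.disjoint_insert_right]
    simp [hnI]
  rw [termT_insert_A hE hW q s X I n hX hI']
  by_cases hd : Disjoint I (nbr E X n)
  · have hd' : Disjoint I K₁ := Finset.disjoint_of_subset_right hK hd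
    simp only [if_pos hd, if_pos hd', if_pos (hd1.mpr hd'), qI_succ]
    ring
  · by_cases hd' : Disjoint I K₁
    · simp only [if_neg hd, if_pos hd', if_pos (hd1.mpr hd')]
      ring
    · have : ¬ Disjoint I (insert n K₁) := fun h => hd' (hd1.mp h)
      simp only [if_neg hd, if_neg hd', if_neg this]
      ring

lemma Zf_empty_empty (q s : R) : Zf E q s ∅ (∅ : Finset V) = 1 := by
  simp [Zf, termT, aPr]

/-- `K` is an upper set of `U` and a clique -/
def Suf (E : V → V → Prop) (K U : Finset V) : Prop :=
  K ⊆ U ∧ (∀ i ∈ K, ∀ j ∈ U, i < j → j ∈ K) ∧ ∀ i ∈ K, ∀ j ∈ K, i < j → E i j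

lemma suf_empty (U : Finset V) : Suf E ∅ U := by
  simp [Suf]

include hW in
lemma suf_nbr (X : Finset V) (n : V) (hX : ∀ x ∈ X, x < n) : Suf E (nbr E X n) X := by
  refine ⟨Finset.filter_subset _ _, ?_, ?_⟩
  · intro i hi j hj hij
    have hin := (Finset.mem_filter.mp hi).2
    exact Finset.mem_filter.mpr ⟨hj, (hW i j n hij (hX j hj) hin).1⟩
  · intro i hi j hj hij
    have hin := (Finset.mem_filter.mp hi).2
    exact (hW i j n hij (hX j (Finset.mem_filter.mp hj).1) hin).2

include hE hW in
/-- the value at `s = -1` -/
lemma Zf_neg_one (q : R) (U : Finset V) :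
    ∀ K : Finset V, Suf E K U →
      Zf E q (-1) K U = if U = ∅ then 1 else qI q K.card * tauU E q U := by
  induction U using Finset.induction_on_max with
  | empty =>
    intro K hK
    have : K = ∅ := Finset.subset_empty.mp hK.1
    subst this
    simp [Zf_empty_empty]
  | insert n X hX ih =>
    intro K hK
    have hne : insert n X ≠ ∅ := Finset.insert_ne_empty n X
    rw [if_neg hne]
    have hX' : ∀ x ∈ X, x < n := hX
    have hnX : n ∉ X := fun h => lt_irrefl _ (hX' n h)
    have hnbr := suf_nbr hW X n hX'
    by_cases hKe : K = ∅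
    · subst hKe
      rw [Zf_empty_insert hE hW q (-1) X n hX']
      simp only [add_neg_cancel, zero_mul, add_zero, Finset.card_empty, qI_zero]
      by_cases hXe : X = ∅
      · subst hXe
        simp [aC]
      · rw [ih ∅ (suf_empty X), if_neg hXe]
        simp
    · -- `n ∈ K`
      have hnK : n ∈ K := by
        obtain ⟨i, hi⟩ := Finset.nonempty_iff_ne_empty.mpr hKe
        have hiU := hK.1 hi
        rcases Finset.mem_insert.mp hiU with h | h
        · rw [← h]
          exact hi
        · exact hK.2.1 i hi n (Finset.mem_insert_self _ _) (hX' i h)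
      set K₁ := K.erase n with hK₁
      have hK₁eq : K = insert n K₁ := (Finset.insert_erase hnK).symm
      have hnK₁ : n ∉ K₁ := Finset.notMem_erase n K
      have hsub : K₁ ⊆ X := by
        intro i hi
        have h1 := Finset.mem_erase.mp hi
        rcases Finset.mem_insert.mp (hK.1 h1.2) with h | h
        · exact absurd h h1.1
        · exact h
      have hsubn : K₁ ⊆ nbr E X n := by
        intro i hi
        have h1 := Finset.mem_erase.mp hi
        exact Finset.mem_filter.mpr ⟨hsub hi, hK.2.2 i h1.2 n hnK (hX' i (hsub hi))⟩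
      have hsuf : Suf E K₁ X := by
        refine ⟨hsub, ?_, ?_⟩
        · intro i hi j hj hij
          have h1 := Finset.mem_erase.mp hi
          refine Finset.mem_erase.mpr ⟨?_, hK.2.1 i h1.2 j (Finset.mem_insert_of_mem hj) hij⟩
          rintro rfl
          exact hnX hj
        · intro i hi j hj hij
          exact hK.2.2 i (Finset.mem_erase.mp hi).2 j (Finset.mem_erase.mp hj).2 hij
      rw [hK₁eq, Zf_insert_insert hE hW q (-1) X K₁ n hX' hsubn, Finset.card_insert_of_notMem hnK₁,
        tauU_insert hE q X n hX', ih _ hnbr, ih _ hsuf]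
      by_cases hXe : X = ∅
      · subst hXe
        have h0 : K₁ = ∅ := Finset.subset_empty.mp hsub
        rw [h0]
        simp [aC, tauU]
      · simp only [if_neg hXe, card_nbr, qI_succ]
        ring

include hE in
lemma Zf_dvd (q t : R) (K U : Finset V) :
    t ∣ Zf E q (t - 1) K U - Zf E q (-1) K U := by
  unfold Zf
  rw [← Finset.sum_sub_distrib]
  refine Finset.dvd_sum fun I _ => ?_
  by_cases hd : Disjoint I K
  · simp only [if_pos hd]
    unfold termT zeta
    by_cases hind : ∀ a ∈ I, ∀ b ∈ I, ¬ E a b
    · simp only [if_pos hind]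
      have h1 : t ∣ (t - 1) ^ I.card - (-1 : R) ^ I.card := by
        have := sub_dvd_pow_sub_pow (t - 1) (-1 : R) I.card
        simpa using this
      obtain ⟨w, hw⟩ := h1
      refine ⟨w * q ^ eCount E I (U \ I) * aPr E q (U \ I), ?_⟩
      linear_combination (q ^ eCount E I (U \ I) * aPr E q (U \ I)) * hw
    · simp [if_neg hind]
  · simp [if_neg hd]

include hE hW in
/-- the expansion in `t` -/
lemma Zf_expand (q t : R) (U : Finset V) (hU : U ≠ ∅) :
    ∃ P : R, Zf E q (t - 1) ∅ U = t * (qI q U.card * tauU E q U) + t ^ 2 * P := by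
  induction U using Finset.induction_on_max with
  | empty => exact absurd rfl hU
  | insert n X hX ih =>
    have hX' : ∀ x ∈ X, x < n := hX
    have hnX : n ∉ X := fun h => lt_irrefl _ (hX' n h)
    have hs : (1 + (t - 1)) = t := by ring
    rw [Zf_empty_insert hE hW q (t - 1) X n hX', hs, Finset.card_insert_of_notMem hnX,
      tauU_insert hE q X n hX']
    by_cases hXe : X = ∅
    · subst hXe
      refine ⟨0, ?_⟩
      simp [nbr, aC, Zf_empty_empty, tauU]
    · obtain ⟨P, hP⟩ := ih hXe
      obtain ⟨w, hw⟩ := Zf_dvd hE q t (nbr E X n) X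
      have hnbr := Zf_neg_one hE hW q X (nbr E X n) (suf_nbr hW X n hX')
      rw [if_neg hXe, card_nbr] at hnbr
      rw [hnbr] at hw
      have hz : Zf E q (t - 1) (nbr E X n) X = qI q (aC E X n) * tauU E q X + t * w := by
        linear_combination hw
      refine ⟨q * qI q (aC E X n) * P + w, ?_⟩
      rw [hP, hz, if_neg hXe, qI_succ]
      ring

/-- the scaled product of `[1 + a_j]` -/
def aScaled (E : V → V → Prop) [DecidableRel E] (q α : R) (U : Finset V) : R :=
  α ^ U.card * aPr E q U

lemma zeta_mul (α s : R) (I : Finset V) : zeta E (α * s) I = α ^ I.card * zeta E s I := by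
  unfold zeta
  by_cases h : ∀ a ∈ I, ∀ b ∈ I, ¬ E a b
  · simp only [if_pos h, mul_pow]
  · simp only [if_neg h, mul_zero]

lemma star_zeta_aScaled (q α s : R) (U : Finset V) :
    star E q (zeta E (α * s)) (aScaled E q α) U = α ^ U.card * Zf E q s ∅ U := by
  unfold star Zf
  rw [Finset.mul_sum]
  refine Finset.sum_congr rfl fun I hI => ?_
  have hI' := Finset.mem_powerset.mp hI
  simp only [Finset.disjoint_empty_right, if_true]
  unfold termT aScaled
  rw [zeta_mul]
  have : U.card = I.card + (U \ I).card := by
    rw [Finset.card_sdiff_of_subset hI']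
    have := Finset.card_le_card hI'
    omega
  rw [this, pow_add]
  ring

include hE hW in
/-- the scaled product is the formal inverse of the colour class of `-α` -/
lemma star_zeta_neg_aScaled (q α : R) (U : Finset V) :
    star E q (zeta E (-α)) (aScaled E q α) U = deltaF U := by
  have : -α = α * (-1) := by ring
  rw [this, star_zeta_aScaled, Zf_neg_one hE hW q U ∅ (suf_empty U)]
  unfold deltaF
  by_cases hU : U = ∅
  · subst hU
    simp
  · simp [hU]

end Vale.Agent.Lib.P066
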