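import Vale.Agent.Lib.P066.Conv

/-!
A sum over proper colourings of a graph is an iterated convolution of colour classes.
-/

open Finset

namespace Vale.Agent.Lib.P066

set_option linter.unusedSectionVars false
set_option linter.unusedSimpArgs false
set_option linter.unusedVariables false

variable {V : Type*} [DecidableEq V] [Fintype V] {R : Type*} [CommRing R]
variable (E : V → V → Prop) [DecidableRel E] (q : R)

/-- local edge weight of a partial colouring -/
def phiO {N : ℕ} : Option (Fin N) → Option (Fin N) → R
  | some c, some d => if c = d then 0 else if c < d then q else 1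
  | _, _ => 1

/-- weight of a partial colouring -/
def wtO {N : ℕ} (x : Fin N → R) (f : V → Option (Fin N)) : R :=
  (∏ p ∈ (Finset.univ : Finset (V × V)).filter (fun p => E p.1 p.2), phiO q (f p.1) (f p.2)) *
    ∏ v, (f v).elim 1 x

/-- partial colourings with domain `U` -/
def domO (N : ℕ) (U : Finset V) : Finset (V → Option (Fin N)) :=
  (Finset.univ : Finset (V → Option (Fin N))).filter fun f => ∀ v, (f v).isSome = true ↔ v ∈ U

/-- add the colour class `I` as the new smallest colour -/
def glue {N : ℕ} (I : Finset V) (f : V → Option (Fin N)) : V → Option (Fin (N + 1)) :=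
  fun v => if v ∈ I then some 0 else (f v).map Fin.succ

/-- the smallest colour class -/
def classZero {N : ℕ} (f : V → Option (Fin (N + 1))) : Finset V :=
  (Finset.univ : Finset V).filter fun v => f v = some 0

/-- remove the smallest colour class -/
def unglue {N : ℕ} (f : V → Option (Fin (N + 1))) : V → Option (Fin N) :=
  fun v => (f v).bind (Fin.cases none some)

lemma eCount_eq_card (I J : Finset V) :
    eCount E I J = ((Finset.univ : Finset (V × V)).filter
      (fun p => E p.1 p.2 ∧ p.1 ∈ I ∧ p.2 ∈ J)).card := by
  unfold eCount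
  have : ((Finset.univ : Finset (V × V)).filter (fun p => E p.1 p.2 ∧ p.1 ∈ I ∧ p.2 ∈ J)) =
      (I ×ˢ J).filter (fun p => E p.1 p.2) := by
    ext p
    simp only [Finset.mem_filter, Finset.mem_univ, true_and, Finset.mem_product]
    tauto
  rw [this, Finset.card_filter, Finset.sum_product]

lemma wtO_glue {N : ℕ} (x₀ : R) (x : Fin N → R) (U I : Finset V) (f : V → Option (Fin N))
    (hI : I ⊆ U) (hf : f ∈ domO N (U \ I)) :
    wtO E q (Fin.cons x₀ x) (glue I f) = zeta E x₀ I * q ^ eCount E I (U \ I) * wtO E q x f := by
  have hf' : ∀ v, (f v).isSome = true ↔ v ∈ U \ I := (Finset.mem_filter.mp hf).2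
  have hnone : ∀ v, v ∉ U \ I → f v = none := by
    intro v hv
    cases h : f v with
    | none => rfl
    | some c =>
      exfalso
      apply hv
      rw [← hf', h]
      rfl
  -- vertex part
  have hV : (∏ v, (glue I f v).elim 1 (Fin.cons x₀ x : Fin (N + 1) → R)) =
      x₀ ^ I.card * ∏ v, (f v).elim 1 x := by
    have : ∀ v, (glue I f v).elim 1 (Fin.cons x₀ x : Fin (N + 1) → R) =
        (if v ∈ I then x₀ else 1) * (f v).elim 1 x := by
      intro v
      unfold glue
      by_cases hv : v ∈ I
      · have : f v = none := hnone v (fun h => (Finset.mem_sdiff.mp h).2 hv)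
        simp [hv, this]
      · simp only [hv, if_false, one_mul]
        cases f v <;> simp
    rw [Finset.prod_congr rfl fun v _ => this v, Finset.prod_mul_distrib]
    congr 1
    rw [Finset.prod_ite_mem]
    simp
  -- edge part
  let ψ : V × V → R := fun p =>
    if p.1 ∈ I ∧ p.2 ∈ I then 0 else if p.1 ∈ I ∧ p.2 ∈ U \ I then q else 1
  have hpt : ∀ p : V × V, phiO q (glue I f p.1) (glue I f p.2) =
      ψ p * phiO q (f p.1) (f p.2) := by
    rintro ⟨a, b⟩
    simp only [ψ, glue]
    by_cases ha : a ∈ I
    · have hfa : f a = none := hnone a (fun h => (Finset.mem_sdiff.mp h).2 ha)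
      by_cases hb : b ∈ I
      · simp [ha, hb, phiO]
      · by_cases hb' : b ∈ U \ I
        · obtain ⟨d, hd⟩ := Option.isSome_iff_exists.mp ((hf' b).mpr hb')
          have h0 : (0 : Fin (N + 1)) ≠ d.succ := (Fin.succ_ne_zero d).symm
          have h1 : (0 : Fin (N + 1)) < d.succ := Fin.succ_pos d
          simp [ha, hb, hb', hfa, hd, phiO, h0, h1]
        · have hfb : f b = none := hnone b hb'
          simp [ha, hb, hb', hfa, hfb, phiO]
    · by_cases hb : b ∈ I
      · have hfb : f b = none := hnone b (fun h => (Finset.mem_sdiff.mp h).2 hb)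
        cases h : f a with
        | none => simp [ha, hb, hfb, h, phiO]
        | some c =>
          have h0 : c.succ ≠ (0 : Fin (N + 1)) := Fin.succ_ne_zero c
          have h1 : ¬ c.succ < (0 : Fin (N + 1)) := Fin.not_lt_zero _
          simp [ha, hb, hfb, h, phiO, h0]
      · cases h : f a with
        | none =>
          cases h' : f b <;> simp [ha, hb, h, h', phiO]
        | some c =>
          cases h' : f b with
          | none => simp [ha, hb, h, h', phiO]
          | some d =>
            simp [ha, hb, h, h', phiO, Fin.succ_inj, Fin.succ_lt_succ_iff]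
  have hE1 : (∏ p ∈ (Finset.univ : Finset (V × V)).filter (fun p => E p.1 p.2), ψ p) =
      (if ∀ a ∈ I, ∀ b ∈ I, ¬ E a b then 1 else 0) * q ^ eCount E I (U \ I) := by
    by_cases hind : ∀ a ∈ I, ∀ b ∈ I, ¬ E a b
    · rw [if_pos hind, one_mul, eCount_eq_card]
      have : ∀ p ∈ (Finset.univ : Finset (V × V)).filter (fun p => E p.1 p.2),
          ψ p = if p.1 ∈ I ∧ p.2 ∈ U \ I then q else 1 := by
        intro p hp
        have hpE := (Finset.mem_filter.mp hp).2
        simp only [ψ]
        rw [if_neg]
        rintro ⟨h1, h2⟩
        exact hind _ h1 _ h2 hpE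
      rw [Finset.prod_congr rfl this, Finset.prod_ite]
      simp only [Finset.prod_const_one, mul_one, Finset.prod_const]
      congr 2
      ext p
      simp only [Finset.mem_filter, Finset.mem_univ, true_and]
    · rw [if_neg hind, zero_mul]
      push Not at hind
      obtain ⟨a, ha, b, hb, hab⟩ := hind
      apply Finset.prod_eq_zero (i := (a, b))
      · simp [hab]
      · simp [ψ, ha, hb]
  unfold wtO
  rw [hV, Finset.prod_congr rfl fun p _ => hpt p, Finset.prod_mul_distrib, hE1]
  unfold zeta
  by_cases hind : ∀ a ∈ I, ∀ b ∈ I, ¬ E a b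
  · simp only [if_pos hind]
    ring
  · simp only [if_neg hind]
    ring

lemma sum_domO_succ {N : ℕ} (x₀ : R) (x : Fin N → R) (U : Finset V) :
    ∑ f ∈ domO (N + 1) U, wtO E q (Fin.cons x₀ x) f =
      ∑ I ∈ U.powerset, zeta E x₀ I * q ^ eCount E I (U \ I) *
        ∑ f ∈ domO N (U \ I), wtO E q x f := by
  have : ∀ I ∈ U.powerset, zeta E x₀ I * q ^ eCount E I (U \ I) *
        ∑ f ∈ domO N (U \ I), wtO E q x f =
      ∑ f ∈ domO N (U \ I), wtO E q (Fin.cons x₀ x) (glue I f) := by
    intro I hI
    rw [Finset.mul_sum]
    refine Finset.sum_congr rfl fun f hf => ?_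
    rw [wtO_glue E q x₀ x U I f (Finset.mem_powerset.mp hI) hf]
  rw [Finset.sum_congr rfl this, Finset.sum_sigma']
  symm
  refine Finset.sum_nbij' (fun p => glue p.1 p.2)
    (fun f => ⟨classZero f, unglue f⟩) ?_ ?_ ?_ ?_ ?_
  · rintro ⟨I, f⟩ hp
    simp only [Finset.mem_sigma, Finset.mem_powerset] at hp
    have hf' : ∀ v, (f v).isSome = true ↔ v ∈ U \ I := (Finset.mem_filter.mp hp.2).2
    refine Finset.mem_filter.mpr ⟨Finset.mem_univ _, fun v => ?_⟩
    simp only [glue]
    by_cases hv : v ∈ I
    · simp [hv, hp.1 hv]
    · simp only [hv, if_false, Option.isSome_map]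
      rw [hf', Finset.mem_sdiff]
      simp [hv]
  · intro f hf
    have hf' : ∀ v, (f v).isSome = true ↔ v ∈ U := (Finset.mem_filter.mp hf).2
    simp only [Finset.mem_sigma, Finset.mem_powerset]
    refine ⟨?_, Finset.mem_filter.mpr ⟨Finset.mem_univ _, fun v => ?_⟩⟩
    · intro v hv
      have h0 : f v = some 0 := (Finset.mem_filter.mp hv).2
      rw [← hf', h0]
      rfl
    · simp only [unglue, classZero, Finset.mem_sdiff, Finset.mem_filter, Finset.mem_univ, true_and]
      rw [← hf']
      cases h : f v with
      | none => simp
      | some c =>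
        refine Fin.cases ?_ (fun d => ?_) c
        · simp
        · simp [Fin.succ_ne_zero]
  · rintro ⟨I, f⟩ hp
    simp only [Finset.mem_sigma, Finset.mem_powerset] at hp
    have hf' : ∀ v, (f v).isSome = true ↔ v ∈ U \ I := (Finset.mem_filter.mp hp.2).2
    have hI : classZero (glue I f) = I := by
      ext v
      simp only [classZero, glue, Finset.mem_filter, Finset.mem_univ, true_and]
      by_cases hv : v ∈ I
      · simp [hv]
      · simp only [hv, if_false, iff_false]
        cases f v <;> simp [Fin.succ_ne_zero, hv]
    have hu : unglue (glue I f) = f := by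
      funext v
      simp only [unglue, glue]
      by_cases hv : v ∈ I
      · have : f v = none := by
          cases h : f v with
          | none => rfl
          | some c =>
            exfalso
            have := (hf' v).mp (by rw [h]; rfl)
            exact (Finset.mem_sdiff.mp this).2 hv
        simp [hv, this]
      · simp only [hv, if_false]
        cases f v <;> simp
    simp only [hI, hu]
  · intro f hf
    funext v
    simp only [glue, classZero, unglue, Finset.mem_filter, Finset.mem_univ, true_and]
    by_cases hv : f v = some 0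
    · simp [hv]
    · simp only [hv, if_false]
      cases h : f v with
      | none => simp
      | some c =>
        rw [h] at hv
        refine Fin.cases (fun hv => ?_) (fun d _ => ?_) c hv
        · exact absurd rfl hv
        · simp
  · rintro ⟨I, f⟩ _
    rfl

/-- the sum over partial colourings with domain `U` is the iterated convolution -/
lemma sum_domO_eq_conv : ∀ (N : ℕ) (x : Fin N → R) (U : Finset V),
    ∑ f ∈ domO N U, wtO E q x f = conv E q (List.ofFn x) U := by
  intro N
  induction N with
  | zero =>
    intro x U
    simp only [List.ofFn_zero]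
    show _ = deltaF U
    have huniq : ∀ f : V → Option (Fin 0), f = fun _ => none := by
      intro f
      funext v
      cases h : f v with
      | none => rfl
      | some c => exact c.elim0
    unfold deltaF domO
    by_cases hU : U = ∅
    · subst hU
      rw [if_pos rfl]
      have : ((Finset.univ : Finset (V → Option (Fin 0))).filter
          fun f => ∀ v, (f v).isSome = true ↔ v ∈ (∅ : Finset V)) = {fun _ => none} := by
        ext f
        simp only [Finset.mem_filter, Finset.mem_univ, true_and, Finset.mem_singleton]
        constructor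
        · intro _
          exact huniq f
        · rintro rfl
          simp
      rw [this, Finset.sum_singleton]
      simp [wtO, phiO]
    · rw [if_neg hU]
      apply Finset.sum_eq_zero
      intro f hf
      exfalso
      obtain ⟨u, hu⟩ := Finset.nonempty_iff_ne_empty.mpr hU
      have := ((Finset.mem_filter.mp hf).2 u).mpr hu
      rw [huniq f] at this
      simp at this
  | succ N ih =>
    intro x U
    have hx : x = Fin.cons (x 0) (fun i => x i.succ) := (Fin.cons_self_tail x).symm
    rw [hx, sum_domO_succ, List.ofFn_succ, conv_cons]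
    unfold star
    refine Finset.sum_congr rfl fun I _ => ?_
    rw [ih]
    simp

/-- total colourings as partial colourings -/
lemma sum_proper_eq_conv {N : ℕ} (x : Fin N → R) :
    ∑ f ∈ (Finset.univ : Finset (V → Fin N)).filter (fun f => ∀ a b, E a b → f a ≠ f b),
      q ^ ((Finset.univ : Finset (V × V)).filter (fun p => E p.1 p.2 ∧ f p.1 < f p.2)).card *
        ∏ a, x (f a) = conv E q (List.ofFn x) Finset.univ := by
  rw [← sum_domO_eq_conv]
  have h1 : ∀ f : V → Fin N, wtO E q x (fun v => some (f v)) =
      if (∀ a b, E a b → f a ≠ f b) then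
        q ^ ((Finset.univ : Finset (V × V)).filter (fun p => E p.1 p.2 ∧ f p.1 < f p.2)).card *
          ∏ a, x (f a)
      else 0 := by
    intro f
    unfold wtO
    simp only [Option.elim_some]
    by_cases hp : ∀ a b, E a b → f a ≠ f b
    · rw [if_pos hp]
      congr 1
      have : ∀ p ∈ (Finset.univ : Finset (V × V)).filter (fun p => E p.1 p.2),
          phiO q (some (f p.1)) (some (f p.2)) = if f p.1 < f p.2 then q else 1 := by
        intro p hp'
        have := hp _ _ (Finset.mem_filter.mp hp').2
        simp [phiO, this]
      rw [Finset.prod_congr rfl this, Finset.prod_ite]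
      simp only [Finset.prod_const_one, mul_one, Finset.prod_const]
      congr 2
      rw [Finset.filter_filter]
    · rw [if_neg hp]
      push Not at hp
      obtain ⟨a, b, hab, heq⟩ := hp
      rw [Finset.prod_eq_zero (i := (a, b))]
      · simp
      · simp [hab]
      · simp [phiO, heq]
  rw [Finset.sum_filter, ← Finset.sum_congr rfl fun f _ => h1 f]
  refine Finset.sum_bij (fun f _ v => some (f v)) ?_ ?_ ?_ ?_
  · intro f _
    refine Finset.mem_filter.mpr ⟨Finset.mem_univ _, fun v => ?_⟩
    simp
  · intro f _ g _ h
    funext v
    exact Option.some.inj (congrFun h v)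
  · intro g hg
    have hg' : ∀ v, (g v).isSome = true := fun v =>
      ((Finset.mem_filter.mp hg).2 v).mpr (Finset.mem_univ v)
    refine ⟨fun v => (g v).get (hg' v), Finset.mem_univ _, ?_⟩
    funext v
    simp
  · intro f _
    rfl

end Vale.Agent.Lib.P066
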