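import Mathlib

/-!
The chromatic quasisymmetric function of a natural unit interval graph, in `N` variables.
-/

namespace Vale.Agent.Lib.P066

/-- The number of ascents of a colouring `f` of the natural unit interval graph of `h`, whose
edges are the pairs `i < j` with `j ≤ h i`. -/
def ascCount {n N : ℕ} (h : Fin n → Fin n) (f : Fin n → Fin N) : ℕ :=
  (Finset.univ.filter (fun p : Fin n × Fin n => p.1 < p.2 ∧ p.2 ≤ h p.1 ∧ f p.1 < f p.2)).card

/-- The chromatic quasisymmetric function of the natural unit interval graph of `h`
in the variables `x_1, ..., x_N`, with coefficients in `ℤ[q]`. -/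
noncomputable def chromQ {n : ℕ} (h : Fin n → Fin n) (N : ℕ) :
    MvPolynomial (Fin N) (Polynomial ℤ) :=
  ∑ f : Fin n → Fin N, if ∀ i j : Fin n, i < j → j ≤ h i → f i ≠ f j then
    MvPolynomial.C (Polynomial.X ^ ascCount h f) * ∏ a : Fin n, MvPolynomial.X (f a) else 0

end Vale.Agent.Lib.P066
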