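import Mathlib

/-!
Convolution of set functions on the vertices of a graph, twisted by a power of `q` counting
the edges that go up from one block to the other.  A colouring of the vertices with colours
`x₁ < x₂ < ⋯` is an iterated convolution of its colour classes.
-/

open Finset

namespace Vale.Agent.Lib.P066

set_option linter.unusedSectionVars false

variable {V : Type*} [DecidableEq V] {R : Type*} [CommRing R]

/-- Number of pairs `(a,b)` with `a ∈ I`, `b ∈ J` and `E a b`. -/
def eCount (E : V → V → Prop) [DecidableRel E] (I J : Finset V) : ℕ :=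
  ∑ a ∈ I, ∑ b ∈ J, if E a b then 1 else 0

section basic

variable (E : V → V → Prop) [DecidableRel E]

lemma eCount_union_right (I J K : Finset V) (h : Disjoint J K) :
    eCount E I (J ∪ K) = eCount E I J + eCount E I K := by
  unfold eCount
  rw [← Finset.sum_add_distrib]
  refine Finset.sum_congr rfl fun a _ => ?_
  rw [Finset.sum_union h]

lemma eCount_union_left (I J K : Finset V) (h : Disjoint I J) :
    eCount E (I ∪ J) K = eCount E I K + eCount E J K := by
  unfold eCount
  rw [Finset.sum_union h]

@[simp] lemma eCount_empty_left (K : Finset V) : eCount E ∅ K = 0 := by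
  simp [eCount]

@[simp] lemma eCount_empty_right (K : Finset V) : eCount E K ∅ = 0 := by
  simp [eCount]

variable (q : R)

/-- Twisted convolution of set functions. -/
def star (f g : Finset V → R) (U : Finset V) : R :=
  ∑ I ∈ U.powerset, f I * q ^ eCount E I (U \ I) * g (U \ I)

/-- The unit of the convolution. -/
def deltaF (U : Finset V) : R := if U = ∅ then 1 else 0

lemma star_delta_left (g : Finset V → R) (U : Finset V) :
    star E q deltaF g U = g U := by
  unfold star deltaF
  rw [Finset.sum_eq_single ∅]
  · simp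
  · intro b _ hb
    simp [hb]
  · simp

lemma star_delta_right (f : Finset V → R) (U : Finset V) :
    star E q f deltaF U = f U := by
  unfold star deltaF
  rw [Finset.sum_eq_single U]
  · simp
  · intro b hb hne
    have : U \ b ≠ ∅ := by
      intro h
      apply hne
      have h1 := Finset.mem_powerset.mp hb
      have h2 : U ⊆ b := Finset.sdiff_eq_empty_iff_subset.mp h
      exact Finset.Subset.antisymm h1 h2
    simp [this]
  · simp

/-- Reindexing of a double sum over two disjoint subsets. -/
lemma sum_powerset_powerset (U : Finset V) (F : Finset V → Finset V → R) :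
    ∑ I ∈ U.powerset, ∑ J ∈ (U \ I).powerset, F I J =
      ∑ W ∈ U.powerset, ∑ I ∈ W.powerset, F I (W \ I) := by
  rw [Finset.sum_sigma', Finset.sum_sigma']
  refine Finset.sum_nbij' (fun p => ⟨p.1 ∪ p.2, p.1⟩) (fun p => ⟨p.2, p.1 \ p.2⟩) ?_ ?_ ?_ ?_ ?_
  · rintro ⟨I, J⟩ h
    simp only [Finset.mem_sigma, Finset.mem_powerset] at h ⊢
    refine ⟨Finset.union_subset h.1 (h.2.trans Finset.sdiff_subset), Finset.subset_union_left⟩
  · rintro ⟨W, I⟩ h
    simp only [Finset.mem_sigma, Finset.mem_powerset] at h ⊢
    refine ⟨h.2.trans h.1, Finset.sdiff_subset_sdiff h.1 (Finset.Subset.refl _)⟩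
  · rintro ⟨I, J⟩ h
    simp only [Finset.mem_sigma, Finset.mem_powerset] at h
    have hd : Disjoint I J := by
      rw [Finset.disjoint_left]
      intro x hx hxJ
      exact (Finset.mem_sdiff.mp (h.2 hxJ)).2 hx
    simp only [Sigma.mk.injEq, heq_eq_eq, true_and]
    exact Finset.union_sdiff_cancel_left hd
  · rintro ⟨W, I⟩ h
    simp only [Finset.mem_sigma, Finset.mem_powerset] at h
    simp only [Sigma.mk.injEq, heq_eq_eq, and_true]
    exact Finset.union_sdiff_of_subset h.2
  · rintro ⟨I, J⟩ h
    simp only [Finset.mem_sigma, Finset.mem_powerset] at h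
    have hd : Disjoint I J := by
      rw [Finset.disjoint_left]
      intro x hx hxJ
      exact (Finset.mem_sdiff.mp (h.2 hxJ)).2 hx
    simp only [Finset.union_sdiff_cancel_left hd]

lemma star_assoc (f g k : Finset V → R) (U : Finset V) :
    star E q (star E q f g) k U = star E q f (star E q g k) U := by
  unfold star
  -- right side: expand and reindex
  have hR : ∑ I ∈ U.powerset, f I * q ^ eCount E I (U \ I) *
        ∑ J ∈ (U \ I).powerset, g J * q ^ eCount E J ((U \ I) \ J) * k ((U \ I) \ J) =
      ∑ I ∈ U.powerset, ∑ J ∈ (U \ I).powerset,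
        f I * q ^ eCount E I (U \ I) *
          (g J * q ^ eCount E J ((U \ I) \ J) * k ((U \ I) \ J)) := by
    refine Finset.sum_congr rfl fun I _ => ?_
    rw [Finset.mul_sum]
  rw [hR, sum_powerset_powerset]
  refine Finset.sum_congr rfl fun W hW => ?_
  rw [Finset.sum_mul, Finset.sum_mul]
  refine Finset.sum_congr rfl fun I hI => ?_
  have hW' := Finset.mem_powerset.mp hW
  have hI' := Finset.mem_powerset.mp hI
  have hs : (U \ I) \ (W \ I) = U \ W := by
    ext x
    simp only [Finset.mem_sdiff]
    constructor
    · rintro ⟨⟨hxU, hxI⟩, hx⟩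
      refine ⟨hxU, fun hxW => hx ⟨hxW, hxI⟩⟩
    · rintro ⟨hxU, hxW⟩
      exact ⟨⟨hxU, fun hxI => hxW (hI' hxI)⟩, fun hx => hxW hx.1⟩
  have hsplit : U \ I = (W \ I) ∪ (U \ W) := by
    ext x
    simp only [Finset.mem_sdiff, Finset.mem_union]
    constructor
    · rintro ⟨hxU, hxI⟩
      by_cases hxW : x ∈ W
      · exact Or.inl ⟨hxW, hxI⟩
      · exact Or.inr ⟨hxU, hxW⟩
    · rintro (⟨hxW, hxI⟩ | ⟨hxU, hxW⟩)
      · exact ⟨hW' hxW, hxI⟩
      · exact ⟨hxU, fun hxI => hxW (hI' hxI)⟩
  have hd1 : Disjoint (W \ I) (U \ W) := by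
    rw [Finset.disjoint_left]
    intro x hx hx'
    exact (Finset.mem_sdiff.mp hx').2 (Finset.mem_sdiff.mp hx).1
  have hW2 : W = I ∪ (W \ I) := (Finset.union_sdiff_of_subset hI').symm
  have hd2 : Disjoint I (W \ I) := Finset.disjoint_sdiff
  have he1 : eCount E I (U \ I) = eCount E I (W \ I) + eCount E I (U \ W) := by
    rw [hsplit, eCount_union_right E _ _ _ hd1]
  have he2 : eCount E W (U \ W) = eCount E I (U \ W) + eCount E (W \ I) (U \ W) := by
    conv_lhs => rw [hW2]
    rw [eCount_union_left E _ _ _ hd2]
    congr 2 <;> simp [Finset.union_sdiff_of_subset hI']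
  rw [hs, he1, he2]
  ring

/-- The colour class function: `x` to the size of `I`, on sets `I` without edges. -/
def zeta (x : R) (I : Finset V) : R :=
  if ∀ a ∈ I, ∀ b ∈ I, ¬ E a b then x ^ I.card else 0

@[simp] lemma zeta_empty (x : R) : zeta E x (∅ : Finset V) = 1 := by
  simp [zeta]

/-- The iterated convolution of colour classes with colour values in a list. -/
def conv : List R → Finset V → R
  | [] => deltaF
  | x :: l => star E q (zeta E x) (conv l)

lemma conv_cons (x : R) (l : List R) : conv E q (x :: l) = star E q (zeta E x) (conv E q l) := rfl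

lemma star_congr_right (f g g' : Finset V → R) (h : ∀ U, g U = g' U) (U : Finset V) :
    star E q f g U = star E q f g' U := by
  unfold star
  simp [h]

lemma star_congr_left (f f' g : Finset V → R) (h : ∀ U, f U = f' U) (U : Finset V) :
    star E q f g U = star E q f' g U := by
  unfold star
  simp [h]

lemma conv_append (l₁ l₂ : List R) (U : Finset V) :
    conv E q (l₁ ++ l₂) U = star E q (conv E q l₁) (conv E q l₂) U := by
  induction l₁ generalizing U with
  | nil =>
    show conv E q l₂ U = star E q deltaF (conv E q l₂) U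
    rw [star_delta_left]
  | cons x l ih =>
    show star E q (zeta E x) (conv E q (l ++ l₂)) U =
      star E q (star E q (zeta E x) (conv E q l)) (conv E q l₂) U
    rw [star_assoc]
    exact star_congr_right E q _ _ _ ih U

end basic

end Vale.Agent.Lib.P066
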