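import Mathlib

/-!
The chromatic quasisymmetric function of a natural unit interval graph, in finitely many
variables, and its expansion in products of elementary symmetric polynomials.
Vertices are `Fin n`, so the vertex `i` of the problem is `i - 1` here.
-/

open Finset

namespace Vale.Agent.Lib.P066

variable {n : ℕ}

/-- The edge relation of the natural unit interval graph `G(h)`: `i < j ≤ h i`. -/
def IsEdge (h : Fin n → Fin n) (i j : Fin n) : Prop := i < j ∧ j ≤ h i

instance (h : Fin n → Fin n) : DecidableRel (IsEdge h) := fun i j => by
  unfold IsEdge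
  infer_instance

/-- The number of edges `{a,b}` with `a < b` and `f a < f b`. -/
def ascCount (h : Fin n → Fin n) {N : ℕ} (f : Fin n → Fin N) : ℕ :=
  ((Finset.univ : Finset (Fin n × Fin n)).filter
    (fun p => IsEdge h p.1 p.2 ∧ f p.1 < f p.2)).card

/-- The chromatic quasisymmetric function of `G(h)` in the variables `x_0, …, x_{N-1}`, with
coefficients in `ℤ[q]`: the sum over proper colourings `f` of `q ^ asc f * ∏ x_{f a}`. -/
noncomputable def chromaticQ (h : Fin n → Fin n) (N : ℕ) :
    MvPolynomial (Fin N) (Polynomial ℤ) :=
  ∑ f ∈ (Finset.univ : Finset (Fin n → Fin N)).filter (fun f => ∀ a b, IsEdge h a b → f a ≠ f b),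
    MvPolynomial.C (Polynomial.X ^ ascCount h f) * ∏ a, MvPolynomial.X (f a)

/-- `c` is the family of coefficients of the expansion of the chromatic quasisymmetric function
of `G(h)` in the basis `e_λ`: the identity holds in every finite number of variables (and hence
in countably many variables). -/
def IsEExpansion (h : Fin n → Fin n) (c : n.Partition → Polynomial ℤ) : Prop :=
  ∀ N : ℕ, chromaticQ h N =
    ∑ l : n.Partition, MvPolynomial.C (c l) *
      (l.parts.map fun i => MvPolynomial.esymm (Fin N) (Polynomial ℤ) i).prod

/-- All coefficients of the polynomial are nonnegative, that is, it lies in `ℕ[q]`. -/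
def NonnegCoeffs (p : Polynomial ℤ) : Prop := ∀ k, 0 ≤ p.coeff k

end Vale.Agent.Lib.P066
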