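import Vale.Agent.Lib.P066.Alg

/-!
Extraction of the coefficients of `e_n` and `e_a e_b`.
-/

open Finset

namespace Vale.Agent.Lib.P066

set_option linter.unusedSectionVars false
set_option linter.unusedSimpArgs false
set_option linter.unusedVariables false

section main

variable {R : Type*} [CommRing R]
variable {V : Type*} [LinearOrder V] {E : V → V → Prop} [DecidableRel E]

lemma map_qI {S : Type*} [CommRing S] (φ : R →+* S) (q : R) (m : ℕ) :
    φ (qI q m) = qI (φ q) m := by
  simp [qI]

lemma map_zeta {S : Type*} [CommRing S] (φ : R →+* S) (x : R) (I : Finset V) :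
    φ (zeta E x I) = zeta E (φ x) I := by
  unfold zeta
  split_ifs <;> simp

lemma map_aPr {S : Type*} [CommRing S] (φ : R →+* S) (q : R) (U : Finset V) :
    φ (aPr E q U) = aPr E (φ q) U := by
  simp [aPr, map_qI]

lemma map_tauU {S : Type*} [CommRing S] (φ : R →+* S) (q : R) (U : Finset V) :
    φ (tauU E q U) = tauU E (φ q) U := by
  unfold tauU
  rw [map_prod]
  refine Finset.prod_congr rfl fun j _ => ?_
  split_ifs <;> simp [map_qI]

lemma map_Zf {S : Type*} [CommRing S] (φ : R →+* S) (q s : R) (K U : Finset V) :
    φ (Zf E q s K U) = Zf E (φ q) (φ s) K U := by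
  unfold Zf termT
  rw [map_sum]
  refine Finset.sum_congr rfl fun I _ => ?_
  split_ifs
  · simp [map_zeta, map_aPr]
  · simp

variable [Fintype V]

/-- the final series -/
noncomputable def gFinal (t α : R) : PowerSeries R :=
  ((1 * (1 + PowerSeries.C (α * (t - 1)) * PowerSeries.X)) * yS (-α)) *
    (1 + PowerSeries.C (1 * (t - 1)) * PowerSeries.X) * yS (-1)

/-- the single-block series -/
noncomputable def gOne (t α : R) : PowerSeries R :=
  PowerSeries.mk fun r => if r = 0 then 1 else t * α ^ r

lemma one_add_mul_yS (t α : R) :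
    (1 + PowerSeries.C (α * (t - 1)) * PowerSeries.X) * yS (-α) = gOne t α := by
  ext r
  rw [add_mul, one_mul, map_add]
  have h : PowerSeries.C (α * (t - 1)) * PowerSeries.X * yS (-α) =
      PowerSeries.C (α * (t - 1)) * (yS (-α) * PowerSeries.X) := by ring
  rw [h, PowerSeries.coeff_C_mul]
  cases r with
  | zero => simp [yS, gOne]
  | succ r =>
    rw [PowerSeries.coeff_succ_mul_X]
    simp only [yS, gOne, PowerSeries.coeff_mk, neg_neg, Nat.succ_ne_zero, if_false]
    rw [pow_succ]
    ring

lemma gFinal_eq (t α : R) : gFinal t α = gOne t α * gOne t 1 := by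
  unfold gFinal
  rw [one_mul, mul_assoc _ _ (yS (-1)), one_add_mul_yS, ← one_add_mul_yS t 1]

/-- the sum `α + α² + ⋯ + α^m` -/
def sE (α : R) (m : ℕ) : R := ∑ k ∈ Finset.range m, α ^ (k + 1)

lemma coeff_gFinal_succ (t α : R) (m : ℕ) :
    PowerSeries.coeff (m + 1) (gFinal t α) = t * (t * sE α m + 1 + α ^ (m + 1)) := by
  rw [gFinal_eq, PowerSeries.coeff_mul, Finset.Nat.sum_antidiagonal_eq_sum_range_succ_mk,
    Finset.sum_range_succ, Finset.sum_range_succ']
  simp only [gOne, PowerSeries.coeff_mk, Nat.succ_ne_zero, if_false, if_true, Nat.sub_zero,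
    Nat.sub_self, one_pow, mul_one, one_mul, Nat.add_eq_zero_iff, one_ne_zero, and_false, sE]
  have : ∀ k ∈ Finset.range m, (if m + 1 - (k + 1) = 0 then (1 : R) else t) = t := by
    intro k hk
    rw [if_neg]
    have := Finset.mem_range.mp hk
    omega
  rw [Finset.sum_congr rfl fun k hk => by rw [this k hk]]
  have h2 : ∑ k ∈ Finset.range m, t * α ^ (k + 1) * t =
      t * (t * ∑ i ∈ Finset.range m, α ^ (i + 1)) := by
    rw [Finset.mul_sum, Finset.mul_sum]
    refine Finset.sum_congr rfl fun k _ => ?_
    ring
  rw [h2]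
  ring

variable {ι : Type*} [Fintype ι] {c : ι → R} {parts : ι → Multiset ℕ}

/-- The main identity. -/
theorem main_identity [IsDomain R] [CharZero R] [Algebra ℚ R]
    (hE : ∀ a b, E a b → a < b)
    (hW : ∀ i i' j, i < i' → i' < j → E i j → E i' j ∧ E i i')
    (q t α : R)
    (H : ∀ L : List R, conv E q L Finset.univ =
      ∑ l : ι, c l * ((parts l).map fun i => (L : Multiset R).esymm i).prod) :
    ∑ U ∈ (Finset.univ : Finset V).powerset,
        (α ^ U.card * Zf E q (t - 1) ∅ U) * q ^ eCount E U (Finset.univ \ U) *
          Zf E q (t - 1) ∅ (Finset.univ \ U) =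
      ∑ l : ι, c l * ((parts l).map fun i => PowerSeries.coeff i (gFinal t α)).prod := by
  have H0 : Hol (ι := ι) E q c parts deltaF 1 := by
    intro L
    rw [star_delta_left, H L]
    refine Finset.sum_congr rfl fun l _ => ?_
    congr 2
    refine Multiset.map_congr rfl fun i _ => ?_
    simp [xiF, eSeries]
  have H1 := hol_val H0 (α * (t - 1))
  have H2 := hol_neg H1 (-α) (aScaled E q α) (star_zeta_neg_aScaled hE hW q α)
  have H3 := hol_val H2 (1 * (t - 1))
  have H4 := hol_neg H3 (-1) (aScaled E q 1) (star_zeta_neg_aScaled hE hW q 1)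
  have h := H4 []
  have hconv : star E q (star E q (star E q (star E q (star E q deltaF (zeta E (α * (t - 1))))
      (aScaled E q α)) (zeta E (1 * (t - 1)))) (aScaled E q 1))
        (conv E q ([] : List R)) Finset.univ =
      star E q (star E q (star E q (star E q deltaF (zeta E (α * (t - 1))))
      (aScaled E q α)) (zeta E (1 * (t - 1)))) (aScaled E q 1) Finset.univ :=
    star_delta_right E q _ _
  rw [hconv] at h
  have h1 : ∀ U, star E q (star E q (star E q deltaF (zeta E (α * (t - 1)))) (aScaled E q α))
      (zeta E (1 * (t - 1))) U =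
      star E q (star E q (zeta E (α * (t - 1))) (aScaled E q α)) (zeta E (1 * (t - 1))) U := by
    intro U
    apply star_congr_left
    intro W
    rw [star_assoc, star_delta_left]
  have h2 : star E q (star E q (star E q (star E q deltaF (zeta E (α * (t - 1))))
      (aScaled E q α)) (zeta E (1 * (t - 1)))) (aScaled E q 1) Finset.univ =
      ∑ U ∈ (Finset.univ : Finset V).powerset,
        (α ^ U.card * Zf E q (t - 1) ∅ U) * q ^ eCount E U (Finset.univ \ U) *
          Zf E q (t - 1) ∅ (Finset.univ \ U) := by
    rw [star_assoc]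
    have h3 : star E q (star E q (star E q deltaF (zeta E (α * (t - 1)))) (aScaled E q α))
        (star E q (zeta E (1 * (t - 1))) (aScaled E q 1)) Finset.univ =
        star E q (fun U => α ^ U.card * Zf E q (t - 1) ∅ U)
          (fun U => Zf E q (t - 1) ∅ U) Finset.univ := by
      rw [star_congr_right E q _ _ (fun U => Zf E q (t - 1) ∅ U)]
      · apply star_congr_left
        intro W
        rw [star_assoc, star_delta_left, star_zeta_aScaled]
      · intro U
        rw [star_zeta_aScaled, one_pow, one_mul]
    rw [h3]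
    rfl
  rw [← h2, h]
  refine Finset.sum_congr rfl fun l _ => ?_
  congr 2
  refine Multiset.map_congr rfl fun i _ => ?_
  unfold xiF
  have : (([] : List R) : Multiset R) = 0 := rfl
  rw [this, eSeries_zero, mul_one]
  rfl

end main

section extract

open Polynomial

variable {K : Type*} [CommRing K]

/-- the factor for a part `i` -/
noncomputable def ell (i : ℕ) : K[X][X] :=
  C (X : K[X]) * sE (X : K[X][X]) (i - 1) + 1 + X ^ i

lemma coeff_sE (m a : ℕ) :
    (sE (X : K[X][X]) m).coeff a = if 0 < a ∧ a ≤ m then (1 : K[X]) else 0 := by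
  unfold sE
  rw [Polynomial.finset_sum_coeff]
  simp only [Polynomial.coeff_X_pow]
  by_cases h : 0 < a ∧ a ≤ m
  · rw [if_pos h, Finset.sum_eq_single (a - 1)]
    · rw [if_pos]
      omega
    · intro b _ hb
      rw [if_neg]
      omega
    · intro h'
      exfalso
      apply h'
      rw [Finset.mem_range]
      omega
  · rw [if_neg h]
    apply Finset.sum_eq_zero
    intro k hk
    rw [if_neg]
    have := Finset.mem_range.mp hk
    omega

lemma coeff_ell (i a : ℕ) (hi : 0 < i) :
    (ell (K := K) i).coeff a =
      (if 0 < a ∧ a < i then X else 0) + (if a = 0 then 1 else 0) + (if a = i then 1 else 0) := by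
  unfold ell
  rw [Polynomial.coeff_add, Polynomial.coeff_add, Polynomial.coeff_C_mul, coeff_sE,
    Polynomial.coeff_one, Polynomial.coeff_X_pow]
  congr 1
  congr 1
  by_cases h : 0 < a ∧ a < i
  · rw [if_pos h, if_pos (by omega), mul_one]
  · rw [if_neg h, if_neg (by omega), mul_zero]

lemma map_constantCoeff_ell (i : ℕ) :
    (ell (K := K) i).map (Polynomial.constantCoeff) = 1 + X ^ i := by
  unfold ell
  simp [Polynomial.map_add, Polynomial.map_mul, Polynomial.map_pow, Polynomial.map_C]

lemma prod_map_coeff_gFinal {R : Type*} [CommRing R] (t α : R) (s : Multiset ℕ)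
    (hs : ∀ i ∈ s, 0 < i) :
    (s.map fun i => PowerSeries.coeff i (gFinal t α)).prod =
      t ^ Multiset.card s * (s.map fun i => t * sE α (i - 1) + 1 + α ^ i).prod := by
  induction s using Multiset.induction_on with
  | empty => simp
  | cons a s ih =>
    have ha : 0 < a := hs a (Multiset.mem_cons_self a s)
    obtain ⟨m, rfl⟩ : ∃ m, a = m + 1 := ⟨a - 1, by omega⟩
    rw [Multiset.map_cons, Multiset.prod_cons, Multiset.map_cons, Multiset.prod_cons,
      Multiset.card_cons, ih (fun i hi => hs i (Multiset.mem_cons_of_mem hi)),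
      coeff_gFinal_succ, Nat.add_sub_cancel, pow_succ]
    ring

lemma D_term (c : K) (m a d : ℕ) (P : K[X][X]) :
    ((C (C c) * (C X) ^ m * P).coeff a).coeff d =
      c * (if m ≤ d then (P.coeff a).coeff (d - m) else 0) := by
  have : C (C c) * (C (X : K[X])) ^ m * P = C (C c * X ^ m) * P := by
    simp only [map_mul, map_pow]
  rw [this, Polynomial.coeff_C_mul, mul_assoc, Polynomial.coeff_C_mul, Polynomial.coeff_X_pow_mul']

variable [IsDomain K] [CharZero K] [Algebra ℚ K]
variable {n : ℕ} {E : Fin n → Fin n → Prop} [DecidableRel E]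

/-- value of `r` -/
def rU (E : Fin n → Fin n → Prop) [DecidableRel E] (qh : K) (U : Finset (Fin n)) : K :=
  qI qh U.card * tauU E qh U

lemma Zf_C_expand (hE : ∀ a b, E a b → a < b)
    (hW : ∀ i i' j, i < i' → i' < j → E i j → E i' j ∧ E i i')
    (qh : K) (U : Finset (Fin n)) (hU : U ≠ ∅) :
    ∃ P : K[X], Zf E (C qh) ((X : K[X]) - 1) ∅ U = X * C (rU E qh U) + X ^ 2 * P := by
  obtain ⟨P, hP⟩ := Zf_expand hE hW (C qh) (X : K[X]) U hU
  refine ⟨P, ?_⟩
  rw [hP]
  unfold rU
  have h1 : C (qI qh U.card * tauU E qh U) = qI (C qh) U.card * tauU E (C qh) U := by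
    rw [map_mul]
    have h2 := map_qI (C : K →+* K[X]) qh U.card
    have h3 := map_tauU (E := E) (C : K →+* K[X]) qh U
    rw [h2, h3]
  rw [h1]

lemma coeff_two_prod (r w r' : K) (P P' : K[X]) :
    ((X * C r + X ^ 2 * P) * C w * (X * C r' + X ^ 2 * P')).coeff 2 = r * w * r' := by
  have : (X * C r + X ^ 2 * P) * C w * (X * C r' + X ^ 2 * P') =
      X ^ 2 * (C (r * w * r') + X * (C r * C w * P' + P * C w * C r' + X * (P * C w * P'))) := by
    simp only [map_mul]
    ring
  rw [this, Polynomial.coeff_X_pow_mul']
  simp

variable (hE : ∀ a b, E a b → a < b)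
  (hW : ∀ i i' j, i < i' → i' < j → E i j → E i' j ∧ E i i')
  (qh : K) (c : n.Partition → K)
  (H : ∀ L : List K[X][X], conv E (C (C qh)) L Finset.univ =
      ∑ l : n.Partition, C (C (c l)) * (l.parts.map fun i => (L : Multiset K[X][X]).esymm i).prod)

include hE hW H in
/-- the identity after substitution -/
lemma identity_sub :
    ∑ U ∈ (Finset.univ : Finset (Fin n)).powerset,
      C (Zf E (C qh) ((X : K[X]) - 1) ∅ U * (C qh) ^ eCount E U (Finset.univ \ U) *
        Zf E (C qh) ((X : K[X]) - 1) ∅ (Finset.univ \ U)) * X ^ U.card =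
    ∑ l : n.Partition, C (C (c l)) * (C X) ^ Multiset.card l.parts *
      (l.parts.map fun i => ell (K := K) i).prod := by
  have h := main_identity (V := Fin n) (E := E) (ι := n.Partition)
    (c := fun l => C (C (c l))) (parts := fun l => l.parts) hE hW
    (C (C qh) : K[X][X]) (C X) X H
  have hZ : ∀ U : Finset (Fin n), Zf E (C (C qh) : K[X][X]) (C (X : K[X]) - 1) ∅ U =
      C (Zf E (C qh) ((X : K[X]) - 1) ∅ U) := by
    intro U
    have := map_Zf (E := E) (C : K[X] →+* K[X][X]) (C qh) ((X : K[X]) - 1) ∅ U
    rw [this]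
    simp
  calc _ = ∑ U ∈ (Finset.univ : Finset (Fin n)).powerset,
        ((X : K[X][X]) ^ U.card * Zf E (C (C qh)) (C (X : K[X]) - 1) ∅ U) *
          (C (C qh)) ^ eCount E U (Finset.univ \ U) *
          Zf E (C (C qh)) (C (X : K[X]) - 1) ∅ (Finset.univ \ U) := by
        refine Finset.sum_congr rfl fun U _ => ?_
        rw [hZ, hZ]
        simp only [map_mul, map_pow]
        ring
    _ = _ := h
    _ = _ := by
        refine Finset.sum_congr rfl fun l _ => ?_
        rw [prod_map_coeff_gFinal _ _ _ (fun i hi => l.parts_pos hi), mul_assoc]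
        rfl

lemma coeff_ell_mul_ell (x y a : ℕ) (ha : 0 < a) (hay : a < x + y) :
    ((ell (K := K) x * ell y).coeff a).coeff 0 =
      (if a = x then 1 else 0) + (if a = y then 1 else 0) := by
  have h1 : ((ell (K := K) x * ell y).coeff a).coeff 0 =
      ((ell (K := K) x * ell y).map Polynomial.constantCoeff).coeff a := by
    rw [Polynomial.coeff_map]
    rfl
  rw [h1, Polynomial.map_mul, map_constantCoeff_ell, map_constantCoeff_ell]
  have h2 : (1 + (X : K[X]) ^ x) * (1 + X ^ y) = 1 + X ^ x + X ^ y + X ^ (x + y) := by ring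
  rw [h2]
  simp only [Polynomial.coeff_add, Polynomial.coeff_one, Polynomial.coeff_X_pow]
  rw [if_neg (by omega), if_neg (by omega : ¬ a = x + y)]
  ring

lemma parts_pair_prod (x y : ℕ) :
    (({x, y} : Multiset ℕ).map fun i => ell (K := K) i).prod = ell x * ell y := by
  simp [Multiset.insert_eq_cons]

include hE hW H in
/-- The coefficient of `e_n`. -/
theorem coeff_one_part (hn : 0 < n) :
    c (Nat.Partition.indiscrete n) = rU E qh Finset.univ := by
  have h := congrArg (fun f : K[X][X] => (f.coeff n).coeff 1) (identity_sub hE hW qh c H)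
  simp only [Polynomial.finset_sum_coeff, Polynomial.coeff_C_mul_X_pow, D_term] at h
  rw [Finset.sum_eq_single (Finset.univ : Finset (Fin n)),
    Finset.sum_eq_single (Nat.Partition.indiscrete n)] at h
  · have hne : n ≠ 0 := by omega
    have hp : (Nat.Partition.indiscrete n).parts = {n} := Nat.Partition.indiscrete_parts hne
    have hz : ((Finset.univ : Finset (Fin n)) \ Finset.univ) = ∅ := Finset.sdiff_self _
    have hune : (Finset.univ : Finset (Fin n)) ≠ ∅ := by
      haveI : Nonempty (Fin n) := ⟨⟨0, hn⟩⟩
      exact Finset.univ_nonempty.ne_empty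
    obtain ⟨P, hP⟩ := Zf_C_expand hE hW qh (Finset.univ : Finset (Fin n)) hune
    rw [hz] at h
    simp only [Finset.card_univ, Fintype.card_fin, if_true, eCount_empty_right, pow_zero, mul_one,
      Zf_empty_empty, hP, hp, Multiset.card_singleton, le_refl, Nat.sub_self,
      Multiset.map_singleton, Multiset.prod_singleton] at h
    rw [coeff_ell n n hn] at h
    simp only [lt_irrefl, and_false, if_false, hne, if_true, zero_add, Polynomial.coeff_one_zero,
      mul_one] at h
    rw [← h]
    simp [Polynomial.coeff_X_pow_mul']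
  · intro l _ hl
    rw [if_neg, mul_zero]
    intro hle
    have h0 : Multiset.card l.parts ≠ 0 := by
      intro h0
      have : l.parts = 0 := Multiset.card_eq_zero.mp h0
      have hs := l.parts_sum
      rw [this] at hs
      simp at hs
      omega
    have h1 : Multiset.card l.parts = 1 := by omega
    obtain ⟨m, hm⟩ := Multiset.card_eq_one.mp h1
    apply hl
    have hs := l.parts_sum
    rw [hm] at hs
    simp at hs
    subst hs
    apply Nat.Partition.ext
    rw [hm, Nat.Partition.indiscrete_parts (by omega)]
  · intro h'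
    exact absurd (Finset.mem_univ _) h'
  · intro U _ hU
    rw [if_neg]
    · simp
    · intro hc
      apply hU
      rw [← Finset.card_eq_iff_eq_univ, Fintype.card_fin]
      exact hc.symm
  · intro h'
    exfalso
    exact h' (Finset.mem_powerset.mpr (Finset.subset_univ _))

include hE hW H in
/-- The coefficient of `e_a e_b`. -/
theorem coeff_two_part (a b : ℕ) (ha : 0 < a) (hb : 0 < b) (hab : a + b = n)
    (l₂ : n.Partition) (hl₂ : l₂.parts = {a, b}) :
    ∑ U ∈ Finset.powersetCard a (Finset.univ : Finset (Fin n)),
        rU E qh U * qh ^ eCount E U (Finset.univ \ U) * rU E qh (Finset.univ \ U) =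
      c (Nat.Partition.indiscrete n) + (if a = b then 2 else 1) * c l₂ := by
  have hn : 0 < n := by omega
  have hne : n ≠ 0 := by omega
  have h := congrArg (fun f : K[X][X] => (f.coeff a).coeff 2) (identity_sub hE hW qh c H)
  simp only [Polynomial.finset_sum_coeff, Polynomial.coeff_C_mul_X_pow, D_term] at h
  -- left side
  have hL : ∑ U ∈ (Finset.univ : Finset (Fin n)).powerset,
      ((if a = U.card then Zf E (C qh) ((X : K[X]) - 1) ∅ U * (C qh) ^ eCount E U (Finset.univ \ U) *
        Zf E (C qh) ((X : K[X]) - 1) ∅ (Finset.univ \ U) else 0) : K[X]).coeff 2 =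
      ∑ U ∈ Finset.powersetCard a (Finset.univ : Finset (Fin n)),
        rU E qh U * qh ^ eCount E U (Finset.univ \ U) * rU E qh (Finset.univ \ U) := by
    rw [Finset.powersetCard_eq_filter, Finset.sum_filter]
    refine Finset.sum_congr rfl fun U _ => ?_
    by_cases hU : U.card = a
    · rw [if_pos hU.symm, if_pos hU]
      have hUne : U ≠ ∅ := by
        intro h0
        rw [h0] at hU
        simp at hU
        omega
      have hcard : (Finset.univ \ U).card = b := by
        rw [Finset.card_sdiff_of_subset (Finset.subset_univ _), Finset.card_univ, Fintype.card_fin]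
        omega
      have hVne : (Finset.univ \ U) ≠ ∅ := by
        intro h0
        rw [h0] at hcard
        simp at hcard
        omega
      obtain ⟨P, hP⟩ := Zf_C_expand hE hW qh U hUne
      obtain ⟨P', hP'⟩ := Zf_C_expand hE hW qh _ hVne
      rw [hP, hP', ← map_pow, coeff_two_prod]
    · rw [if_neg (fun h' => hU h'.symm), if_neg hU]
      simp
  rw [hL] at h
  rw [h]
  have hl₁ : (Nat.Partition.indiscrete n).parts = {n} := Nat.Partition.indiscrete_parts hne
  have hne12 : Nat.Partition.indiscrete n ≠ l₂ := by
    intro he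
    have h1 := congrArg (fun l : n.Partition => Multiset.card l.parts) he
    simp only [hl₁, hl₂] at h1
    simp at h1
  rw [Finset.sum_eq_add (Nat.Partition.indiscrete n) l₂ hne12]
  · congr 1
    · rw [hl₁]
      simp only [Multiset.card_singleton, Multiset.map_singleton, Multiset.prod_singleton]
      rw [if_pos (by norm_num), coeff_ell n a hn, if_pos ⟨ha, by omega⟩, if_neg (by omega),
        if_neg (by omega)]
      simp
    · rw [hl₂, parts_pair_prod]
      have hc : Multiset.card ({a, b} : Multiset ℕ) = 2 := by simp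
      rw [hc, if_pos (le_refl 2), Nat.sub_self, coeff_ell_mul_ell a b a ha (by omega)]
      by_cases hq : a = b
      · rw [if_pos rfl, if_pos hq, if_pos hq]
        ring
      · rw [if_pos rfl, if_neg hq, if_neg hq]
        ring
  · intro l _ hl
    obtain ⟨hl1, hl2⟩ := hl
    by_cases hcard : Multiset.card l.parts ≤ 2
    · rw [if_pos hcard]
      have h0 : Multiset.card l.parts ≠ 0 := by
        intro h0
        have : l.parts = 0 := Multiset.card_eq_zero.mp h0
        have hs := l.parts_sum
        rw [this] at hs
        simp at hs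
        omega
      by_cases h1 : Multiset.card l.parts = 1
      · exfalso
        obtain ⟨m, hm⟩ := Multiset.card_eq_one.mp h1
        apply hl1
        have hs := l.parts_sum
        rw [hm] at hs
        simp at hs
        subst hs
        apply Nat.Partition.ext
        rw [hm, Nat.Partition.indiscrete_parts (by omega)]
      · have h2 : Multiset.card l.parts = 2 := by omega
        obtain ⟨x, y, hxy⟩ := Multiset.card_eq_two.mp h2
        have hs := l.parts_sum
        rw [hxy] at hs
        have hs' : x + y = n := by simpa using hs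
        rw [h2, Nat.sub_self, hxy, parts_pair_prod, coeff_ell_mul_ell x y a ha (by omega)]
        have hax : a ≠ x := by
          rintro rfl
          apply hl2
          apply Nat.Partition.ext
          have : y = b := by omega
          rw [hxy, hl₂, this]
        have hay : a ≠ y := by
          rintro rfl
          apply hl2
          apply Nat.Partition.ext
          have : x = b := by omega
          rw [hxy, hl₂, this, Multiset.pair_comm]
        simp [hax, hay]
    · rw [if_neg hcard, mul_zero]
  · intro h'
    exact absurd (Finset.mem_univ _) h'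
  · intro h'
    exact absurd (Finset.mem_univ _) h'

end extract

end Vale.Agent.Lib.P066
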