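import Vale.Agent.Lib.P066.HookExtract

/-!
All hook coefficients have nonnegative coefficients.
-/

open Finset Polynomial

namespace Vale.Agent.Lib.P066

set_option linter.unusedSectionVars false
set_option linter.unusedSimpArgs false
set_option linter.unusedVariables false

section noedge

variable {V : Type*} [LinearOrder V] {E : V → V → Prop} [DecidableRel E]
variable (hE : ∀ a b, E a b → a < b)
  (hW : ∀ i i' j, i < i' → i' < j → E i j → E i' j ∧ E i i')

include hE hW in
lemma Qf_no_edge (U : Finset V) : ¬ HasEdge E U →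
    Qf E ∅ U = (U.card : S2) * yS2 ^ (U.card - 1) := by
  induction U using Finset.induction_on_max with
  | empty =>
    intro _
    simp [Qf, sG, rV]
  | insert n X hX ih =>
    intro hne
    have hX' : ∀ x ∈ X, x < n := hX
    have hnX : n ∉ X := fun h => lt_irrefl _ (hX' n h)
    have hneX : ¬ HasEdge E X := by
      rintro ⟨u, hu, v, hv, huv⟩
      exact hne ⟨u, Finset.mem_insert_of_mem hu, v, Finset.mem_insert_of_mem hv, huv⟩
    have ha : aC E X n = 0 := by
      unfold aC
      rw [Finset.card_eq_zero, Finset.filter_eq_empty_iff]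
      intro x hx hxn
      exact hne ⟨x, Finset.mem_insert_of_mem hx, n, Finset.mem_insert_self _ _, hxn⟩
    rw [Qf_insert_zero hE hW X ∅ n hX' (suf_empty _) ha, ih hneX, Pf_empty hE hW, if_pos,
      if_neg (by simp), Finset.card_insert_of_notMem hnX]
    · have hz : zeta E yS2 X = yS2 ^ X.card := by
        unfold zeta
        rw [if_pos]
        intro a ha b hb hab
        exact hneX ⟨a, ha, b, hb, hab⟩
      rw [hz]
      cases hc : X.card with
      | zero =>
        simp
      | succ m =>
        simp only [Nat.add_sub_cancel, pow_succ, Nat.cast_add, Nat.cast_one]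
        ring
    · exact Finset.disjoint_empty_right _

include hE hW in
lemma Qf_form (U : Finset V) :
    ∃ C₀ : S2, NN2 C₀ ∧ ∃ m : ℕ, Qf E ∅ U = (1 + yS2) * C₀ + (m : S2) * yS2 ^ (U.card - 1) := by
  by_cases he : HasEdge E U
  · obtain ⟨C₀, h1, h2⟩ := (hook_pos hE hW U).2.2.1 he
    exact ⟨C₀, h1, 0, by simpa using h2⟩
  · exact ⟨0, NN2_zero, U.card, by rw [Qf_no_edge hE hW U he]; simp⟩

end noedge

variable {n : ℕ}

/-- the substitution from `ℤ[q][y]` to `ℚ[q][y]` -/
noncomputable def phiS : S2 →+* (ℚ[X])[X] :=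
  Polynomial.mapRingHom (Polynomial.mapRingHom (Int.castRingHom ℚ))

lemma phiS_qS : phiS qS = C X := by
  simp [phiS, qS]

lemma phiS_yS : phiS yS2 = X := by
  simp [phiS, yS2]

lemma coeff_phiS (f : S2) (j : ℕ) : (phiS f).coeff j = (f.coeff j).map (Int.castRingHom ℚ) := by
  simp [phiS, Polynomial.coeff_map]

lemma phiS_Qf (h : Fin n → Fin n) :
    phiS (Qf (IsEdge h) ∅ Finset.univ) =
      ∑ U ∈ (Finset.univ : Finset (Fin n)).powerset,
        C (rU (IsEdge h) (X : ℚ[X]) U * (X : ℚ[X]) ^ eCount (IsEdge h) U (Finset.univ \ U)) *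
          zeta (IsEdge h) (X : (ℚ[X])[X]) (Finset.univ \ U) := by
  unfold Qf sG
  rw [map_sum]
  simp only [Finset.disjoint_empty_right, if_true]
  refine Finset.sum_nbij' (fun J => Finset.univ \ J) (fun U => Finset.univ \ U) ?_ ?_ ?_ ?_ ?_
  · intro J _
    exact Finset.mem_powerset.mpr (Finset.subset_univ _)
  · intro J _
    exact Finset.mem_powerset.mpr (Finset.subset_univ _)
  · intro J _
    exact Finset.sdiff_sdiff_eq_self (Finset.subset_univ _)
  · intro J _
    exact Finset.sdiff_sdiff_eq_self (Finset.subset_univ _)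
  · intro J _
    rw [Finset.sdiff_sdiff_eq_self (Finset.subset_univ _), map_mul, map_mul, map_pow, map_zeta,
      phiS_qS, phiS_yS]
    have h1 : phiS (rV (IsEdge h) qS (Finset.univ \ J)) =
        C (rU (IsEdge h) (X : ℚ[X]) (Finset.univ \ J)) := by
      unfold rV rU
      rw [map_mul, map_qI, map_tauU, phiS_qS, map_mul]
      have h2 := map_qI (C : ℚ[X] →+* (ℚ[X])[X]) (X : ℚ[X]) (Finset.univ \ J).card
      have h3 := map_tauU (E := IsEdge h) (C : ℚ[X] →+* (ℚ[X])[X]) (X : ℚ[X]) (Finset.univ \ J)
      rw [h2, h3]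
    rw [h1, map_mul, map_pow]
    ring

/-- parts are determined by the number of ones when there is exactly one part at least two -/
lemma parts_eq_of_hook (s t : Multiset ℕ) (hs : ∀ i ∈ s, 0 < i) (ht : ∀ i ∈ t, 0 < i)
    (hsum : s.sum = t.sum) (hk : kTwo s = 1) (hk' : kTwo t = 1) (hm : mOne s = mOne t) : s = t := by
  have split : ∀ u : Multiset ℕ, (∀ i ∈ u, 0 < i) → kTwo u = 1 →
      ∃ x, u = Multiset.replicate (mOne u) 1 + {x} := by
    intro u hu hk
    obtain ⟨x, hx⟩ := Multiset.card_eq_one.mp hk
    refine ⟨x, ?_⟩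
    rw [← hx]
    have h1 : u.filter (fun i => ¬ 2 ≤ i) = Multiset.replicate (mOne u) 1 := by
      unfold mOne
      rw [← Multiset.filter_eq']
      apply Multiset.filter_congr
      intro i hi
      have := hu i hi
      omega
    rw [← h1, add_comm]
    exact (Multiset.filter_add_not _ u).symm
  obtain ⟨x, hx⟩ := split s hs hk
  obtain ⟨y, hy⟩ := split t ht hk'
  have : x = y := by
    have h1 := hsum
    rw [hx, hy, hm] at h1
    simpa using h1
  rw [hx, hy, hm, this]

/-- The hook coefficients lie in `ℕ[q]`. -/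
theorem coeff_hook_nonneg {h : Fin n → Fin n} (hm : Monotone h)
    {c : n.Partition → Polynomial ℤ} (hc : IsEExpansion h c) (a b : ℕ) (ha : 2 ≤ a)
    (l₀ : n.Partition) (hl₀ : l₀.parts = a ::ₘ Multiset.replicate b 1) :
    NonnegCoeffs (c l₀) := by
  have hEt : ∀ a b, IsEdge h a b → a < b := isEdge_lt h
  have hWt := isEdge_window hm
  let cb : n.Partition → ℚ[X] := fun l => (c l).map (Int.castRingHom ℚ)
  have hid := hook_identity (K := ℚ[X]) (E := IsEdge h) hEt hWt (X : ℚ[X]) cb
    (eval_chromaticQ h c hc)
  rw [← phiS_Qf] at hid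
  obtain ⟨C₀, hC₀, m, hQ⟩ := Qf_form hEt hWt (Finset.univ : Finset (Fin n))
  rw [Finset.card_univ, Fintype.card_fin] at hQ
  rw [hQ, map_add, map_mul, map_mul, map_add, map_one, phiS_yS, map_pow, phiS_yS, map_natCast] at hid
  -- the two parts of the right side
  let Cc : (ℚ[X])[X] := ∑ l : n.Partition, if kTwo l.parts = 1 then
    C (cb l) * X ^ mOne l.parts else 0
  let Cz : ℚ[X] := ∑ l : n.Partition, if kTwo l.parts = 0 then cb l else 0
  have hsplit : ∑ l : n.Partition, C (cb l) * hookVal (X : (ℚ[X])[X]) l.parts =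
      (1 + X) * Cc + C Cz * ((n : (ℚ[X])[X]) * X ^ (n - 1)) := by
    simp only [Cc, Cz]
    rw [Finset.mul_sum, map_sum, Finset.sum_mul, ← Finset.sum_add_distrib]
    refine Finset.sum_congr rfl fun l _ => ?_
    unfold hookVal
    by_cases h1 : kTwo l.parts = 1
    · simp only [h1, if_true, one_ne_zero, if_false, map_zero, zero_mul, add_zero]
      ring
    · by_cases h0 : kTwo l.parts = 0
      · have hall : mOne l.parts = n := by
          have hf : l.parts.filter (fun i => 2 ≤ i) = 0 := Multiset.card_eq_zero.mp h0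
          have hrep : l.parts = Multiset.replicate (mOne l.parts) 1 := by
            unfold mOne
            rw [← Multiset.filter_eq']
            symm
            rw [Multiset.filter_eq_self]
            intro i hi
            have h2 := l.parts_pos hi
            by_contra hne
            have : i ∈ l.parts.filter (fun i => 2 ≤ i) :=
              Multiset.mem_filter.mpr ⟨hi, by omega⟩
            rw [hf] at this
            simp at this
          have hs := l.parts_sum
          rw [hrep] at hs
          simpa using hs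
        have h01 : ¬ (0 : ℕ) = 1 := by norm_num
        rw [h0, hall]
        simp only [h01, if_false, if_true, mul_zero, zero_add]
      · simp only [h1, h0, if_false, mul_zero, map_zero, zero_mul, add_zero]
  rw [hsplit] at hid
  -- evaluate at `-1`
  have hev := congrArg (Polynomial.eval (-1 : ℚ[X])) hid
  simp only [Polynomial.eval_add, Polynomial.eval_mul, Polynomial.eval_one, Polynomial.eval_X,
    add_neg_cancel, zero_mul, zero_add, Polynomial.eval_pow, Polynomial.eval_natCast,
    Polynomial.eval_C] at hev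
  have hcancel : (m : ℚ[X]) = Cz * (n : ℚ[X]) := by
    have hne : ((-1 : ℚ[X]) ^ (n - 1)) ≠ 0 := pow_ne_zero _ (by simp)
    apply mul_right_cancel₀ hne
    rw [hev]
    ring
  have hmain : phiS C₀ = Cc := by
    have h1 : (1 + X : (ℚ[X])[X]) * phiS C₀ = (1 + X) * Cc := by
      have h2 : (C ((m : ℚ[X])) : (ℚ[X])[X]) = C Cz * (n : (ℚ[X])[X]) := by
        rw [hcancel, map_mul]
        simp
      have h3 : ((m : (ℚ[X])[X])) = C Cz * (n : (ℚ[X])[X]) := by
        rw [← h2]
        simp
      have h4 := hid
      rw [h3] at h4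
      linear_combination h4
    have hne : (1 + X : (ℚ[X])[X]) ≠ 0 := by
      intro h0
      have := congrArg (fun f : (ℚ[X])[X] => f.coeff 1) h0
      simp [Polynomial.coeff_one] at this
    exact mul_left_cancel₀ hne h1
  -- coefficient at `b`
  have hcoef := congrArg (fun f : (ℚ[X])[X] => f.coeff b) hmain
  simp only [coeff_phiS] at hcoef
  have hl₀k : kTwo l₀.parts = 1 := by
    unfold kTwo
    rw [hl₀, Multiset.filter_cons_of_pos _ (by omega), Multiset.card_cons]
    have : (Multiset.replicate b 1).filter (fun i => 2 ≤ i) = 0 := by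
      rw [Multiset.filter_eq_nil]
      intro i hi
      rw [Multiset.eq_of_mem_replicate hi]
      omega
    rw [this]
    simp
  have hl₀m : mOne l₀.parts = b := by
    unfold mOne
    rw [hl₀, Multiset.count_cons_of_ne (by omega), Multiset.count_replicate_self]
  have hCc : Cc.coeff b = cb l₀ := by
    simp only [Cc]
    rw [Polynomial.finset_sum_coeff, Finset.sum_eq_single l₀]
    · rw [if_pos hl₀k, hl₀m, Polynomial.coeff_C_mul_X_pow, if_pos rfl]
    · intro l _ hne
      by_cases h1 : kTwo l.parts = 1
      · rw [if_pos h1, Polynomial.coeff_C_mul_X_pow, if_neg]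
        intro hb
        apply hne
        apply Nat.Partition.ext
        apply parts_eq_of_hook _ _ (fun i hi => l.parts_pos hi) (fun i hi => l₀.parts_pos hi)
        · rw [l.parts_sum, l₀.parts_sum]
        · exact h1
        · exact hl₀k
        · rw [hl₀m]
          exact hb.symm
      · rw [if_neg h1]
        simp
    · intro h'
      exact absurd (Finset.mem_univ _) h'
  rw [hCc] at hcoef
  have hfin : C₀.coeff b = c l₀ := map_injective_int hcoef
  rw [← hfin]
  exact hC₀ b

end Vale.Agent.Lib.P066
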