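import Vale.Agent.Lib.P066.Pos1

/-!
The coefficient of `e_{n-1} e_1`.
-/

open Finset Polynomial

namespace Vale.Agent.Lib.P066

set_option linter.unusedSectionVars false
set_option linter.unusedSimpArgs false
set_option linter.unusedVariables false

variable {n : ℕ}

lemma NN_of_two_mul {p : Polynomial ℤ} (h : NonnegCoeffs ((2 : Polynomial ℤ) * p)) :
    NonnegCoeffs p := by
  intro k
  have := h k
  have h2 : ((2 : Polynomial ℤ) * p).coeff k = 2 * p.coeff k := by
    have : (2 : Polynomial ℤ) = C 2 := rfl
    rw [this, Polynomial.coeff_C_mul]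
  rw [h2] at this
  omega

/-- One can cancel the factor in front of the coefficient. -/
lemma NN_of_ite_mul {a b : ℕ} {p : Polynomial ℤ}
    (h : NonnegCoeffs ((if a = b then 2 else 1) * p)) : NonnegCoeffs p := by
  split_ifs at h
  · exact NN_of_two_mul h
  · simpa using h

lemma rZ_singleton (h : Fin n → Fin n) (v : Fin n) : rZ h {v} = 1 := by
  simp [rZ, rU, tauU]

/-- The sum over vertices form of the `(n-1,1)` term. -/
lemma sum_powersetCard_pred (h : Fin n → Fin n) (hn : 1 ≤ n) :
    ∑ U ∈ Finset.powersetCard (n - 1) (Finset.univ : Finset (Fin n)),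
        rZ h U * X ^ eCount (IsEdge h) U (Finset.univ \ U) * rZ h (Finset.univ \ U) =
      qI X (n - 1) * ∑ v : Fin n, X ^ aC (IsEdge h) Finset.univ v *
        tauU (IsEdge h) X (Finset.univ.erase v) := by
  rw [Finset.mul_sum]
  symm
  refine Finset.sum_bij (fun v _ => (Finset.univ : Finset (Fin n)).erase v) ?_ ?_ ?_ ?_
  · intro v _
    rw [Finset.mem_powersetCard]
    refine ⟨Finset.subset_univ _, ?_⟩
    rw [Finset.card_erase_of_mem (Finset.mem_univ _), Finset.card_univ, Fintype.card_fin]
  · intro v _ w _ hvw
    by_contra hne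
    have h1 : w ∈ (Finset.univ : Finset (Fin n)).erase v :=
      Finset.mem_erase.mpr ⟨fun h => hne h.symm, Finset.mem_univ _⟩
    rw [hvw] at h1
    exact (Finset.mem_erase.mp h1).1 rfl
  · intro U hU
    have h1 := (Finset.mem_powersetCard.mp hU).2
    have h2 : (Finset.univ \ U).card = 1 := by
      rw [Finset.card_sdiff_of_subset (Finset.subset_univ _), Finset.card_univ, Fintype.card_fin, h1]
      omega
    obtain ⟨v, hv⟩ := Finset.card_eq_one.mp h2
    refine ⟨v, Finset.mem_univ _, ?_⟩
    ext y
    simp only [Finset.mem_erase, Finset.mem_univ, and_true]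
    constructor
    · intro hy
      by_contra hyU
      have : y ∈ (Finset.univ \ U) := Finset.mem_sdiff.mpr ⟨Finset.mem_univ _, hyU⟩
      rw [hv] at this
      exact hy (Finset.mem_singleton.mp this)
    · intro hy hyv
      have : v ∈ (Finset.univ \ U) := by
        rw [hv]
        exact Finset.mem_singleton_self v
      exact (Finset.mem_sdiff.mp this).2 (hyv ▸ hy)
  · intro v _
    have hc : (Finset.univ \ (Finset.univ : Finset (Fin n)).erase v) = {v} := by
      ext y
      simp only [Finset.mem_sdiff, Finset.mem_univ, true_and, Finset.mem_erase, and_true,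
        Finset.mem_singleton]
      tauto
    rw [hc, rZ_singleton, eCount_singleton_right]
    have he : (((Finset.univ : Finset (Fin n)).erase v).filter fun i => IsEdge h i v).card =
        aC (IsEdge h) Finset.univ v := by
      unfold aC
      rw [Finset.filter_erase, Finset.erase_eq_of_notMem]
      intro h1
      exact lt_irrefl _ (Finset.mem_filter.mp h1).2.1
    rw [he]
    unfold rZ rU
    rw [Finset.card_erase_of_mem (Finset.mem_univ _), Finset.card_univ, Fintype.card_fin]
    ring

/-- The coefficient of `e_{n-1} e_1` lies in `ℕ[q]`. -/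
theorem coeff_pred_one_nonneg {h : Fin n → Fin n} (hm : Monotone h)
    {c : n.Partition → Polynomial ℤ} (hc : IsEExpansion h c) (hn : 2 ≤ n)
    (l : n.Partition) (hl : l.parts = {n - 1, 1}) : NonnegCoeffs (c l) := by
  have hform := coeff_two_part_int hm hc (n - 1) 1 (by omega) (by omega) (by omega) l hl
  rw [sum_powersetCard_pred h (by omega)] at hform
  apply NN_of_ite_mul (a := n - 1) (b := 1)
  have hEt : ∀ a b, IsEdge h a b → a < b := isEdge_lt h
  have hWt := isEdge_window hm
  set E := IsEdge h with hEdef
  -- the minimal vertex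
  let m : Fin n := ⟨0, by omega⟩
  have hmin : ∀ x ∈ (Finset.univ : Finset (Fin n)), m ≤ x := fun x _ => Fin.le_def.mpr (Nat.zero_le _)
  have hsum : ∑ v : Fin n, (X : Polynomial ℤ) ^ aC E Finset.univ v *
        tauU E X (Finset.univ.erase v) =
      sumK E Finset.univ Finset.univ + tauU E X (Finset.univ.erase m) := by
    unfold sumK
    rw [← Finset.add_sum_erase _ _ (Finset.mem_univ m),
      ← Finset.add_sum_erase (a := m) _ _ (Finset.mem_univ m)]
    have h1 : aC E Finset.univ m = 0 := by
      unfold aC
      rw [Finset.card_eq_zero, Finset.filter_eq_empty_iff]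
      intro i _ hi
      exact absurd (hEt _ _ hi) (not_lt.mpr (hmin i (Finset.mem_univ _)))
    have h2 : ¬ ∃ i ∈ (Finset.univ : Finset (Fin n)), i < m := by
      rintro ⟨i, hi, hlt⟩
      exact absurd hlt (not_lt.mpr (hmin i hi))
    rw [h1, if_neg h2, pow_zero, one_mul, zero_add, add_comm]
    congr 1
    refine Finset.sum_congr rfl fun v hv => ?_
    have hvm : v ≠ m := (Finset.mem_erase.mp hv).1
    rw [if_pos]
    exact ⟨m, Finset.mem_univ _, lt_of_le_of_ne (hmin v (Finset.mem_univ _)) (Ne.symm hvm)⟩
  have hcard : (Finset.univ : Finset (Fin n)).card = n := by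
    rw [Finset.card_univ, Fintype.card_fin]
  have hr : rZ h Finset.univ = (1 + X * qI X (n - 1)) * tauU E X Finset.univ := by
    unfold rZ rU
    rw [hcard]
    obtain ⟨k, rfl⟩ : ∃ k, n = k + 1 := ⟨n - 1, by omega⟩
    rw [Nat.add_sub_cancel, qI_succ]
  have hrw : (if n - 1 = 1 then (2 : Polynomial ℤ) else 1) * c l =
      qI X (n - 1) * (sumK E Finset.univ Finset.univ + tauU E X (Finset.univ.erase m)) -
        (1 + X * qI X (n - 1)) * tauU E X Finset.univ := by
    rw [← hr, ← hsum, hform]
    ring
  rw [hrw]
  by_cases hconn : Conn E (Finset.univ : Finset (Fin n))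
  · have h1 := e1_nonneg hEt hWt Finset.univ hconn (by rw [hcard]; exact hn)
    have h2 := etop_nonneg hEt hWt Finset.univ hconn (by rw [hcard]; exact hn) m
      (Finset.mem_univ _) hmin
    rw [hcard] at h2
    have : qI (X : Polynomial ℤ) (n - 1) * (sumK E Finset.univ Finset.univ +
          tauU E X (Finset.univ.erase m)) - (1 + X * qI X (n - 1)) * tauU E X Finset.univ =
        qI X (n - 1) * e1 E Finset.univ +
          (qI X (n - 1) * tauU E X (Finset.univ.erase m) - tauU E X Finset.univ) := by
      unfold e1
      ring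
    rw [this]
    exact NN_add (NN_mul (NN_qI _) h1) h2
  · have h0 : tauU E (X : Polynomial ℤ) Finset.univ = 0 := by
      unfold Conn at hconn
      push Not at hconn
      obtain ⟨j, hj, hex, hzero⟩ := hconn
      unfold tauU
      apply Finset.prod_eq_zero hj
      rw [if_pos hex]
      have : aC E Finset.univ j = 0 := by omega
      rw [this, qI_zero]
    rw [h0, mul_zero, sub_zero]
    exact NN_mul (NN_qI _) (NN_add (NN_sumK _ _) (NN_tauU _))

end Vale.Agent.Lib.P066
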