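import Vale.Agent.Lib.P066.Pos1

/-!
Sums over independent sets of sinks: recursion on the top vertex.
-/

open Finset Polynomial

namespace Vale.Agent.Lib.P066

set_option linter.unusedSectionVars false
set_option linter.unusedSimpArgs false
set_option linter.unusedVariables false

section general

variable {S : Type*} [CommRing S]
variable {V : Type*} [LinearOrder V] {E : V → V → Prop} [DecidableRel E]

/-- The sum over independent `J ⊆ U` disjoint from `K` of `y^|J| q^e(U∖J, J) F(U∖J)`. -/
def sG (E : V → V → Prop) [DecidableRel E] (q y : S) (K : Finset V) (F : Finset V → S)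
    (U : Finset V) : S :=
  ∑ J ∈ U.powerset, if Disjoint J K then
    zeta E y J * q ^ eCount E (U \ J) J * F (U \ J) else 0

/-- `[|W|] τ(W)`. -/
def rV (E : V → V → Prop) [DecidableRel E] (q : S) (W : Finset V) : S :=
  qI q W.card * tauU E q W

variable (hE : ∀ a b, E a b → a < b)
  (hW : ∀ i i' j, i < i' → i' < j → E i j → E i' j ∧ E i i')

lemma Zf_congr (q s : S) (K K' W : Finset V)
    (h : ∀ I ⊆ W, Disjoint I K ↔ Disjoint I K') : Zf E q s K W = Zf E q s K' W := by
  unfold Zf
  refine Finset.sum_congr rfl fun I hI => ?_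
  simp only [h I (Finset.mem_powerset.mp hI)]

/-- the value of the `sdiff` after inserting the top vertex -/
lemma insert_sdiff_of_lt {X J : Finset V} {n : V} (hX : ∀ x ∈ X, x < n) (hJ : J ⊆ X) :
    insert n X \ J = insert n (X \ J) :=
  Finset.insert_sdiff_of_notMem _ fun h => lt_irrefl _ (hX n (hJ h))

lemma nbr_sdiff (X J : Finset V) (n : V) : nbr E (X \ J) n = nbr E X n \ J := by
  ext x
  simp only [nbr, Finset.mem_filter, Finset.mem_sdiff]
  tauto

lemma aC_sdiff_add (X J : Finset V) (n : V) (hJ : J ⊆ X) :
    aC E (X \ J) n + (J ∩ nbr E X n).card = aC E X n := by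
  unfold aC
  rw [← Finset.card_union_of_disjoint]
  · congr 1
    ext x
    simp only [Finset.mem_union, Finset.mem_filter, Finset.mem_sdiff, Finset.mem_inter, nbr]
    constructor
    · rintro (⟨⟨h1, _⟩, h3⟩ | ⟨h1, h2, h3⟩)
      · exact ⟨h1, h3⟩
      · exact ⟨h2, h3⟩
    · rintro ⟨h1, h2⟩
      by_cases hxI : x ∈ J
      · exact Or.inr ⟨hxI, h1, h2⟩
      · exact Or.inl ⟨⟨h1, hxI⟩, h2⟩
  · rw [Finset.disjoint_left]
    intro x hx hx'
    exact (Finset.mem_sdiff.mp (Finset.mem_filter.mp hx).1).2 (Finset.mem_inter.mp hx').1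

include hE hW in
/-- The recursion for `sG` when the top vertex has lower neighbours. -/
lemma sG_insert_pos (q y : S) (X K₁ : Finset V) (n : V) (hX : ∀ x ∈ X, x < n)
    (hK₁ : K₁ ⊆ nbr E X n) (a₀ : ℕ) (ha : aC E X n = a₀ + 1)
    (F Fa Fb Fc : Finset V → S)
    (hF : ∀ J ⊆ X, (∀ u ∈ J, ∀ v ∈ J, ¬ E u v) →
      F (insert n (X \ J)) = q * qI q (aC E (X \ J) n) * Fa (X \ J) + Fb (X \ J))
    (hFc : ∀ J ⊆ X, F (X \ J) = Fc (X \ J)) (ε : S) (hK : Finset V)
    (hhK : ∀ J ⊆ X, Disjoint J hK ↔ Disjoint J K₁) (hεn : n ∉ hK → ε = y) (hεn' : n ∈ hK → ε = 0) :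
    sG E q y hK F (insert n X) =
      q * qI q a₀ * sG E q y K₁ Fa X + q ^ (a₀ + 1) * sG E q y (nbr E X n) Fa X +
        sG E q y K₁ Fb X + ε * q ^ (a₀ + 1) * sG E q y (nbr E X n) Fc X := by
  have hnX : n ∉ X := fun h => lt_irrefl _ (hX n h)
  unfold sG
  rw [Finset.sum_powerset_insert hnX, Finset.mul_sum, Finset.mul_sum, Finset.mul_sum,
    ← Finset.sum_add_distrib, ← Finset.sum_add_distrib, ← Finset.sum_add_distrib,
    ← Finset.sum_add_distrib]
  refine Finset.sum_congr rfl fun J hJ => ?_
  have hJ' := Finset.mem_powerset.mp hJ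
  have hnJ : n ∉ J := fun h => hnX (hJ' h)
  -- the part of the sum with `n` in the sink set
  have hsd : insert n X \ insert n J = X \ J := by
    ext x
    simp only [Finset.mem_sdiff, Finset.mem_insert]
    constructor
    · rintro ⟨h1, h2⟩
      push Not at h2
      rcases h1 with h1 | h1
      · exact absurd h1 h2.1
      · exact ⟨h1, h2.2⟩
    · rintro ⟨h1, h2⟩
      refine ⟨Or.inr h1, ?_⟩
      push Not
      refine ⟨?_, h2⟩
      rintro rfl
      exact hnX h1
  have hB : (if Disjoint (insert n J) hK then
        zeta E y (insert n J) * q ^ eCount E (insert n X \ insert n J) (insert n J) *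
          F (insert n X \ insert n J) else 0) =
      ε * q ^ (a₀ + 1) * (if Disjoint J (nbr E X n) then
        zeta E y J * q ^ eCount E (X \ J) J * Fc (X \ J) else 0) := by
    rw [hsd, hFc J hJ']
    by_cases hnK : n ∈ hK
    · rw [if_neg, hεn' hnK]
      · ring
      · intro h
        exact (Finset.disjoint_left.mp h (Finset.mem_insert_self n J)) hnK
    · rw [hεn hnK]
      by_cases hgood : (∀ a ∈ J, ∀ b ∈ J, ¬ E a b) ∧ Disjoint J (nbr E X n)
      · obtain ⟨hind, hd⟩ := hgood
        have hdK : Disjoint (insert n J) hK := by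
          rw [Finset.disjoint_insert_left]
          refine ⟨hnK, (hhK J hJ').mpr (Finset.disjoint_of_subset_right hK₁ hd)⟩
        rw [if_pos hdK, if_pos hd]
        have hind' : ∀ a ∈ insert n J, ∀ b ∈ insert n J, ¬ E a b := by
          intro a ha b hb hab
          rcases Finset.mem_insert.mp ha with ha' | ha'
          · rcases Finset.mem_insert.mp hb with hb' | hb'
            · rw [ha', hb'] at hab
              exact lt_irrefl _ (hE _ _ hab)
            · rw [ha'] at hab
              exact lt_asymm (hE _ _ hab) (hX b (hJ' hb'))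
          · rcases Finset.mem_insert.mp hb with hb' | hb'
            · rw [hb'] at hab
              exact (Finset.disjoint_left.mp hd ha') (Finset.mem_filter.mpr ⟨hJ' ha', hab⟩)
            · exact hind a ha' b hb' hab
        have hz : zeta E y (insert n J) = y * zeta E y J := by
          unfold zeta
          rw [if_pos hind', if_pos hind, Finset.card_insert_of_notMem hnJ, pow_succ]
          ring
        have hdis : Disjoint ({n} : Finset V) J := by
          rw [Finset.disjoint_singleton_left]
          exact hnJ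
        have he : eCount E (X \ J) (insert n J) = eCount E (X \ J) J + (a₀ + 1) := by
          rw [Finset.insert_eq, union_comm, eCount_union_right E _ _ _ hdis.symm,
            eCount_singleton_right]
          congr 1
          rw [filter_eq_inter_nbr (X := X \ J) (X \ J) n (Finset.Subset.refl _)]
          have h1 : (X \ J) ∩ nbr E (X \ J) n = nbr E (X \ J) n :=
            Finset.inter_eq_right.mpr (Finset.filter_subset _ _)
          rw [h1, card_nbr]
          have h2 := aC_sdiff_add (E := E) X J n hJ'
          have h3 : (J ∩ nbr E X n).card = 0 := by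
            rw [Finset.card_eq_zero]
            exact Finset.disjoint_iff_inter_eq_empty.mp hd
          omega
        rw [hz, he, pow_add]
        ring
      · have hz0 : zeta E y (insert n J) = 0 := by
          unfold zeta
          rw [if_neg]
          intro hall
          apply hgood
          refine ⟨fun a ha b hb => hall a (Finset.mem_insert_of_mem ha) b
            (Finset.mem_insert_of_mem hb), ?_⟩
          rw [Finset.disjoint_left]
          intro x hx hx'
          exact hall x (Finset.mem_insert_of_mem hx) n (Finset.mem_insert_self _ _)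
            (Finset.mem_filter.mp hx').2
        rw [hz0]
        have : (if Disjoint J (nbr E X n) then
            zeta E y J * q ^ eCount E (X \ J) J * Fc (X \ J) else 0) = 0 := by
          by_cases hd : Disjoint J (nbr E X n)
          · rw [if_pos hd]
            have : ¬ ∀ a ∈ J, ∀ b ∈ J, ¬ E a b := fun h => hgood ⟨h, hd⟩
            unfold zeta
            rw [if_neg this]
            ring
          · rw [if_neg hd]
        rw [this]
        simp
  rw [hB]
  -- the part without `n`
  have hsd2 : insert n X \ J = insert n (X \ J) := insert_sdiff_of_lt hX hJ'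
  have hdisn : Disjoint ({n} : Finset V) (X \ J) := by
    rw [Finset.disjoint_singleton_left]
    intro h
    exact hnX (Finset.mem_sdiff.mp h).1
  have he2 : eCount E (insert n X \ J) J = eCount E (X \ J) J := by
    rw [hsd2, Finset.insert_eq, eCount_union_left E _ _ _ hdisn,
      eCount_singleton_left hE n J (fun x hx => hX x (hJ' hx)), zero_add]
  rw [he2, hsd2]
  by_cases hind : ∀ a ∈ J, ∀ b ∈ J, ¬ E a b
  · rw [hF J hJ' hind]
    have hcount := aC_sdiff_add (E := E) X J n hJ'
    have hle := card_inter_nbr_le hW X J n hX hJ' hind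
    simp only [hhK J hJ']
    by_cases hd : Disjoint J (nbr E X n)
    · have hd' : Disjoint J K₁ := Finset.disjoint_of_subset_right hK₁ hd
      have h0 : (J ∩ nbr E X n).card = 0 := by
        rw [Finset.card_eq_zero]
        exact Finset.disjoint_iff_inter_eq_empty.mp hd
      have h1 : aC E (X \ J) n = a₀ + 1 := by omega
      simp only [if_pos hd, if_pos hd', h1, qI_succ', pow_succ]
      ring
    · have h1 : (J ∩ nbr E X n).card = 1 := by
        have : (J ∩ nbr E X n).card ≠ 0 := by
          intro h
          rw [Finset.card_eq_zero] at h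
          exact hd (Finset.disjoint_iff_inter_eq_empty.mpr h)
        omega
      have h2 : aC E (X \ J) n = a₀ := by omega
      by_cases hd' : Disjoint J K₁
      · simp only [if_neg hd, if_pos hd', h2]
        ring
      · simp only [if_neg hd, if_neg hd']
        ring
  · have hz : zeta E y J = 0 := by
      unfold zeta
      rw [if_neg hind]
    simp only [hz, hhK J hJ']
    split_ifs <;> ring

include hE hW in
/-- The recursion for `sG` when the top vertex has no lower neighbour. -/
lemma sG_insert_zero (q y : S) (X : Finset V) (n : V) (hX : ∀ x ∈ X, x < n)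
    (ha : aC E X n = 0) (F Fb Fc : Finset V → S)
    (hF : ∀ J ⊆ X, F (insert n (X \ J)) = Fb (X \ J))
    (hFc : ∀ J ⊆ X, F (X \ J) = Fc (X \ J)) (ε : S) (hK : Finset V)
    (hhK : ∀ J ⊆ X, Disjoint J hK) (hεn : n ∉ hK → ε = y) (hεn' : n ∈ hK → ε = 0) :
    sG E q y hK F (insert n X) =
      sG E q y ∅ Fb X + ε * sG E q y ∅ Fc X := by
  have hnX : n ∉ X := fun h => lt_irrefl _ (hX n h)
  have hnb : nbr E X n = ∅ := Finset.card_eq_zero.mp ha
  unfold sG
  rw [Finset.sum_powerset_insert hnX, Finset.mul_sum, ← Finset.sum_add_distrib,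
    ← Finset.sum_add_distrib]
  refine Finset.sum_congr rfl fun J hJ => ?_
  have hJ' := Finset.mem_powerset.mp hJ
  have hnJ : n ∉ J := fun h => hnX (hJ' h)
  have hsd : insert n X \ insert n J = X \ J := by
    ext x
    simp only [Finset.mem_sdiff, Finset.mem_insert]
    constructor
    · rintro ⟨h1, h2⟩
      push Not at h2
      rcases h1 with h1 | h1
      · exact absurd h1 h2.1
      · exact ⟨h1, h2.2⟩
    · rintro ⟨h1, h2⟩
      refine ⟨Or.inr h1, ?_⟩
      push Not
      refine ⟨?_, h2⟩
      rintro rfl
      exact hnX h1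
  have hsd2 : insert n X \ J = insert n (X \ J) := insert_sdiff_of_lt hX hJ'
  have hdisn : Disjoint ({n} : Finset V) (X \ J) := by
    rw [Finset.disjoint_singleton_left]
    intro h
    exact hnX (Finset.mem_sdiff.mp h).1
  have he2 : eCount E (insert n X \ J) J = eCount E (X \ J) J := by
    rw [hsd2, Finset.insert_eq, eCount_union_left E _ _ _ hdisn,
      eCount_singleton_left hE n J (fun x hx => hX x (hJ' hx)), zero_add]
  have hdis : Disjoint ({n} : Finset V) J := by
    rw [Finset.disjoint_singleton_left]
    exact hnJ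
  have he : eCount E (X \ J) (insert n J) = eCount E (X \ J) J := by
    rw [Finset.insert_eq, union_comm, eCount_union_right E _ _ _ hdis.symm,
      eCount_singleton_right]
    have : ((X \ J).filter fun i => E i n) = ∅ := by
      rw [Finset.filter_eq_empty_iff]
      intro x hx hxn
      have : x ∈ nbr E X n := Finset.mem_filter.mpr ⟨(Finset.mem_sdiff.mp hx).1, hxn⟩
      rw [hnb] at this
      simp at this
    rw [this]
    simp
  have hzz : zeta E y (insert n J) = y * zeta E y J := by
    unfold zeta
    by_cases hind : ∀ a ∈ J, ∀ b ∈ J, ¬ E a b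
    · have hind' : ∀ a ∈ insert n J, ∀ b ∈ insert n J, ¬ E a b := by
        intro a ha' b hb hab
        rcases Finset.mem_insert.mp ha' with ha'' | ha''
        · rcases Finset.mem_insert.mp hb with hb' | hb'
          · rw [ha'', hb'] at hab
            exact lt_irrefl _ (hE _ _ hab)
          · rw [ha''] at hab
            exact lt_asymm (hE _ _ hab) (hX b (hJ' hb'))
        · rcases Finset.mem_insert.mp hb with hb' | hb'
          · rw [hb'] at hab
            have : a ∈ nbr E X n := Finset.mem_filter.mpr ⟨hJ' ha'', hab⟩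
            rw [hnb] at this
            simp at this
          · exact hind a ha'' b hb' hab
      rw [if_pos hind', if_pos hind, Finset.card_insert_of_notMem hnJ, pow_succ]
      ring
    · have hnind : ¬ ∀ a ∈ insert n J, ∀ b ∈ insert n J, ¬ E a b := by
        intro h
        exact hind fun a ha' b hb =>
          h a (Finset.mem_insert_of_mem ha') b (Finset.mem_insert_of_mem hb)
      rw [if_neg hnind, if_neg hind]
      simp
  rw [hsd, he2, hsd2, he, hF J hJ', hFc J hJ', if_pos (hhK J hJ')]
  simp only [Finset.disjoint_empty_right, if_true]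
  by_cases hnK : n ∈ hK
  · rw [if_neg, hεn' hnK]
    · ring
    · intro h
      exact (Finset.disjoint_left.mp h (Finset.mem_insert_self n J)) hnK
  · rw [if_pos, hεn hnK, hzz]
    · ring
    · rw [Finset.disjoint_insert_left]
      exact ⟨hnK, hhK J hJ'⟩

/-- recursion for `rV` -/
lemma rV_insert (q : S) (W : Finset V) (n : V) (hW' : ∀ x ∈ W, x < n)
    (hE : ∀ a b, E a b → a < b)
    (hW : ∀ i i' j, i < i' → i' < j → E i j → E i' j ∧ E i i') :
    rV E q (insert n W) =
      q * qI q (aC E W n) * rV E q W + Zf E q (-1) (nbr E W n) W := by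
  have hnW : n ∉ W := fun h => lt_irrefl _ (hW' n h)
  unfold rV
  rw [Zf_neg_one hE hW q W _ (suf_nbr hW W n hW'), Finset.card_insert_of_notMem hnW,
    tauU_insert hE q W n hW', card_nbr]
  by_cases h0 : W = ∅
  · subst h0
    simp [aC, tauU]
  · simp only [if_neg h0, qI_succ]
    ring

lemma disjoint_sdiff_congr {I J K : Finset V} (hIJ : Disjoint I J) :
    Disjoint I (K \ J) ↔ Disjoint I K := by
  constructor
  · intro h
    rw [Finset.disjoint_left] at h ⊢
    intro x hx hxN
    exact h hx (Finset.mem_sdiff.mpr ⟨hxN, Finset.disjoint_left.mp hIJ hx⟩)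
  · intro h
    exact Finset.disjoint_of_subset_right Finset.sdiff_subset h

lemma disjoint_of_subset_sdiff {I X J : Finset V} (hI : I ⊆ X \ J) : Disjoint I J := by
  rw [Finset.disjoint_left]
  intro x hx hxJ
  exact (Finset.mem_sdiff.mp (hI hx)).2 hxJ

include hE hW in
/-- the hypothesis for the recursion of the unique source sum -/
lemma hF_Q (q : S) (X : Finset V) (n : V) (hX : ∀ x ∈ X, x < n) (J : Finset V) :
    rV E q (insert n (X \ J)) =
      q * qI q (aC E (X \ J) n) * rV E q (X \ J) + Zf E q (-1) (nbr E X n) (X \ J) := by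
  have h3 : Zf E q (-1) (nbr E (X \ J) n) (X \ J) = Zf E q (-1) (nbr E X n) (X \ J) := by
    apply Zf_congr
    intro I hI
    rw [nbr_sdiff]
    exact disjoint_sdiff_congr (disjoint_of_subset_sdiff hI)
  rw [rV_insert q (X \ J) n (fun x hx => hX x (Finset.mem_sdiff.mp hx).1) hE hW, h3]

include hE hW in
/-- the hypothesis for the recursion of the restricted source sum -/
lemma hF_P (q : S) (X K₁ : Finset V) (n : V) (hX : ∀ x ∈ X, x < n) (hK₁ : K₁ ⊆ nbr E X n)
    (J : Finset V) (hnJ : n ∉ J) :
    Zf E q (-1) (insert n K₁) (insert n (X \ J)) =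
      q * qI q (aC E (X \ J) n) * Zf E q (-1) K₁ (X \ J) + Zf E q (-1) (nbr E X n) (X \ J) := by
  have hW' : ∀ x ∈ X \ J, x < n := fun x hx => hX x (Finset.mem_sdiff.mp hx).1
  have h1 : Zf E q (-1) (insert n K₁) (insert n (X \ J)) =
      Zf E q (-1) (insert n (K₁ \ J)) (insert n (X \ J)) := by
    apply Zf_congr
    intro I hI
    have hIJ' : Disjoint I J := by
      rw [Finset.disjoint_left]
      intro x hx hxJ
      rcases Finset.mem_insert.mp (hI hx) with h | h
      · exact hnJ (h ▸ hxJ)
      · exact (Finset.mem_sdiff.mp h).2 hxJ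
    simp only [Finset.disjoint_insert_right]
    rw [disjoint_sdiff_congr hIJ']
  have hsub : K₁ \ J ⊆ nbr E (X \ J) n := by
    rw [nbr_sdiff]
    exact Finset.sdiff_subset_sdiff hK₁ (Finset.Subset.refl _)
  have h2 : Zf E q (-1) (K₁ \ J) (X \ J) = Zf E q (-1) K₁ (X \ J) := by
    apply Zf_congr
    intro I hI
    exact disjoint_sdiff_congr (disjoint_of_subset_sdiff hI)
  have h3 : Zf E q (-1) (nbr E (X \ J) n) (X \ J) = Zf E q (-1) (nbr E X n) (X \ J) := by
    apply Zf_congr
    intro I hI
    rw [nbr_sdiff]
    exact disjoint_sdiff_congr (disjoint_of_subset_sdiff hI)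
  rw [h1, Zf_insert_insert hE hW q (-1) (X \ J) (K₁ \ J) n hW' hsub, h2, h3, add_comm]

end general

end Vale.Agent.Lib.P066
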