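import Vale.Agent.Lib.P066.HookPos

/-!
Extraction of the hook coefficients.
-/

open Finset Polynomial

namespace Vale.Agent.Lib.P066

set_option linter.unusedSectionVars false
set_option linter.unusedSimpArgs false
set_option linter.unusedVariables false

section main

variable {R : Type*} [CommRing R]
variable {V : Type*} [LinearOrder V] {E : V → V → Prop} [DecidableRel E]
variable [Fintype V]

/-- the series for the hook extraction -/
noncomputable def gHook (t a : R) : PowerSeries R :=
  ((1 * (1 + PowerSeries.C (1 * (t - 1)) * PowerSeries.X)) * yS (-1)) *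
    (1 + PowerSeries.C a * PowerSeries.X)

lemma gHook_eq (t a : R) : gHook t a = gOne t 1 * (1 + PowerSeries.C a * PowerSeries.X) := by
  unfold gHook
  rw [one_mul, one_add_mul_yS]

lemma coeff_gHook_one (t a : R) : PowerSeries.coeff 1 (gHook t a) = t + a := by
  rw [gHook_eq, mul_add, mul_one, map_add]
  have h : gOne t 1 * (PowerSeries.C a * PowerSeries.X) =
      PowerSeries.C a * (gOne t 1 * PowerSeries.X) := by ring
  rw [h, PowerSeries.coeff_C_mul]
  have h1 : PowerSeries.coeff 1 (gOne t 1 * PowerSeries.X) = PowerSeries.coeff 0 (gOne t 1) :=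
    PowerSeries.coeff_succ_mul_X _ _
  rw [h1]
  simp [gOne]

lemma coeff_gHook_add_two (t a : R) (i : ℕ) :
    PowerSeries.coeff (i + 2) (gHook t a) = t * (1 + a) := by
  rw [gHook_eq, mul_add, mul_one, map_add]
  have h : gOne t 1 * (PowerSeries.C a * PowerSeries.X) =
      PowerSeries.C a * (gOne t 1 * PowerSeries.X) := by ring
  rw [h, PowerSeries.coeff_C_mul]
  have h1 : PowerSeries.coeff (i + 2) (gOne t 1 * PowerSeries.X) =
      PowerSeries.coeff (i + 1) (gOne t 1) :=
    PowerSeries.coeff_succ_mul_X _ _
  rw [h1]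
  simp [gOne]
  ring

variable {ι : Type*} [Fintype ι] {c : ι → R} {parts : ι → Multiset ℕ}

/-- The main identity for hooks. -/
theorem main_identity_hook [IsDomain R] [CharZero R] [Algebra ℚ R]
    (hE : ∀ a b, E a b → a < b)
    (hW : ∀ i i' j, i < i' → i' < j → E i j → E i' j ∧ E i i')
    (q t a : R)
    (H : ∀ L : List R, conv E q L Finset.univ =
      ∑ l : ι, c l * ((parts l).map fun i => (L : Multiset R).esymm i).prod) :
    ∑ U ∈ (Finset.univ : Finset V).powerset,
        Zf E q (t - 1) ∅ U * q ^ eCount E U (Finset.univ \ U) * zeta E a (Finset.univ \ U) =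
      ∑ l : ι, c l * ((parts l).map fun i => PowerSeries.coeff i (gHook t a)).prod := by
  have H0 : Hol (ι := ι) E q c parts deltaF 1 := by
    intro L
    rw [star_delta_left, H L]
    refine Finset.sum_congr rfl fun l _ => ?_
    congr 2
    refine Multiset.map_congr rfl fun i _ => ?_
    simp [xiF, eSeries]
  have H1 := hol_val H0 (1 * (t - 1))
  have H2 := hol_neg H1 (-1) (aScaled E q 1) (star_zeta_neg_aScaled hE hW q 1)
  have H3 := hol_val H2 a
  have h := H3 []
  have hconv : star E q (star E q (star E q (star E q deltaF (zeta E (1 * (t - 1))))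
      (aScaled E q 1)) (zeta E a)) (conv E q ([] : List R)) Finset.univ =
      star E q (star E q (star E q deltaF (zeta E (1 * (t - 1))))
      (aScaled E q 1)) (zeta E a) Finset.univ := star_delta_right E q _ _
  rw [hconv] at h
  have h2 : star E q (star E q (star E q deltaF (zeta E (1 * (t - 1))))
      (aScaled E q 1)) (zeta E a) Finset.univ =
      ∑ U ∈ (Finset.univ : Finset V).powerset,
        Zf E q (t - 1) ∅ U * q ^ eCount E U (Finset.univ \ U) * zeta E a (Finset.univ \ U) := by
    unfold star
    refine Finset.sum_congr rfl fun U _ => ?_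
    have h3 : ∑ I ∈ U.powerset, (∑ I_1 ∈ I.powerset, deltaF I_1 * q ^ eCount E I_1 (I \ I_1) *
        zeta E (1 * (t - 1)) (I \ I_1)) * q ^ eCount E I (U \ I) * aScaled E q 1 (U \ I) =
        Zf E q (t - 1) ∅ U := by
      have h4 : star E q (zeta E (1 * (t - 1))) (aScaled E q 1) U = Zf E q (t - 1) ∅ U := by
        rw [star_zeta_aScaled, one_pow, one_mul]
      rw [← h4]
      unfold star
      refine Finset.sum_congr rfl fun I _ => ?_
      congr 2
      have := star_delta_left E q (zeta E (1 * (t - 1))) I
      unfold star at this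
      exact this
    rw [h3]
  rw [← h2, h]
  refine Finset.sum_congr rfl fun l _ => ?_
  congr 2
  refine Multiset.map_congr rfl fun i _ => ?_
  unfold xiF
  have : (([] : List R) : Multiset R) = 0 := rfl
  rw [this, eSeries_zero, mul_one]
  rfl

end main

section extract

variable {K : Type*} [CommRing K]

/-- the number of parts equal to one -/
def mOne (s : Multiset ℕ) : ℕ := s.count 1

/-- the number of parts at least two -/
def kTwo (s : Multiset ℕ) : ℕ := (s.filter fun i => 2 ≤ i).card

lemma prod_gHook {R : Type*} [CommRing R] (t a : R) (s : Multiset ℕ) (hs : ∀ i ∈ s, 0 < i) :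
    (s.map fun i => PowerSeries.coeff i (gHook t a)).prod =
      (t + a) ^ mOne s * (t * (1 + a)) ^ kTwo s := by
  induction s using Multiset.induction_on with
  | empty => simp [mOne, kTwo]
  | cons x s ih =>
    have hx : 0 < x := hs x (Multiset.mem_cons_self x s)
    rw [Multiset.map_cons, Multiset.prod_cons, ih (fun i hi => hs i (Multiset.mem_cons_of_mem hi))]
    by_cases h1 : x = 1
    · subst h1
      have h2 : mOne (1 ::ₘ s) = mOne s + 1 := by
        unfold mOne
        rw [Multiset.count_cons_self]
      have h3 : kTwo (1 ::ₘ s) = kTwo s := by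
        unfold kTwo
        rw [Multiset.filter_cons_of_neg]
        omega
      rw [h2, h3, coeff_gHook_one, pow_succ]
      ring
    · obtain ⟨i, rfl⟩ : ∃ i, x = i + 2 := ⟨x - 2, by omega⟩
      have h2 : mOne ((i + 2) ::ₘ s) = mOne s := by
        unfold mOne
        rw [Multiset.count_cons_of_ne]
        omega
      have h3 : kTwo ((i + 2) ::ₘ s) = kTwo s + 1 := by
        unfold kTwo
        rw [Multiset.filter_cons_of_pos _ (by omega), Multiset.card_cons]
      rw [h2, h3, coeff_gHook_add_two, pow_succ]
      ring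

open Polynomial

lemma coeff_pow_zero (a : K) (m : ℕ) : (((X : K[X]) + C a) ^ m).coeff 0 = a ^ m := by
  rw [Polynomial.coeff_zero_eq_eval_zero]
  simp

lemma coeff_pow_one (a : K) (m : ℕ) :
    (((X : K[X]) + C a) ^ m).coeff 1 = m * a ^ (m - 1) := by
  induction m with
  | zero => simp [Polynomial.coeff_one]
  | succ m ih =>
    rw [pow_succ, mul_add, Polynomial.coeff_add, Polynomial.coeff_mul_C, ih,
      show (1 : ℕ) = 0 + 1 from rfl, Polynomial.coeff_mul_X, coeff_pow_zero]
    cases m with
    | zero => simp
    | succ m =>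
      simp only [Nat.add_sub_cancel, Nat.cast_add, Nat.cast_one, pow_succ]
      ring

/-- the value of the coefficient of the first power of the variable marking sources -/
noncomputable def hookVal (a : K) (s : Multiset ℕ) : K :=
  if kTwo s = 1 then (1 + a) * a ^ mOne s
  else if kTwo s = 0 then (mOne s : K) * a ^ (mOne s - 1) else 0

lemma coeff_one_prod_gHook (a : K) (s : Multiset ℕ) (hs : ∀ i ∈ s, 0 < i) :
    ((s.map fun i => PowerSeries.coeff i (gHook (X : K[X]) (C a))).prod).coeff 1 =
      hookVal a s := by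
  rw [prod_gHook _ _ s hs]
  unfold hookVal
  by_cases h1 : kTwo s = 1
  · rw [h1, if_pos rfl, pow_one]
    have : ((X : K[X]) + C a) ^ mOne s * (X * (1 + C a)) =
        ((X + C a) ^ mOne s * C (1 + a)) * X := by
      simp only [map_add, map_one]
      ring
    rw [this, show (1 : ℕ) = 0 + 1 from rfl, Polynomial.coeff_mul_X, Polynomial.coeff_mul_C,
      coeff_pow_zero]
    ring
  · rw [if_neg h1]
    by_cases h0 : kTwo s = 0
    · rw [h0, if_pos rfl, pow_zero, mul_one, coeff_pow_one]
    · rw [if_neg h0]
      obtain ⟨k, hk⟩ : ∃ k, kTwo s = k + 2 := ⟨kTwo s - 2, by omega⟩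
      rw [hk]
      have : ((X : K[X]) + C a) ^ mOne s * (X * (1 + C a)) ^ (k + 2) =
          ((X + C a) ^ mOne s * (X * (1 + C a)) ^ k * (1 + C a) ^ 2) * X ^ 2 := by
        ring
      rw [this, Polynomial.coeff_mul_X_pow']
      simp

variable [IsDomain K] [CharZero K] [Algebra ℚ K]
variable {n : ℕ} {E : Fin n → Fin n → Prop} [DecidableRel E]

variable (hE : ∀ a b, E a b → a < b)
  (hW : ∀ i i' j, i < i' → i' < j → E i j → E i' j ∧ E i i')
  (qh : K) (c : n.Partition → K)
  (H : ∀ L : List K[X][X], conv E (C (C qh)) L Finset.univ =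
      ∑ l : n.Partition, C (C (c l)) * (l.parts.map fun i => (L : Multiset K[X][X]).esymm i).prod)

include hE hW H in
/-- The hook identity in `K[α]`. -/
lemma hook_identity :
    ∑ U ∈ (Finset.univ : Finset (Fin n)).powerset,
        C (rU E qh U * qh ^ eCount E U (Finset.univ \ U)) * zeta E (X : K[X]) (Finset.univ \ U) =
      ∑ l : n.Partition, C (c l) * hookVal (X : K[X]) l.parts := by
  have h := main_identity_hook (V := Fin n) (E := E) (ι := n.Partition)
    (c := fun l => C (C (c l))) (parts := fun l => l.parts) hE hW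
    (C (C qh) : K[X][X]) X (C X) H
  have h1 := congrArg (fun f : K[X][X] => f.coeff 1) h
  simp only [Polynomial.finset_sum_coeff] at h1
  have hR : ∀ l : n.Partition, (C (C (c l)) * (l.parts.map fun i =>
      PowerSeries.coeff i (gHook (X : K[X][X]) (C X))).prod).coeff 1 =
      C (c l) * hookVal (X : K[X]) l.parts := by
    intro l
    rw [Polynomial.coeff_C_mul, coeff_one_prod_gHook _ _ (fun i hi => l.parts_pos hi)]
  simp only [hR] at h1
  rw [← h1]
  refine Finset.sum_congr rfl fun U _ => ?_
  have hq : (C (C qh) : K[X][X]) ^ eCount E U (Finset.univ \ U) =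
      C (C (qh ^ eCount E U (Finset.univ \ U))) := by
    simp only [map_pow]
  have hz : zeta E (C (X : K[X]) : K[X][X]) (Finset.univ \ U) =
      C (zeta E (X : K[X]) (Finset.univ \ U)) := by
    rw [← map_zeta]
  rw [hq, hz, Polynomial.coeff_mul_C]
  by_cases hU : U = ∅
  · subst hU
    simp only [Zf_empty_empty]
    have h0 : rU E qh (∅ : Finset (Fin n)) = 0 := by simp [rU]
    rw [h0]
    simp [Polynomial.coeff_one]
  · obtain ⟨P, hP⟩ := Zf_expand hE hW (C (C qh) : K[X][X]) (X : K[X][X]) U hU
    rw [hP]
    have hc : qI (C (C qh) : K[X][X]) U.card * tauU E (C (C qh)) U = C (C (rU E qh U)) := by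
      unfold rU
      rw [map_mul, map_mul]
      have h2 := map_qI (C : K[X] →+* K[X][X]) (C qh) U.card
      have h3 := map_tauU (E := E) (C : K[X] →+* K[X][X]) (C qh) U
      have h4 := map_qI (C : K →+* K[X]) qh U.card
      have h5 := map_tauU (E := E) (C : K →+* K[X]) qh U
      rw [h4, h5, h2, h3]
    rw [hc]
    have hcoef : ((X : K[X][X]) * C (C (rU E qh U)) + X ^ 2 * P).coeff 1 = C (rU E qh U) := by
      simp [Polynomial.coeff_X_pow_mul']
    have hC2 : (((X : K[X][X]) * C (C (rU E qh U)) + X ^ 2 * P) *
        C (C (qh ^ eCount E U (Finset.univ \ U)))).coeff 1 =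
        C (rU E qh U) * C (qh ^ eCount E U (Finset.univ \ U)) := by
      rw [Polynomial.coeff_mul_C, hcoef]
    rw [hC2, map_mul]

end extract

end Vale.Agent.Lib.P066
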