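import Vale.Agent.Lib.P066.HookAlg

/-!
Positivity of the sums over sinks.
-/

open Finset Polynomial

namespace Vale.Agent.Lib.P066

set_option linter.unusedSectionVars false
set_option linter.unusedSimpArgs false
set_option linter.unusedVariables false

/-- The coefficient ring of polynomials in `y` over `ℤ[q]`. -/
abbrev S2 := Polynomial (Polynomial ℤ)

/-- all coefficients in `y` lie in `ℕ[q]` -/
def NN2 (f : S2) : Prop := ∀ k, NonnegCoeffs (f.coeff k)

lemma NN2_zero : NN2 0 := fun k => by simpa using NN_zero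

lemma NN2_one : NN2 1 := fun k => by
  rw [Polynomial.coeff_one]
  split_ifs
  · exact NN_one
  · exact NN_zero

lemma NN2_add {f g : S2} (hf : NN2 f) (hg : NN2 g) : NN2 (f + g) := fun k => by
  rw [Polynomial.coeff_add]
  exact NN_add (hf k) (hg k)

lemma NN2_mul {f g : S2} (hf : NN2 f) (hg : NN2 g) : NN2 (f * g) := fun k => by
  rw [Polynomial.coeff_mul]
  exact NN_sum _ _ fun x _ => NN_mul (hf _) (hg _)

lemma NN2_pow {f : S2} (hf : NN2 f) (m : ℕ) : NN2 (f ^ m) := by
  induction m with
  | zero => simpa using NN2_one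
  | succ m ih =>
    rw [pow_succ]
    exact NN2_mul ih hf

lemma NN2_sum {ι : Type*} (s : Finset ι) (f : ι → S2) (h : ∀ i ∈ s, NN2 (f i)) :
    NN2 (∑ i ∈ s, f i) := fun k => by
  rw [Polynomial.finset_sum_coeff]
  exact NN_sum _ _ fun i hi => h i hi k

/-- the variable `q` -/
noncomputable def qS : S2 := C X

/-- the variable `y` -/
noncomputable def yS2 : S2 := X

lemma NN2_qS : NN2 qS := fun k => by
  unfold qS
  rw [Polynomial.coeff_C]
  split_ifs
  · exact NN_X
  · exact NN_zero

lemma NN2_yS : NN2 yS2 := fun k => by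
  unfold yS2
  rw [Polynomial.coeff_X]
  split_ifs
  · exact NN_one
  · exact NN_zero

lemma NN2_qI (m : ℕ) : NN2 (qI qS m) :=
  NN2_sum _ _ fun i _ => NN2_pow NN2_qS i

variable {V : Type*} [LinearOrder V] {E : V → V → Prop} [DecidableRel E]

lemma NN2_zeta (x : S2) (hx : NN2 x) (I : Finset V) : NN2 (zeta E x I) := by
  unfold zeta
  split_ifs
  · exact NN2_pow hx _
  · exact NN2_zero

/-- The sum over sinks with the unique-source weight. -/
noncomputable def Qf (E : V → V → Prop) [DecidableRel E] (K U : Finset V) : S2 :=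
  sG E qS yS2 K (rV E qS) U

/-- The sum over sinks with the weight for sources restricted to `K'`. -/
noncomputable def Pf (E : V → V → Prop) [DecidableRel E] (K K' U : Finset V) : S2 :=
  sG E qS yS2 K (Zf E qS (-1) K') U

variable (hE : ∀ a b, E a b → a < b)
  (hW : ∀ i i' j, i < i' → i' < j → E i j → E i' j ∧ E i i')

/-- `U` contains an edge. -/
def HasEdge (E : V → V → Prop) (U : Finset V) : Prop := ∃ u ∈ U, ∃ v ∈ U, E u v

include hE hW in
lemma Zf_neg_one_empty (W : Finset V) :
    Zf E qS (-1) ∅ W = if W = ∅ then 1 else 0 := by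
  rw [Zf_neg_one hE hW qS W ∅ (suf_empty W)]
  by_cases h : W = ∅
  · simp [h]
  · simp [h]

include hE hW in
lemma Pf_empty (K U : Finset V) : Pf E K ∅ U = if Disjoint U K then zeta E yS2 U else 0 := by
  unfold Pf sG
  rw [Finset.sum_eq_single U]
  · simp only [Finset.sdiff_self]
    rw [Zf_neg_one_empty hE hW]
    simp
  · intro J hJ hne
    have : U \ J ≠ ∅ := by
      intro h
      exact hne (Finset.Subset.antisymm (Finset.mem_powerset.mp hJ)
        (Finset.sdiff_eq_empty_iff_subset.mp h))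
    rw [Zf_neg_one_empty hE hW, if_neg this]
    simp
  · intro h
    exact absurd (Finset.mem_powerset.mpr (Finset.Subset.refl U)) h

include hE hW in
lemma NN2_Pf_empty (K U : Finset V) : NN2 (Pf E K ∅ U) := by
  rw [Pf_empty hE hW]
  split_ifs
  · exact NN2_zeta _ NN2_yS _
  · exact NN2_zero

include hE hW in
lemma Pf_empty_of_edge (K U : Finset V) (h : HasEdge E U) : Pf E K ∅ U = 0 := by
  rw [Pf_empty hE hW]
  obtain ⟨u, hu, v, hv, huv⟩ := h
  have : zeta E yS2 U = 0 := by
    unfold zeta
    rw [if_neg]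
    intro hall
    exact hall u hu v hv huv
  rw [this]
  simp

/-- splitting a suffix at the top vertex -/
lemma suf_erase {K X : Finset V} {n : V} (hX : ∀ x ∈ X, x < n) (hK : Suf E K (insert n X)) :
    (K.erase n) ⊆ nbr E X n ∧ Suf E (K.erase n) X := by
  have hnX : n ∉ X := fun h => lt_irrefl _ (hX n h)
  have hsub : K.erase n ⊆ X := by
    intro i hi
    have h1 := Finset.mem_erase.mp hi
    rcases Finset.mem_insert.mp (hK.1 h1.2) with h | h
    · exact absurd h h1.1
    · exact h
  refine ⟨?_, hsub, ?_, ?_⟩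
  · intro i hi
    have h1 := Finset.mem_erase.mp hi
    have hnK : n ∈ K := hK.2.1 i h1.2 n (Finset.mem_insert_self _ _) (hX i (hsub hi))
    exact Finset.mem_filter.mpr ⟨hsub hi, hK.2.2 i h1.2 n hnK (hX i (hsub hi))⟩
  · intro i hi j hj hij
    have h1 := Finset.mem_erase.mp hi
    refine Finset.mem_erase.mpr ⟨?_, hK.2.1 i h1.2 j (Finset.mem_insert_of_mem hj) hij⟩
    rintro rfl
    exact hnX hj
  · intro i hi j hj hij
    exact hK.2.2 i (Finset.mem_erase.mp hi).2 j (Finset.mem_erase.mp hj).2 hij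

lemma disjoint_erase_iff {J K : Finset V} {n : V} (hn : n ∉ J) :
    Disjoint J K ↔ Disjoint J (K.erase n) := by
  constructor
  · intro h
    exact Finset.disjoint_of_subset_right (Finset.erase_subset _ _) h
  · intro h
    rw [Finset.disjoint_left] at h ⊢
    intro x hx hxK
    exact h hx (Finset.mem_erase.mpr ⟨fun hxn => hn (hxn ▸ hx), hxK⟩)

lemma suf_mem_top {K X : Finset V} {n : V} (hX : ∀ x ∈ X, x < n) (hK : Suf E K (insert n X))
    (hne : K ≠ ∅) : n ∈ K := by
  obtain ⟨i, hi⟩ := Finset.nonempty_iff_ne_empty.mpr hne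
  rcases Finset.mem_insert.mp (hK.1 hi) with h | h
  · rw [← h]
    exact hi
  · exact hK.2.1 i hi n (Finset.mem_insert_self _ _) (hX i h)

lemma Zf_insert_off (s : S2) (K₁ X J : Finset V) (n : V) (hX : ∀ x ∈ X, x < n) :
    Zf E qS s (insert n K₁) (X \ J) = Zf E qS s K₁ (X \ J) := by
  apply Zf_congr
  intro I hI
  have hn : n ∉ I := fun h => lt_irrefl _ (hX n (Finset.mem_sdiff.mp (hI h)).1)
  rw [Finset.disjoint_insert_right]
  simp [hn]

include hE hW in
/-- recursion for `Qf`, positive case -/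
lemma Qf_insert_pos (X K : Finset V) (n : V) (hX : ∀ x ∈ X, x < n) (hK : Suf E K (insert n X))
    (a₀ : ℕ) (ha : aC E X n = a₀ + 1) :
    Qf E K (insert n X) =
      qS * qI qS a₀ * Qf E (K.erase n) X + qS ^ (a₀ + 1) * Qf E (nbr E X n) X +
        Pf E (K.erase n) (nbr E X n) X +
        (if n ∈ K then 0 else yS2) * qS ^ (a₀ + 1) * Qf E (nbr E X n) X := by
  have hnX : n ∉ X := fun h => lt_irrefl _ (hX n h)
  obtain ⟨h1, h2⟩ := suf_erase hX hK
  exact sG_insert_pos hE hW qS yS2 X (K.erase n) n hX h1 a₀ ha (rV E qS) (rV E qS)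
    (Zf E qS (-1) (nbr E X n)) (rV E qS)
    (fun J _ _ => hF_Q hE hW qS X n hX J) (fun J _ => rfl) _ K
    (fun J hJ => disjoint_erase_iff fun h => hnX (hJ h))
    (fun h => if_neg h) (fun h => if_pos h)

include hE hW in
/-- recursion for `Pf`, positive case -/
lemma Pf_insert_pos (X K K₁ : Finset V) (n : V) (hX : ∀ x ∈ X, x < n) (hK : Suf E K (insert n X))
    (hK₁ : K₁ ⊆ nbr E X n) (a₀ : ℕ) (ha : aC E X n = a₀ + 1) :
    Pf E K (insert n K₁) (insert n X) =
      qS * qI qS a₀ * Pf E (K.erase n) K₁ X + qS ^ (a₀ + 1) * Pf E (nbr E X n) K₁ X +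
        Pf E (K.erase n) (nbr E X n) X +
        (if n ∈ K then 0 else yS2) * qS ^ (a₀ + 1) * Pf E (nbr E X n) K₁ X := by
  have hnX : n ∉ X := fun h => lt_irrefl _ (hX n h)
  obtain ⟨h1, h2⟩ := suf_erase hX hK
  exact sG_insert_pos hE hW qS yS2 X (K.erase n) n hX h1 a₀ ha (Zf E qS (-1) (insert n K₁))
    (Zf E qS (-1) K₁) (Zf E qS (-1) (nbr E X n)) (Zf E qS (-1) K₁)
    (fun J hJ _ => hF_P hE hW qS X K₁ n hX hK₁ J (fun h => hnX (hJ h)))
    (fun J _ => Zf_insert_off _ K₁ X J n hX) _ K
    (fun J hJ => disjoint_erase_iff fun h => hnX (hJ h))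
    (fun h => if_neg h) (fun h => if_pos h)

include hE hW in
/-- recursion for `Qf`, no lower neighbour -/
lemma Qf_insert_zero (X K : Finset V) (n : V) (hX : ∀ x ∈ X, x < n) (hK : Suf E K (insert n X))
    (ha : aC E X n = 0) :
    Qf E K (insert n X) = Pf E ∅ ∅ X + (if n ∈ K then 0 else yS2) * Qf E ∅ X := by
  have hnX : n ∉ X := fun h => lt_irrefl _ (hX n h)
  have hnb : nbr E X n = ∅ := Finset.card_eq_zero.mp ha
  obtain ⟨h1, h2⟩ := suf_erase hX hK
  rw [hnb] at h1
  have hKe : K.erase n = ∅ := Finset.subset_empty.mp h1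
  refine sG_insert_zero hE hW qS yS2 X n hX ha (rV E qS) (Zf E qS (-1) ∅) (rV E qS) ?_
    (fun J _ => rfl) _ K ?_ (fun h => if_neg h) (fun h => if_pos h)
  · intro J _
    have h3 : aC E (X \ J) n = 0 := by
      have hle : aC E (X \ J) n ≤ aC E X n := by
        unfold aC
        exact Finset.card_le_card (Finset.filter_subset_filter _ Finset.sdiff_subset)
      omega
    rw [hF_Q hE hW qS X n hX J, h3, hnb]
    simp
  · intro J hJ
    rw [disjoint_erase_iff (n := n) (fun h => hnX (hJ h)), hKe]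
    exact Finset.disjoint_empty_right _

include hE hW in
/-- recursion for `Pf`, no lower neighbour -/
lemma Pf_insert_zero (X K : Finset V) (n : V) (hX : ∀ x ∈ X, x < n) (hK : Suf E K (insert n X))
    (ha : aC E X n = 0) :
    Pf E K {n} (insert n X) = Pf E ∅ ∅ X + (if n ∈ K then 0 else yS2) * Pf E ∅ ∅ X := by
  have hnX : n ∉ X := fun h => lt_irrefl _ (hX n h)
  have hnb : nbr E X n = ∅ := Finset.card_eq_zero.mp ha
  obtain ⟨h1, h2⟩ := suf_erase hX hK
  rw [hnb] at h1
  have hKe : K.erase n = ∅ := Finset.subset_empty.mp h1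
  refine sG_insert_zero hE hW qS yS2 X n hX ha (Zf E qS (-1) {n}) (Zf E qS (-1) ∅)
    (Zf E qS (-1) ∅) ?_ ?_ _ K ?_ (fun h => if_neg h) (fun h => if_pos h)
  · intro J hJ
    have h3 : aC E (X \ J) n = 0 := by
      have hle : aC E (X \ J) n ≤ aC E X n := by
        unfold aC
        exact Finset.card_le_card (Finset.filter_subset_filter _ Finset.sdiff_subset)
      omega
    have := hF_P hE hW qS X ∅ n hX (Finset.empty_subset _) J (fun h => hnX (hJ h))
    rw [hnb, h3] at this
    simpa using this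
  · intro J _
    have := Zf_insert_off (E := E) (-1) (∅ : Finset V) X J n hX
    simpa using this
  · intro J hJ
    rw [disjoint_erase_iff (n := n) (fun h => hnX (hJ h)), hKe]
    exact Finset.disjoint_empty_right _

lemma NN2_ite_y (n : V) (K : Finset V) : NN2 (if n ∈ K then 0 else yS2) := by
  split_ifs
  · exact NN2_zero
  · exact NN2_yS

include hE hW in
/-- The positivity of all the sums over sinks, and the factor `1 + y`. -/
theorem hook_pos (U : Finset V) :
    (∀ K, Suf E K U → NN2 (Qf E K U)) ∧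
    (∀ K K', Suf E K U → Suf E K' U → NN2 (Pf E K K' U)) ∧
    (HasEdge E U → ∃ C, NN2 C ∧ Qf E ∅ U = (1 + yS2) * C) ∧
    (∀ K', Suf E K' U → K' ≠ ∅ → ∃ D, NN2 D ∧ Pf E ∅ K' U = (1 + yS2) * D) := by
  induction U using Finset.induction_on_max with
  | empty =>
    refine ⟨?_, ?_, ?_, ?_⟩
    · intro K _
      simp only [Qf, sG, Finset.powerset_empty, Finset.sum_singleton]
      simp only [Finset.disjoint_empty_left, if_true, rV, Finset.sdiff_self, Finset.card_empty, qI_zero,
        zero_mul, mul_zero]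
      exact NN2_zero
    · intro K K' _ hK'
      have : K' = ∅ := Finset.subset_empty.mp hK'.1
      subst this
      exact NN2_Pf_empty hE hW K ∅
    · rintro ⟨u, hu, _⟩
      simp at hu
    · intro K' hK' hne
      exact absurd (Finset.subset_empty.mp hK'.1) hne
  | insert n X hX ih =>
    obtain ⟨ihQ, ihP, ihC, ihD⟩ := ih
    have hX' : ∀ x ∈ X, x < n := hX
    have hnX : n ∉ X := fun h => lt_irrefl _ (hX' n h)
    have hsN := suf_nbr hW X n hX'
    have hEmptyX : Suf E (∅ : Finset V) X := suf_empty X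
    have hEmptyU : Suf E (∅ : Finset V) (insert n X) := suf_empty _
    by_cases ha0 : aC E X n = 0
    · -- no lower neighbour
      have hnb : nbr E X n = ∅ := Finset.card_eq_zero.mp ha0
      have hPe := NN2_Pf_empty hE hW (∅ : Finset V) X
      have hedge : HasEdge E (insert n X) → HasEdge E X := by
        rintro ⟨u, hu, v, hv, huv⟩
        rcases Finset.mem_insert.mp hu with h | h
        · exact absurd (hE _ _ huv) (by
            rw [h]
            rcases Finset.mem_insert.mp hv with h' | h'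
            · rw [h']
              exact lt_irrefl _
            · exact lt_asymm (hX' v h'))
        · rcases Finset.mem_insert.mp hv with h' | h'
          · exfalso
            have : u ∈ nbr E X n := Finset.mem_filter.mpr ⟨h, h' ▸ huv⟩
            rw [hnb] at this
            simp at this
          · exact ⟨u, h, v, h', huv⟩
      have hK'form : ∀ K', Suf E K' (insert n X) → K' ≠ ∅ → K' = {n} := by
        intro K' hK' hne
        have hmem := suf_mem_top hX' hK' hne
        obtain ⟨h1, _⟩ := suf_erase hX' hK'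
        rw [hnb] at h1
        have h2 : K'.erase n = ∅ := Finset.subset_empty.mp h1
        rw [← Finset.insert_erase hmem, h2]
        rfl
      refine ⟨?_, ?_, ?_, ?_⟩
      · intro K hK
        rw [Qf_insert_zero hE hW X K n hX' hK ha0]
        exact NN2_add hPe (NN2_mul (NN2_ite_y n K) (ihQ ∅ hEmptyX))
      · intro K K' hK hK'
        by_cases hne : K' = ∅
        · subst hne
          exact NN2_Pf_empty hE hW K _
        · rw [hK'form K' hK' hne, Pf_insert_zero hE hW X K n hX' hK ha0]
          exact NN2_add hPe (NN2_mul (NN2_ite_y n K) hPe)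
      · intro he
        obtain ⟨C, hC, hQ⟩ := ihC (hedge he)
        refine ⟨yS2 * C, NN2_mul NN2_yS hC, ?_⟩
        rw [Qf_insert_zero hE hW X ∅ n hX' hEmptyU ha0, Pf_empty_of_edge hE hW ∅ X (hedge he), hQ,
          if_neg (by simp)]
        ring
      · intro K' hK' hne
        refine ⟨Pf E ∅ ∅ X, hPe, ?_⟩
        rw [hK'form K' hK' hne, Pf_insert_zero hE hW X ∅ n hX' hEmptyU ha0, if_neg (by simp)]
        ring
    · -- at least one lower neighbour
      obtain ⟨a₀, ha⟩ : ∃ a₀, aC E X n = a₀ + 1 := ⟨aC E X n - 1, by omega⟩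
      have hcq : NN2 (qS * qI qS a₀) := NN2_mul NN2_qS (NN2_qI a₀)
      have hcp : NN2 (qS ^ (a₀ + 1)) := NN2_pow NN2_qS _
      have hNne : nbr E X n ≠ ∅ := by
        intro h
        have : aC E X n = 0 := by
          rw [← card_nbr, h]
          rfl
        omega
      have hedge2 : a₀ ≠ 0 → HasEdge E X := by
        intro ha1
        have h2 : 1 < (nbr E X n).card := by
          rw [card_nbr]
          omega
        obtain ⟨u, hu, v, hv, huv⟩ := Finset.one_lt_card.mp h2
        have hsuf := suf_nbr (E := E) hW X n hX'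
        rcases lt_or_gt_of_ne huv with h | h
        · exact ⟨u, hsuf.1 hu, v, hsuf.1 hv, hsuf.2.2 u hu v hv h⟩
        · exact ⟨v, hsuf.1 hv, u, hsuf.1 hu, hsuf.2.2 v hv u hu h⟩
      refine ⟨?_, ?_, ?_, ?_⟩
      · intro K hK
        obtain ⟨h1, h2⟩ := suf_erase hX' hK
        rw [Qf_insert_pos hE hW X K n hX' hK a₀ ha]
        exact NN2_add (NN2_add (NN2_add (NN2_mul hcq (ihQ _ h2)) (NN2_mul hcp (ihQ _ hsN)))
          (ihP _ _ h2 hsN)) (NN2_mul (NN2_mul (NN2_ite_y n K) hcp) (ihQ _ hsN))
      · intro K K' hK hK'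
        by_cases hne : K' = ∅
        · subst hne
          exact NN2_Pf_empty hE hW K _
        · have hmem := suf_mem_top hX' hK' hne
          obtain ⟨h1, h2⟩ := suf_erase hX' hK
          obtain ⟨h3, h4⟩ := suf_erase hX' hK'
          rw [← Finset.insert_erase hmem, Pf_insert_pos hE hW X K (K'.erase n) n hX' hK h3 a₀ ha]
          exact NN2_add (NN2_add (NN2_add (NN2_mul hcq (ihP _ _ h2 h4))
            (NN2_mul hcp (ihP _ _ hsN h4))) (ihP _ _ h2 hsN))
            (NN2_mul (NN2_mul (NN2_ite_y n K) hcp) (ihP _ _ hsN h4))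
      · intro _
        obtain ⟨D, hD, hPD⟩ := ihD _ hsN hNne
        have hQ := Qf_insert_pos hE hW X ∅ n hX' hEmptyU a₀ ha
        simp only [Finset.erase_empty, Finset.notMem_empty, if_false] at hQ
        by_cases ha1 : a₀ = 0
        · subst ha1
          refine ⟨qS ^ (0 + 1) * Qf E (nbr E X n) X + D,
            NN2_add (NN2_mul hcp (ihQ _ hsN)) hD, ?_⟩
          rw [hQ, hPD]
          simp only [qI_zero]
          ring
        · obtain ⟨C, hC, hQC⟩ := ihC (hedge2 ha1)
          refine ⟨qS * qI qS a₀ * C + qS ^ (a₀ + 1) * Qf E (nbr E X n) X + D,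
            NN2_add (NN2_add (NN2_mul hcq hC) (NN2_mul hcp (ihQ _ hsN))) hD, ?_⟩
          rw [hQ, hPD, hQC]
          ring
      · intro K' hK' hne
        have hmem := suf_mem_top hX' hK' hne
        obtain ⟨h3, h4⟩ := suf_erase hX' hK'
        obtain ⟨D, hD, hPD⟩ := ihD _ hsN hNne
        have hQ := Pf_insert_pos hE hW X ∅ (K'.erase n) n hX' hEmptyU h3 a₀ ha
        simp only [Finset.erase_empty, Finset.notMem_empty, if_false] at hQ
        rw [← Finset.insert_erase hmem]
        by_cases ha1 : a₀ = 0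
        · subst ha1
          refine ⟨qS ^ (0 + 1) * Pf E (nbr E X n) (K'.erase n) X + D,
            NN2_add (NN2_mul hcp (ihP _ _ hsN h4)) hD, ?_⟩
          rw [hQ, hPD]
          simp only [qI_zero]
          ring
        · by_cases hK1 : K'.erase n = ∅
          · refine ⟨qS ^ (a₀ + 1) * Pf E (nbr E X n) (K'.erase n) X + D,
              NN2_add (NN2_mul hcp (ihP _ _ hsN h4)) hD, ?_⟩
            rw [hQ, hPD, hK1, Pf_empty_of_edge hE hW ∅ X (hedge2 ha1)]
            rw [Pf_empty_of_edge hE hW _ X (hedge2 ha1)]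
            simp
          · obtain ⟨D', hD', hPD'⟩ := ihD _ h4 hK1
            refine ⟨qS * qI qS a₀ * D' + qS ^ (a₀ + 1) * Pf E (nbr E X n) (K'.erase n) X + D,
              NN2_add (NN2_add (NN2_mul hcq hD') (NN2_mul hcp (ihP _ _ hsN h4))) hD, ?_⟩
            rw [hQ, hPD, hPD']
            ring

end Vale.Agent.Lib.P066
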