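import Vale.Agent.Lib.P066.Tele

/-!
The three closing steps on states, and the master lemma for states of chamber form.
-/

namespace Vale.Agent.Lib.P066

open Finset

variable {R : Type*} [CommRing R] {N : ℕ}

/-- Closing a vertex with two later neighbours. -/
noncomputable def stepA (q : R) (x : Fin N → R) (F : Fin N → Fin N → R) (b c : Fin N) : R :=
  ∑ a : Fin N, if a ≠ b ∧ a ≠ c then x a * wt q a b * wt q a c * F a b else 0

/-- Closing a vertex with one later neighbour. -/
noncomputable def stepD (q : R) (x : Fin N → R) (F : Fin N → Fin N → R) (b _c : Fin N) : R :=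
  ∑ a : Fin N, if a ≠ b then x a * wt q a b * F a b else 0

/-- Closing a vertex with no later neighbour. -/
noncomputable def stepZ (x : Fin N → R) (F : Fin N → Fin N → R) (b _c : Fin N) : R :=
  ∑ a : Fin N, x a * F a b

/-- The coefficient `q^2 [k-1]` with the convention `[-1] = -1/q`. -/
def qc (q : R) (k : ℕ) : R := if k = 0 then -q else q ^ 2 * qn q (k - 1)

lemma mul_qc (q : R) (k : ℕ) : (q - 1) * qc q k = q ^ (k + 1) - q ^ 2 := by
  cases k with
  | zero => simp [qc]; ring
  | succ k =>
    have := mul_qn q k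
    simp only [qc, Nat.succ_ne_zero, if_false, Nat.add_sub_cancel]
    linear_combination q ^ 2 * this

/-- Lower coefficient of `stepA`. -/
def cf (q : R) (k : ℕ) (β τ : R) : R := qc q k * β - q ^ 2 * τ

/-- Lower coefficient of `stepD`. -/
def df (q : R) (k : ℕ) (β τ : R) : R := q * qn q k * β - q * τ

lemma IA_lt [IsDomain R] (q : R) (hq : q - 1 ≠ 0) (x : Fin N → R) (k : ℕ) (β τ : R)
    (b c : Fin N) (hbc : b < c) :
    (∑ a : Fin N, if a ≠ b ∧ a ≠ c then
        x a * wt q a b * wt q a c * ((if a < b then β + (q - 1) * τ else β) * B q x k a) else 0) =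
      q * (β + q * τ) * B q x (k + 1) b + q ^ 2 * τ * (x b * B q x k b) + β * B q x (k + 1) c
        + el x (k + 1) * cf q k β τ := by
  apply mul_left_cancel₀ hq
  have e : (∑ a : Fin N, if a ≠ b ∧ a ≠ c then
        x a * wt q a b * wt q a c * ((if a < b then β + (q - 1) * τ else β) * B q x k a) else 0) =
      ∑ a : Fin N, if a ≠ b ∧ a ≠ c then
        (if a < b then q ^ 2 * (β + (q - 1) * τ) else if a < c then q * β else β) *
          (x a * B q x k a) else 0 := by
    refine Finset.sum_congr rfl fun a _ => ?_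
    by_cases h1 : a ≠ b ∧ a ≠ c
    · rw [if_pos h1, if_pos h1]
      simp only [wt]
      by_cases h2 : a < b
      · have h3 : a < c := lt_trans h2 hbc
        simp only [h2, h3, if_true]; ring
      · by_cases h3 : a < c
        · simp only [h2, h3, if_true, if_false]; ring
        · simp only [h2, h3, if_false]; ring
    · rw [if_neg h1, if_neg h1]
  rw [e, sum_split_two _ b c hbc, SumLt_eq_SS, SumLt_eq_SS, ← SS_top_eq]
  have h1 := mul_SS' q x k b
  have h2 := mul_SS' q x k c
  have h3 := SS_top_mul q x k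
  have h4 := mul_qc q k
  simp only [cf]
  linear_combination (q ^ 2 * (β + (q - 1) * τ) - q * β) * h1 + (q * β - β) * h2 + β * h3
    + (β * el x (k + 1)) * (-h4)

lemma IA_gt [IsDomain R] (q : R) (hq : q - 1 ≠ 0) (x : Fin N → R) (k : ℕ) (β τ : R)
    (b c : Fin N) (hcb : c < b) :
    (∑ a : Fin N, if a ≠ b ∧ a ≠ c then
        x a * wt q a b * wt q a c * ((if a < b then β + (q - 1) * τ else β) * B q x k a) else 0) =
      (β + q * τ) * B q x (k + 1) b + q * τ * (x b * B q x k b)
        + q * (β + (q - 1) * τ) * B q x (k + 1) c + el x (k + 1) * cf q k β τ := by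
  apply mul_left_cancel₀ hq
  have e : (∑ a : Fin N, if a ≠ b ∧ a ≠ c then
        x a * wt q a b * wt q a c * ((if a < b then β + (q - 1) * τ else β) * B q x k a) else 0) =
      ∑ a : Fin N, if a ≠ c ∧ a ≠ b then
        (if a < c then q ^ 2 * (β + (q - 1) * τ) else
          if a < b then q * (β + (q - 1) * τ) else β) * (x a * B q x k a) else 0 := by
    refine Finset.sum_congr rfl fun a _ => ?_
    by_cases h1 : a ≠ b ∧ a ≠ c
    · have h1' : a ≠ c ∧ a ≠ b := ⟨h1.2, h1.1⟩
      rw [if_pos h1, if_pos h1']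
      simp only [wt]
      by_cases h2 : a < c
      · have h3 : a < b := lt_trans h2 hcb
        simp only [h2, h3, if_true]; ring
      · by_cases h3 : a < b
        · simp only [h2, h3, if_true, if_false]; ring
        · simp only [h2, h3, if_false]; ring
    · have h1' : ¬ (a ≠ c ∧ a ≠ b) := fun h => h1 ⟨h.2, h.1⟩
      rw [if_neg h1, if_neg h1']
  rw [e, sum_split_two _ c b hcb, SumLt_eq_SS, SumLt_eq_SS, ← SS_top_eq]
  have h1 := mul_SS' q x k b
  have h2 := mul_SS' q x k c
  have h3 := SS_top_mul q x k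
  have h4 := mul_qc q k
  simp only [cf]
  linear_combination (q * (β + (q - 1) * τ) - β) * h1
    + (q ^ 2 * (β + (q - 1) * τ) - q * (β + (q - 1) * τ)) * h2 + β * h3
    + (β * el x (k + 1)) * (-h4)

lemma ID_eq [IsDomain R] (q : R) (hq : q - 1 ≠ 0) (x : Fin N → R) (k : ℕ) (β τ : R) (b : Fin N) :
    (∑ a : Fin N, if a ≠ b then
        x a * wt q a b * ((if a < b then β + (q - 1) * τ else β) * B q x k a) else 0) =
      (β + q * τ) * B q x (k + 1) b + q * τ * (x b * B q x k b) + el x (k + 1) * df q k β τ := by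
  apply mul_left_cancel₀ hq
  have e : (∑ a : Fin N, if a ≠ b then
        x a * wt q a b * ((if a < b then β + (q - 1) * τ else β) * B q x k a) else 0) =
      ∑ a : Fin N, if a ≠ b then
        (if a < b then q * (β + (q - 1) * τ) else β) * (x a * B q x k a) else 0 := by
    refine Finset.sum_congr rfl fun a _ => ?_
    by_cases h1 : a ≠ b
    · rw [if_pos h1, if_pos h1]
      simp only [wt]
      by_cases h2 : a < b
      · simp only [h2, if_true]; ring
      · simp only [h2, if_false]; ring
    · rw [if_neg h1, if_neg h1]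
  rw [e, sum_split_one _ b, SumLt_eq_SS, ← SS_top_eq]
  have h1 := mul_SS' q x k b
  have h3 := SS_top_mul q x k
  have h4 := mul_qn q k
  simp only [df]
  linear_combination (q * (β + (q - 1) * τ) - β) * h1 + β * h3
    + (q * β * el x (k + 1)) * (-h4)

/-- The hypotheses on the coordinate vectors of a state of chamber form. -/
structure IsChamber (q : R) (s : ℕ) (β τ : ℕ → R) : Prop where
  anti : ∀ j, j ≤ s → τ (s - j) = - τ j
  gam : ∀ j, 1 ≤ j → j ≤ s → β (s + 1 - j) + q * τ (s + 1 - j) = - (β j + q * τ j)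

/-- The state of chamber form with coordinates `α = β + (q-1) τ` and `β`. -/
noncomputable def chamberF (q : R) (x : Fin N → R) (s : ℕ) (β τ : ℕ → R) (a b : Fin N) : R :=
  ∑ j ∈ range (s + 1),
    (if a < b then β j + (q - 1) * τ j else β j) * B q x (s - j) a * B q x j b

lemma cancel1 [IsDomain R] [CharZero R] (s : ℕ) (τ : ℕ → R)
    (h : ∀ j, j ≤ s → τ (s - j) = - τ j) (u : ℕ → R) :
    ∑ j ∈ range (s + 1), τ j * (u j * u (s - j)) = 0 := by
  have h1 : ∑ j ∈ range (s + 1), τ j * (u j * u (s - j)) =
      ∑ j ∈ range (s + 1), τ (s - j) * (u (s - j) * u (s - (s - j))) := by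
    have := Finset.sum_range_reflect (fun j => τ j * (u j * u (s - j))) (s + 1)
    simp only [Nat.add_sub_cancel] at this
    exact this.symm
  have h2 : ∑ j ∈ range (s + 1), τ (s - j) * (u (s - j) * u (s - (s - j))) =
      - ∑ j ∈ range (s + 1), τ j * (u j * u (s - j)) := by
    rw [← Finset.sum_neg_distrib]
    refine Finset.sum_congr rfl fun j hj => ?_
    have hj' : j ≤ s := Nat.lt_succ_iff.mp (Finset.mem_range.mp hj)
    rw [h j hj', Nat.sub_sub_self hj']
    ring
  rw [h2] at h1
  exact self_eq_neg.mp h1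

lemma cancel2 [IsDomain R] [CharZero R] (s : ℕ) (g : ℕ → R)
    (h : ∀ j, 1 ≤ j → j ≤ s → g (s + 1 - j) = - g j) (u : ℕ → R) (hu : u 0 = 1) :
    ∑ j ∈ range (s + 1), g j * (u j * u (s - j + 1)) = g 0 * u (s + 1) := by
  rw [Finset.sum_range_succ', hu]
  simp only [Nat.sub_zero, one_mul]
  have key : ∑ j ∈ range s, g (j + 1) * (u (j + 1) * u (s - (j + 1) + 1)) = 0 := by
    have h1 : ∑ j ∈ range s, g (j + 1) * (u (j + 1) * u (s - (j + 1) + 1)) =
        ∑ j ∈ range s, g (s - 1 - j + 1) * (u (s - 1 - j + 1) * u (s - (s - 1 - j + 1) + 1)) := by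
      have := Finset.sum_range_reflect (fun j => g (j + 1) * (u (j + 1) * u (s - (j + 1) + 1))) s
      exact this.symm
    have h2 : ∑ j ∈ range s, g (s - 1 - j + 1) * (u (s - 1 - j + 1) * u (s - (s - 1 - j + 1) + 1)) =
        - ∑ j ∈ range s, g (j + 1) * (u (j + 1) * u (s - (j + 1) + 1)) := by
      rw [← Finset.sum_neg_distrib]
      refine Finset.sum_congr rfl fun j hj => ?_
      have hj' : j < s := Finset.mem_range.mp hj
      have e1 : s - 1 - j + 1 = s + 1 - (j + 1) := by omega
      have e2 : s - (s + 1 - (j + 1)) + 1 = j + 1 := by omega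
      have e3 : s + 1 - (j + 1) = s - (j + 1) + 1 := by omega
      rw [e1, e2, h (j + 1) (by omega) (by omega), e3]
      ring
    rw [h2] at h1
    exact self_eq_neg.mp h1
  rw [key, zero_add]

/-- The master lemma for `stepA`. -/
lemma stepA_chamber [IsDomain R] [CharZero R] (q : R) (hq : q - 1 ≠ 0) (x : Fin N → R) (s : ℕ)
    (β τ : ℕ → R) (hv : IsChamber q s β τ) (b c : Fin N) (hbc : b ≠ c) :
    stepA q x (chamberF q x s β τ) b c =
      wt q b c * (β 0 + q * τ 0) * B q x (s + 1) b +
      (∑ j ∈ range (s + 1), (if b < c then β j else q * (β j + (q - 1) * τ j)) *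
          (B q x j b * B q x (s - j + 1) c)) +
      ∑ j ∈ range (s + 1), el x (s - j + 1) * cf q (s - j) (β j) (τ j) * B q x j b := by
  have e : stepA q x (chamberF q x s β τ) b c =
      ∑ j ∈ range (s + 1), B q x j b * ∑ a : Fin N, if a ≠ b ∧ a ≠ c then
        x a * wt q a b * wt q a c * ((if a < b then β j + (q - 1) * τ j else β j) *
          B q x (s - j) a) else 0 := by
    simp only [stepA, chamberF, Finset.mul_sum]
    rw [Finset.sum_comm]
    refine Finset.sum_congr rfl fun a _ => ?_
    by_cases h1 : a ≠ b ∧ a ≠ c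
    · simp only [if_pos h1]
      refine Finset.sum_congr rfl fun j _ => ?_
      ring
    · simp only [if_neg h1, mul_zero, Finset.sum_const_zero]
  rw [e]
  have hg : ∀ j, 1 ≤ j → j ≤ s → (fun j => β j + q * τ j) (s + 1 - j) = - (fun j => β j + q * τ j) j :=
    fun j h1 h2 => hv.gam j h1 h2
  have c1 := cancel1 s τ hv.anti (fun j => B q x j b)
  have c2 := cancel2 s (fun j => β j + q * τ j) hg (fun j => B q x j b) (B_zero q x b)
  rcases lt_or_gt_of_ne hbc with h | h
  · have : ∀ j ∈ range (s + 1), B q x j b * (∑ a : Fin N, if a ≠ b ∧ a ≠ c then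
        x a * wt q a b * wt q a c * ((if a < b then β j + (q - 1) * τ j else β j) *
          B q x (s - j) a) else 0) =
        q * ((β j + q * τ j) * (B q x j b * B q x (s - j + 1) b)) +
        q ^ 2 * x b * (τ j * (B q x j b * B q x (s - j) b)) +
        (β j) * (B q x j b * B q x (s - j + 1) c) +
        el x (s - j + 1) * cf q (s - j) (β j) (τ j) * B q x j b := by
      intro j _
      rw [IA_lt q hq x (s - j) (β j) (τ j) b c h]
      ring
    rw [Finset.sum_congr rfl this]
    simp only [Finset.sum_add_distrib, ← Finset.mul_sum, c1, c2, mul_zero, add_zero, wt, if_pos h,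
      if_true]
    ring
  · have : ∀ j ∈ range (s + 1), B q x j b * (∑ a : Fin N, if a ≠ b ∧ a ≠ c then
        x a * wt q a b * wt q a c * ((if a < b then β j + (q - 1) * τ j else β j) *
          B q x (s - j) a) else 0) =
        ((β j + q * τ j) * (B q x j b * B q x (s - j + 1) b)) +
        q * x b * (τ j * (B q x j b * B q x (s - j) b)) +
        (q * (β j + (q - 1) * τ j)) * (B q x j b * B q x (s - j + 1) c) +
        el x (s - j + 1) * cf q (s - j) (β j) (τ j) * B q x j b := by
      intro j _
      rw [IA_gt q hq x (s - j) (β j) (τ j) b c h]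
      ring
    rw [Finset.sum_congr rfl this]
    have hnot : ¬ b < c := not_lt_of_gt h
    simp only [Finset.sum_add_distrib, ← Finset.mul_sum, c1, c2, mul_zero, add_zero, wt, if_neg hnot,
      if_false]
    ring

/-- The master lemma for `stepD`. -/
lemma stepD_chamber [IsDomain R] [CharZero R] (q : R) (hq : q - 1 ≠ 0) (x : Fin N → R) (s : ℕ)
    (β τ : ℕ → R) (hv : IsChamber q s β τ) (b c : Fin N) :
    stepD q x (chamberF q x s β τ) b c =
      (β 0 + q * τ 0) * B q x (s + 1) b +
      ∑ j ∈ range (s + 1), el x (s - j + 1) * df q (s - j) (β j) (τ j) * B q x j b := by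
  have e : stepD q x (chamberF q x s β τ) b c =
      ∑ j ∈ range (s + 1), B q x j b * ∑ a : Fin N, if a ≠ b then
        x a * wt q a b * ((if a < b then β j + (q - 1) * τ j else β j) *
          B q x (s - j) a) else 0 := by
    simp only [stepD, chamberF, Finset.mul_sum]
    rw [Finset.sum_comm]
    refine Finset.sum_congr rfl fun a _ => ?_
    by_cases h1 : a ≠ b
    · simp only [if_pos h1]
      refine Finset.sum_congr rfl fun j _ => ?_
      ring
    · simp only [if_neg h1, mul_zero, Finset.sum_const_zero]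
  rw [e]
  have hg : ∀ j, 1 ≤ j → j ≤ s → (fun j => β j + q * τ j) (s + 1 - j) = - (fun j => β j + q * τ j) j :=
    fun j h1 h2 => hv.gam j h1 h2
  have c1 := cancel1 s τ hv.anti (fun j => B q x j b)
  have c2 := cancel2 s (fun j => β j + q * τ j) hg (fun j => B q x j b) (B_zero q x b)
  have : ∀ j ∈ range (s + 1), B q x j b * (∑ a : Fin N, if a ≠ b then
        x a * wt q a b * ((if a < b then β j + (q - 1) * τ j else β j) *
          B q x (s - j) a) else 0) =
        ((β j + q * τ j) * (B q x j b * B q x (s - j + 1) b)) +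
        q * x b * (τ j * (B q x j b * B q x (s - j) b)) +
        el x (s - j + 1) * df q (s - j) (β j) (τ j) * B q x j b := by
    intro j _
    rw [ID_eq q hq x (s - j) (β j) (τ j) b]
    ring
  rw [Finset.sum_congr rfl this]
  simp only [Finset.sum_add_distrib, ← Finset.mul_sum, c1, c2, mul_zero, add_zero]

end Vale.Agent.Lib.P066
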