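import Vale.Agent.Lib.P066.Conv

/-!
Evaluation of a block of colours at the formal size `-1`.
-/

open Finset

namespace Vale.Agent.Lib.P066

set_option linter.unusedSectionVars false

variable {V : Type*} [DecidableEq V] {R : Type*} [CommRing R]

section surj

variable (E : V → V → Prop) [DecidableRel E] (q : R)

/-- The sum over colourings of `U` with exactly `k` colours, all with the same value `y`. -/
def surj (y : R) : ℕ → Finset V → R
  | 0 => deltaF
  | k + 1 => fun U => ∑ I ∈ U.powerset.erase ∅, zeta E y I * q ^ eCount E I (U \ I) * surj y k (U \ I)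

lemma card_sdiff_lt_of_mem_erase {U I : Finset V} (hI : I ∈ U.powerset.erase ∅) :
    (U \ I).card < U.card := by
  have h1 := Finset.mem_erase.mp hI
  have hI' := Finset.mem_powerset.mp h1.2
  have hne : I.Nonempty := Finset.nonempty_iff_ne_empty.mpr h1.1
  rw [Finset.card_sdiff_of_subset hI']
  have := Finset.card_pos.mpr hne
  have h2 := Finset.card_le_card hI'
  omega

lemma surj_eq_zero (y : R) : ∀ (k : ℕ) (U : Finset V), U.card < k → surj E q y k U = 0 := by
  intro k
  induction k with
  | zero => intro U h; omega
  | succ k ih =>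
    intro U h
    show ∑ I ∈ U.powerset.erase ∅, _ = 0
    refine Finset.sum_eq_zero fun I hI => ?_
    have := card_sdiff_lt_of_mem_erase hI
    rw [ih (U \ I) (by omega), mul_zero]

lemma conv_replicate (y : R) (K : ℕ) (M : ℕ) :
    ∀ U : Finset V, U.card < K →
      conv E q (List.replicate M y) U = ∑ k ∈ Finset.range K, (M.choose k : R) * surj E q y k U := by
  induction M with
  | zero =>
    intro U hU
    have hK : 0 ∈ Finset.range K := Finset.mem_range.mpr (by omega)
    rw [Finset.sum_eq_single_of_mem 0 hK]
    · simp [surj, conv]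
    · intro b _ hb
      simp [Nat.choose_eq_zero_of_lt (Nat.pos_of_ne_zero hb)]
  | succ M ih =>
    intro U hU
    obtain ⟨K', rfl⟩ : ∃ K', K = K' + 1 := ⟨K - 1, by omega⟩
    rw [List.replicate_succ, conv_cons]
    unfold star
    rw [← Finset.add_sum_erase _ _ (Finset.empty_mem_powerset U)]
    simp only [zeta_empty, one_mul, eCount_empty_left, pow_zero, Finset.sdiff_empty]
    rw [ih U hU]
    have h2 : ∑ I ∈ U.powerset.erase ∅, zeta E y I * q ^ eCount E I (U \ I) *
          conv E q (List.replicate M y) (U \ I) =
        ∑ k ∈ Finset.range (K' + 1), (M.choose k : R) * surj E q y (k + 1) U := by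
      have : ∀ I ∈ U.powerset.erase ∅, zeta E y I * q ^ eCount E I (U \ I) *
          conv E q (List.replicate M y) (U \ I) =
          ∑ k ∈ Finset.range (K' + 1), (M.choose k : R) *
            (zeta E y I * q ^ eCount E I (U \ I) * surj E q y k (U \ I)) := by
        intro I hI
        have := card_sdiff_lt_of_mem_erase hI
        rw [ih (U \ I) (by omega), Finset.mul_sum]
        refine Finset.sum_congr rfl fun k _ => ?_
        ring
      rw [Finset.sum_congr rfl this, Finset.sum_comm]
      refine Finset.sum_congr rfl fun k _ => ?_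
      rw [← Finset.mul_sum]
      rfl
    rw [h2, Finset.sum_range_succ (fun k => (M.choose k : R) * surj E q y (k + 1) U) K',
      surj_eq_zero E q y (K' + 1) U hU, mul_zero, add_zero,
      Finset.sum_range_succ' (fun k => ((M + 1).choose k : R) * surj E q y k U) K',
      Finset.sum_range_succ' (fun k => (M.choose k : R) * surj E q y k U) K']
    simp only [Nat.choose_zero_right, Nat.cast_one, one_mul]
    have : ∀ k, (((M + 1).choose (k + 1) : ℕ) : R) = (M.choose k : R) + (M.choose (k + 1) : R) := by
      intro k
      rw [Nat.choose_succ_succ]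
      push_cast
      ring
    simp only [this, add_mul, Finset.sum_add_distrib]
    ring

/-- The formal value at size `-1`. -/
def invF [Fintype V] (y : R) (U : Finset V) : R :=
  ∑ k ∈ Finset.range (Fintype.card V + 1), (-1) ^ k * surj E q y k U

lemma card_lt_succ_card [Fintype V] (U : Finset V) : U.card < Fintype.card V + 1 :=
  Nat.lt_succ_of_le (Finset.card_le_univ U)

lemma star_zeta_invF [Fintype V] (y : R) (U : Finset V) :
    star E q (zeta E y) (invF E q y) U = deltaF U := by
  unfold star
  rw [← Finset.add_sum_erase _ _ (Finset.empty_mem_powerset U)]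
  simp only [zeta_empty, one_mul, eCount_empty_left, pow_zero, Finset.sdiff_empty]
  have h2 : ∑ I ∈ U.powerset.erase ∅, zeta E y I * q ^ eCount E I (U \ I) * invF E q y (U \ I) =
      ∑ k ∈ Finset.range (Fintype.card V + 1), (-1) ^ k * surj E q y (k + 1) U := by
    have : ∀ I ∈ U.powerset.erase ∅, zeta E y I * q ^ eCount E I (U \ I) * invF E q y (U \ I) =
        ∑ k ∈ Finset.range (Fintype.card V + 1), (-1) ^ k *
          (zeta E y I * q ^ eCount E I (U \ I) * surj E q y k (U \ I)) := by
      intro I _
      unfold invF
      rw [Finset.mul_sum]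
      refine Finset.sum_congr rfl fun k _ => ?_
      ring
    rw [Finset.sum_congr rfl this, Finset.sum_comm]
    refine Finset.sum_congr rfl fun k _ => ?_
    rw [← Finset.mul_sum]
    rfl
  rw [h2]
  unfold invF
  have hU := card_lt_succ_card U
  rw [Finset.sum_range_succ (fun k => (-1 : R) ^ k * surj E q y (k + 1) U),
    surj_eq_zero E q y _ U hU, mul_zero, add_zero,
    Finset.sum_range_succ' (fun k => (-1 : R) ^ k * surj E q y k U)]
  simp only [pow_zero, one_mul, pow_succ, mul_neg, mul_one, neg_mul, Finset.sum_neg_distrib]
  have : surj E q y 0 U = deltaF U := rfl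
  rw [this]
  ring

/-- A right inverse of a colour class function is unique. -/
lemma eq_of_star_zeta_eq (y : R) (h h' : Finset V → R)
    (H : ∀ U, star E q (zeta E y) h U = star E q (zeta E y) h' U) : ∀ U, h U = h' U := by
  intro U
  induction' hn : U.card using Nat.strong_induction_on with n ih generalizing U
  have H0 := H U
  unfold star at H0
  rw [← Finset.add_sum_erase _ _ (Finset.empty_mem_powerset U),
    ← Finset.add_sum_erase (a := ∅) _ _ (Finset.empty_mem_powerset U)] at H0
  simp only [zeta_empty, one_mul, eCount_empty_left, pow_zero, Finset.sdiff_empty] at H0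
  have : ∀ I ∈ U.powerset.erase ∅, zeta E y I * q ^ eCount E I (U \ I) * h (U \ I) =
      zeta E y I * q ^ eCount E I (U \ I) * h' (U \ I) := by
    intro I hI
    have := card_sdiff_lt_of_mem_erase hI
    rw [ih (U \ I).card (by omega) (U \ I) rfl]
  rw [Finset.sum_congr rfl this] at H0
  exact add_right_cancel H0

lemma star_sum_right (f g : Finset V → R) {ι : Type*} (s : Finset ι) (c : ι → R)
    (h : ι → Finset V → R) (U : Finset V) (H : ∀ W, W ⊆ U → g W = ∑ k ∈ s, c k * h k W) :
    star E q f g U = ∑ k ∈ s, c k * star E q f (h k) U := by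
  unfold star
  have : ∀ I ∈ U.powerset, f I * q ^ eCount E I (U \ I) * g (U \ I) =
      ∑ k ∈ s, c k * (f I * q ^ eCount E I (U \ I) * h k (U \ I)) := by
    intro I _
    rw [H _ Finset.sdiff_subset, Finset.mul_sum]
    refine Finset.sum_congr rfl fun k _ => ?_
    ring
  rw [Finset.sum_congr rfl this, Finset.sum_comm]
  refine Finset.sum_congr rfl fun k _ => ?_
  rw [Finset.mul_sum]

lemma star_sum_left (f g : Finset V → R) {ι : Type*} (s : Finset ι) (c : ι → R)
    (h : ι → Finset V → R) (U : Finset V) (H : ∀ W, W ⊆ U → f W = ∑ k ∈ s, c k * h k W) :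
    star E q f g U = ∑ k ∈ s, c k * star E q (h k) g U := by
  unfold star
  have : ∀ I ∈ U.powerset, f I * q ^ eCount E I (U \ I) * g (U \ I) =
      ∑ k ∈ s, c k * (h k I * q ^ eCount E I (U \ I) * g (U \ I)) := by
    intro I hI
    rw [H _ (Finset.mem_powerset.mp hI), Finset.sum_mul, Finset.sum_mul]
    refine Finset.sum_congr rfl fun k _ => ?_
    ring
  rw [Finset.sum_congr rfl this, Finset.sum_comm]
  refine Finset.sum_congr rfl fun k _ => ?_
  rw [Finset.mul_sum]

end surj

section esymm

lemma esymm_cons_succ (x : R) (s : Multiset R) (j : ℕ) :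
    (x ::ₘ s).esymm (j + 1) = s.esymm (j + 1) + x * s.esymm j := by
  unfold Multiset.esymm
  rw [Multiset.powersetCard_cons, Multiset.map_add, Multiset.sum_add]
  congr 1
  rw [Multiset.map_map]
  have : (Multiset.prod ∘ Multiset.cons x) = fun t : Multiset R => x * t.prod := by
    funext t
    simp
  rw [this, Multiset.sum_map_mul_left]

lemma esymm_zero (s : Multiset R) : s.esymm 0 = 1 := by
  simp [Multiset.esymm]

/-- The generating series of the elementary symmetric functions of a multiset. -/
noncomputable def eSeries (s : Multiset R) : PowerSeries R :=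
  PowerSeries.mk fun i => s.esymm i

lemma eSeries_cons (x : R) (s : Multiset R) :
    eSeries (x ::ₘ s) = (1 + PowerSeries.C x * PowerSeries.X) * eSeries s := by
  ext i
  rw [add_mul, one_mul, map_add]
  cases i with
  | zero =>
    simp [eSeries, esymm_zero]
  | succ j =>
    have : (PowerSeries.C x * PowerSeries.X) * eSeries s =
        PowerSeries.C x * (eSeries s * PowerSeries.X) := by ring
    rw [this, PowerSeries.coeff_C_mul, PowerSeries.coeff_succ_mul_X]
    simp [eSeries, esymm_cons_succ]

lemma eSeries_zero : eSeries (0 : Multiset R) = 1 := by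
  ext i
  cases i with
  | zero => simp [eSeries, esymm_zero]
  | succ j =>
    simp only [eSeries, PowerSeries.coeff_mk, PowerSeries.coeff_one]
    simp [Multiset.esymm, Multiset.powersetCard_zero_right]

lemma eSeries_add (s t : Multiset R) : eSeries (s + t) = eSeries s * eSeries t := by
  induction s using Multiset.induction_on with
  | empty => simp [eSeries_zero]
  | cons x s ih =>
    rw [Multiset.cons_add, eSeries_cons, eSeries_cons, ih]
    ring

lemma eSeries_replicate (y : R) (M : ℕ) :
    eSeries (Multiset.replicate M y) = (1 + PowerSeries.C y * PowerSeries.X) ^ M := by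
  induction M with
  | zero => simp [eSeries_zero]
  | succ M ih =>
    rw [Multiset.replicate_succ, eSeries_cons, ih, pow_succ]
    ring

lemma coeff_one_add_pow (y : R) (M r : ℕ) :
    PowerSeries.coeff r ((1 + PowerSeries.C y * PowerSeries.X) ^ M : PowerSeries R) =
      (M.choose r : R) * y ^ r := by
  induction M generalizing r with
  | zero =>
    cases r with
    | zero => simp
    | succ r => simp [PowerSeries.coeff_one]
  | succ M ih =>
    rw [pow_succ, mul_add, mul_one, map_add, ih]
    have : (1 + PowerSeries.C y * PowerSeries.X) ^ M * (PowerSeries.C y * PowerSeries.X) =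
        PowerSeries.C y * ((1 + PowerSeries.C y * PowerSeries.X) ^ M * PowerSeries.X) := by ring
    rw [this, PowerSeries.coeff_C_mul]
    cases r with
    | zero =>
      simp
    | succ r =>
      rw [PowerSeries.coeff_succ_mul_X, ih, Nat.choose_succ_succ]
      push_cast
      ring

end esymm

section binP

variable (R)
variable [Algebra ℚ R]

/-- The binomial polynomial `T(T-1)⋯(T-k+1)/k!`. -/
noncomputable def binP (k : ℕ) : Polynomial R :=
  ((k.factorial : ℚ)⁻¹) • descPochhammer R k

lemma natCast_eq_algebraMap (m : ℕ) : (m : R) = algebraMap ℚ R (m : ℚ) := by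
  simp

lemma eval_binP_nat (k M : ℕ) : (binP R k).eval (M : R) = (M.choose k : R) := by
  unfold binP
  rw [Polynomial.eval_smul, descPochhammer_eval_eq_descFactorial,
    Nat.descFactorial_eq_factorial_mul_choose, Algebra.smul_def]
  push_cast
  rw [← mul_assoc, natCast_eq_algebraMap R k.factorial, ← map_mul,
    inv_mul_cancel₀ (by exact_mod_cast k.factorial_ne_zero), map_one, one_mul]

lemma eval_descPochhammer_neg_one (k : ℕ) :
    (descPochhammer R k).eval (-1 : R) = (-1) ^ k * (k.factorial : R) := by
  induction k with
  | zero => simp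
  | succ k ih =>
    rw [descPochhammer_succ_right, Polynomial.eval_mul, ih]
    simp only [Polynomial.eval_sub, Polynomial.eval_X, Polynomial.eval_natCast]
    rw [Nat.factorial_succ, pow_succ]
    push_cast
    ring

lemma eval_binP_neg_one (k : ℕ) : (binP R k).eval (-1 : R) = (-1) ^ k := by
  unfold binP
  rw [Polynomial.eval_smul, eval_descPochhammer_neg_one, Algebra.smul_def,
    natCast_eq_algebraMap R k.factorial, mul_comm ((-1 : R) ^ k), ← mul_assoc, ← map_mul,
    inv_mul_cancel₀ (by exact_mod_cast k.factorial_ne_zero), map_one, one_mul]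

end binP

section hol

variable (E : V → V → Prop) [DecidableRel E] (q : R)

variable {ι : Type*} [Fintype ι] (c : ι → R) (parts : ι → Multiset ℕ)

/-- The `i`-th coefficient of `g` times the elementary generating series of `L`. -/
noncomputable def xiF (g : PowerSeries R) (L : List R) (i : ℕ) : R :=
  PowerSeries.coeff i (g * eSeries (L : Multiset R))

/-- The statement that `G` convolved with any list of colours has the expansion `c`, for the
alphabet of the list together with a formal alphabet with generating series `g`. -/
def Hol [Fintype V] (G : Finset V → R) (g : PowerSeries R) : Prop :=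
  ∀ L : List R, star E q G (conv E q L) Finset.univ =
    ∑ l : ι, c l * ((parts l).map fun i => xiF g L i).prod

variable {E q c parts}

lemma hol_val [Fintype V] {G : Finset V → R} {g : PowerSeries R}
    (H : Hol (ι := ι) E q c parts G g) (x : R) :
    Hol (ι := ι) E q c parts (star E q G (zeta E x)) (g * (1 + PowerSeries.C x * PowerSeries.X)) := by
  intro L
  have h := H (x :: L)
  rw [star_assoc]
  rw [conv_cons] at h
  rw [h]
  refine Finset.sum_congr rfl fun l _ => ?_
  congr 2
  refine Multiset.map_congr rfl fun i _ => ?_
  unfold xiF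
  rw [show ((x :: L : List R) : Multiset R) = x ::ₘ (L : Multiset R) from rfl, eSeries_cons]
  ring_nf

/-- the series of `1/(1+yX)` -/
noncomputable def yS (y : R) : PowerSeries R := PowerSeries.mk fun r => (-y) ^ r

lemma hol_neg [Fintype V] [IsDomain R] [CharZero R] [Algebra ℚ R] {G : Finset V → R}
    {g : PowerSeries R} (H : Hol (ι := ι) E q c parts G g) (y : R) (h : Finset V → R)
    (hh : ∀ U, star E q (zeta E y) h U = deltaF U) :
    Hol (ι := ι) E q c parts (star E q G h) (g * yS y) := by
  intro L
  set K := Fintype.card V + 1 with hK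
  have hinv : ∀ U, h U = invF E q y U := by
    apply eq_of_star_zeta_eq E q y
    intro U
    rw [hh, star_zeta_invF]
  -- the coefficients
  let gk : ℕ → R := fun k => star E q (star E q G (surj E q y k)) (conv E q L) Finset.univ
  let Ξ : ℕ → R := fun m => xiF g L m
  -- identity at natural numbers
  have key : ∀ M : ℕ, ∑ k ∈ Finset.range K, (M.choose k : R) * gk k =
      ∑ l : ι, c l * ((parts l).map fun i =>
        ∑ p ∈ Finset.HasAntidiagonal.antidiagonal i, (M.choose p.1 : R) * y ^ p.1 * Ξ p.2).prod := by
    intro M
    have h1 := H (List.replicate M y ++ L)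
    have h2 : star E q G (conv E q (List.replicate M y ++ L)) Finset.univ =
        ∑ k ∈ Finset.range K, (M.choose k : R) * gk k := by
      rw [star_congr_right E q G _ _ (conv_append E q _ L), ← star_assoc]
      rw [star_sum_left E q (star E q G (conv E q (List.replicate M y))) (conv E q L)
        (Finset.range K) (fun k => (M.choose k : R)) (fun k => star E q G (surj E q y k))]
      intro W _
      rw [star_sum_right E q G (conv E q (List.replicate M y)) (Finset.range K)
        (fun k => (M.choose k : R)) (surj E q y)]
      intro W' _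
      exact conv_replicate E q y K M W' (card_lt_succ_card W')
    rw [← h2, h1]
    refine Finset.sum_congr rfl fun l _ => ?_
    congr 2
    refine Multiset.map_congr rfl fun i _ => ?_
    unfold xiF
    have h3 : ((List.replicate M y ++ L : List R) : Multiset R) =
        Multiset.replicate M y + (L : Multiset R) := by
      rw [← Multiset.coe_add, Multiset.coe_replicate]
    rw [h3, eSeries_add, eSeries_replicate, mul_left_comm, PowerSeries.coeff_mul]
    refine Finset.sum_congr rfl fun p _ => ?_
    rw [coeff_one_add_pow]
    rfl
  -- polynomial versions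
  let P1 : Polynomial R := ∑ k ∈ Finset.range K, Polynomial.C (gk k) * binP R k
  let P2 : Polynomial R := ∑ l : ι, Polynomial.C (c l) * ((parts l).map fun i =>
        ∑ p ∈ Finset.HasAntidiagonal.antidiagonal i, binP R p.1 * Polynomial.C (y ^ p.1 * Ξ p.2)).prod
  have hev : ∀ r : R, P1.eval r = ∑ k ∈ Finset.range K, gk k * (binP R k).eval r := by
    intro r
    simp only [P1, Polynomial.eval_finsetSum, Polynomial.eval_mul, Polynomial.eval_C]
  have hev2 : ∀ r : R, P2.eval r = ∑ l : ι, c l * ((parts l).map fun i =>
        ∑ p ∈ Finset.HasAntidiagonal.antidiagonal i, (binP R p.1).eval r * (y ^ p.1 * Ξ p.2)).prod := by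
    intro r
    simp only [P2, Polynomial.eval_finsetSum, Polynomial.eval_mul, Polynomial.eval_C,
      Polynomial.eval_multiset_prod, Multiset.map_map, Function.comp_def]
  have hP : P1 = P2 := by
    apply Polynomial.eq_of_infinite_eval_eq
    refine Set.Infinite.mono (s := Set.range (fun M : ℕ => (M : R))) ?_
      (Set.infinite_range_of_injective Nat.cast_injective)
    rintro _ ⟨M, rfl⟩
    show P1.eval (M : R) = P2.eval (M : R)
    rw [hev, hev2]
    have h4 := key M
    simp only [eval_binP_nat]
    calc ∑ k ∈ Finset.range K, gk k * (M.choose k : R)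
        = ∑ k ∈ Finset.range K, (M.choose k : R) * gk k :=
          Finset.sum_congr rfl fun k _ => mul_comm _ _
      _ = _ := h4
      _ = _ := by
        refine Finset.sum_congr rfl fun l _ => ?_
        congr 2
        refine Multiset.map_congr rfl fun i _ => ?_
        refine Finset.sum_congr rfl fun p _ => ?_
        ring
  have hfin : P1.eval (-1 : R) = P2.eval (-1 : R) := by rw [hP]
  rw [hev, hev2] at hfin
  simp only [eval_binP_neg_one] at hfin
  -- left side
  have hL : star E q (star E q G h) (conv E q L) Finset.univ =
      ∑ k ∈ Finset.range K, gk k * (-1) ^ k := by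
    rw [star_sum_left E q (star E q G h) (conv E q L) (Finset.range K)
      (fun k => (-1 : R) ^ k) (fun k => star E q G (surj E q y k))]
    · refine Finset.sum_congr rfl fun k _ => ?_
      rw [mul_comm]
    · intro W _
      rw [star_sum_right E q G h (Finset.range K) (fun k => (-1 : R) ^ k) (surj E q y)]
      intro W' _
      rw [hinv]
      rfl
  rw [hL, hfin]
  refine Finset.sum_congr rfl fun l _ => ?_
  congr 2
  refine Multiset.map_congr rfl fun i _ => ?_
  unfold xiF
  rw [mul_assoc, mul_left_comm, PowerSeries.coeff_mul]
  refine Finset.sum_congr rfl fun p _ => ?_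
  simp only [yS, PowerSeries.coeff_mk]
  show (-1 : R) ^ p.1 * (y ^ p.1 * Ξ p.2) = (-y) ^ p.1 * _
  rw [neg_pow y p.1]
  simp only [Ξ, xiF]
  ring

end hol

end Vale.Agent.Lib.P066
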