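import Vale.Agent.Lib.P066.Hook1

/-!
Positivity for the coefficient of `e_{n-2} e_2`: the sum over pairs avoiding the minimal vertex.
A family of polynomials indexed by top windows `K` is shown to lie in `ℕ[q]` by induction on the
number of vertices.
-/

open Finset Polynomial

namespace Vale.Agent.Lib.P066.Pair

set_option linter.unusedSectionVars false
set_option linter.unusedSimpArgs false
set_option linter.unusedVariables false

variable {V : Type*} [LinearOrder V] (E : V → V → Prop) [DecidableRel E]

/-- The term of a pair `x < y`. -/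
noncomputable def pS (S : Finset V) (x y : V) : ℤ[X] :=
  if E x y then X ^ (aC E S x + aC E (S.erase x) y) * tauU E X ((S.erase x).erase y) else 0

/-- The term of a single vertex. -/
noncomputable def tT (S : Finset V) (x : V) : ℤ[X] := X ^ aC E S x * tauU E X (S.erase x)

/-- The weighted sum over pairs avoiding `r`. -/
noncomputable def sumD (S : Finset V) (r : V) (c : V → V → ℤ[X]) : ℤ[X] :=
  ∑ y ∈ S, ∑ x ∈ S.erase r, c x y * pS E S x y

/-- The weighted sum over vertices other than `r`. -/
noncomputable def sumW (S : Finset V) (r : V) (f : V → ℤ[X]) : ℤ[X] :=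
  ∑ x ∈ S.erase r, f x * tT E S x

/-- The number of `x, y` adjacent to `n`. -/
def jE (n x y : V) : ℕ := (if E x n then 1 else 0) + (if E y n then 1 else 0)

variable {E}

lemma NN_pS (S : Finset V) (x y : V) : NonnegCoeffs (pS E S x y) := by
  unfold pS
  split_ifs
  · exact NN_mul (NN_X_pow _) (NN_tauU _)
  · exact NN_zero

lemma NN_tT (S : Finset V) (x : V) : NonnegCoeffs (tT E S x) :=
  NN_mul (NN_X_pow _) (NN_tauU _)

lemma sumD_congr {S : Finset V} {r : V} {c c' : V → V → ℤ[X]}
    (h : ∀ y ∈ S, ∀ x ∈ S.erase r, E x y → c x y = c' x y) : sumD E S r c = sumD E S r c' := by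
  unfold sumD
  refine Finset.sum_congr rfl fun y hy => Finset.sum_congr rfl fun x hx => ?_
  by_cases hxy : E x y
  · rw [h y hy x hx hxy]
  · simp [pS, hxy]

lemma sumD_add (S : Finset V) (r : V) (c c' : V → V → ℤ[X]) :
    sumD E S r (fun x y => c x y + c' x y) = sumD E S r c + sumD E S r c' := by
  unfold sumD
  rw [← Finset.sum_add_distrib]
  refine Finset.sum_congr rfl fun y _ => ?_
  rw [← Finset.sum_add_distrib]
  refine Finset.sum_congr rfl fun x _ => ?_
  ring

lemma sumD_smul (S : Finset V) (r : V) (a : ℤ[X]) (c : V → V → ℤ[X]) :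
    sumD E S r (fun x y => a * c x y) = a * sumD E S r c := by
  unfold sumD
  rw [Finset.mul_sum]
  refine Finset.sum_congr rfl fun y _ => ?_
  rw [Finset.mul_sum]
  refine Finset.sum_congr rfl fun x _ => ?_
  ring

lemma NN_sumD {S : Finset V} {r : V} {c : V → V → ℤ[X]}
    (h : ∀ y ∈ S, ∀ x ∈ S.erase r, E x y → NonnegCoeffs (c x y)) :
    NonnegCoeffs (sumD E S r c) := by
  unfold sumD
  refine NN_sum _ _ fun y hy => NN_sum _ _ fun x hx => ?_
  by_cases hxy : E x y
  · exact NN_mul (h y hy x hx hxy) (NN_pS _ _ _)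
  · simp only [pS, hxy, if_false, mul_zero]
    exact NN_zero

lemma sumW_congr {S : Finset V} {r : V} {f f' : V → ℤ[X]}
    (h : ∀ x ∈ S.erase r, f x = f' x) : sumW E S r f = sumW E S r f' := by
  unfold sumW
  refine Finset.sum_congr rfl fun x hx => ?_
  rw [h x hx]

lemma sumW_add (S : Finset V) (r : V) (f f' : V → ℤ[X]) :
    sumW E S r (fun x => f x + f' x) = sumW E S r f + sumW E S r f' := by
  unfold sumW
  rw [← Finset.sum_add_distrib]
  refine Finset.sum_congr rfl fun x _ => ?_
  ring

lemma sumW_smul (S : Finset V) (r : V) (a : ℤ[X]) (f : V → ℤ[X]) :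
    sumW E S r (fun x => a * f x) = a * sumW E S r f := by
  unfold sumW
  rw [Finset.mul_sum]
  refine Finset.sum_congr rfl fun x _ => ?_
  ring

lemma NN_sumW {S : Finset V} {r : V} {f : V → ℤ[X]}
    (h : ∀ x ∈ S.erase r, NonnegCoeffs (f x)) : NonnegCoeffs (sumW E S r f) := by
  unfold sumW
  exact NN_sum _ _ fun x hx => NN_mul (h x hx) (NN_tT _ _)

lemma aC_erase' (S : Finset V) (v n : V) (hv : v ∈ S) :
    aC E (S.erase v) n + (if E v n then 1 else 0) = aC E S n := by
  by_cases h : E v n
  · rw [if_pos h]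
    exact aC_erase_of_mem hv h
  · rw [if_neg h, aC_erase_of_not h]
    rfl

lemma aC_erase2 (S : Finset V) (x y n : V) (hx : x ∈ S) (hy : y ∈ S) (hne : y ≠ x) :
    aC E ((S.erase x).erase y) n + jE E n x y = aC E S n := by
  have h1 := aC_erase' (E := E) S x n hx
  have h2 := aC_erase' (E := E) (S.erase x) y n (Finset.mem_erase.mpr ⟨hne, hy⟩)
  unfold jE
  omega

variable (hE : ∀ a b, E a b → a < b)
  (hW : ∀ i i' j, i < i' → i' < j → E i j → E i' j ∧ E i i')

include hE in
lemma pS_insert {S : Finset V} {n r x y : V} (hX : ∀ x ∈ S, x < n) (hr : r ∈ S)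
    (hmin : ∀ x ∈ S, r ≤ x) (hx : x ∈ S.erase r) (hy : y ∈ S) :
    pS E (insert n S) x y = qI X (aC E S n - jE E n x y) * pS E S x y := by
  unfold pS
  by_cases hxy : E x y
  · rw [if_pos hxy, if_pos hxy]
    have hxS := Finset.mem_of_mem_erase hx
    have hxn : x ≠ n := (hX x hxS).ne
    have hyn : y ≠ n := (hX y hy).ne
    have hlt := hE _ _ hxy
    have hrx : r ≠ x := (Finset.mem_erase.mp hx).1.symm
    have hry : r ≠ y := by
      have := hmin x hxS
      exact (lt_of_le_of_lt this hlt).ne
    have h1 : aC E (insert n S) x = aC E S x := aC_insert_of_lt hE S n x (hX x hxS)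
    have h2 : (insert n S).erase x = insert n (S.erase x) :=
      Finset.erase_insert_of_ne hxn.symm
    have h3 : aC E (insert n (S.erase x)) y = aC E (S.erase x) y :=
      aC_insert_of_lt hE _ n y (hX y hy)
    have h4 : (insert n (S.erase x)).erase y = insert n ((S.erase x).erase y) :=
      Finset.erase_insert_of_ne hyn.symm
    have hne : (S.erase x).erase y ≠ ∅ := by
      intro h0
      have : r ∈ (S.erase x).erase y :=
        Finset.mem_erase.mpr ⟨hry, Finset.mem_erase.mpr ⟨hrx, hr⟩⟩
      rw [h0] at this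
      simp at this
    have h5 := tauU_insert hE (X : ℤ[X]) ((S.erase x).erase y) n
      (fun z hz => hX z (Finset.mem_of_mem_erase (Finset.mem_of_mem_erase hz)))
    rw [if_neg hne] at h5
    have h6 := aC_erase2 (E := E) S x y n hxS hy hlt.ne'
    have h7 : aC E ((S.erase x).erase y) n = aC E S n - jE E n x y := by omega
    rw [h1, h2, h3, h4, h5, h7]
    ring
  · simp [hxy]

include hE in
lemma pS_top {S : Finset V} {n x : V} (hX : ∀ x ∈ S, x < n) (hx : x ∈ S) :
    pS E (insert n S) x n = if E x n then X ^ (aC E S n - 1) * tT E S x else 0 := by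
  unfold pS tT
  by_cases hxn' : E x n
  · rw [if_pos hxn', if_pos hxn']
    have hxn : x ≠ n := (hX x hx).ne
    have h1 : aC E (insert n S) x = aC E S x := aC_insert_of_lt hE S n x (hX x hx)
    have h2 : (insert n S).erase x = insert n (S.erase x) :=
      Finset.erase_insert_of_ne hxn.symm
    have hnn : n ∉ S.erase x := fun h => lt_irrefl _ (hX n (Finset.mem_of_mem_erase h))
    have h3 : aC E (insert n (S.erase x)) n = aC E (S.erase x) n := by
      unfold aC
      rw [Finset.filter_insert, if_neg]
      intro h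
      exact lt_irrefl _ (hE _ _ h)
    have h4 : (insert n (S.erase x)).erase n = S.erase x := Finset.erase_insert hnn
    have h5 := aC_erase_of_mem (E := E) hx hxn'
    have h6 : aC E (S.erase x) n = aC E S n - 1 := by omega
    rw [h1, h2, h3, h4, h6, pow_add]
    ring
  · simp [hxn']

include hE in
lemma pS_left_top (S : Finset V) {n y : V} (hy : y ≤ n) : pS E S n y = 0 := by
  unfold pS
  rw [if_neg]
  intro h
  exact absurd (hE _ _ h) (not_lt.mpr hy)

include hE in
/-- The recursion for the sum over pairs. -/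
lemma sumD_insert {S : Finset V} {n r : V} (hX : ∀ x ∈ S, x < n) (hr : r ∈ S)
    (hmin : ∀ x ∈ S, r ≤ x) (c : V → V → ℤ[X]) :
    sumD E (insert n S) r c =
      sumD E S r (fun x y => c x y * qI X (aC E S n - jE E n x y)) +
        sumW E S r (fun x => if E x n then c x n * X ^ (aC E S n - 1) else 0) := by
  have hnS : n ∉ S := fun h => lt_irrefl _ (hX n h)
  have hrn : r ≠ n := (hX r hr).ne
  have hnr : n ∉ S.erase r := fun h => hnS (Finset.mem_of_mem_erase h)
  unfold sumD sumW
  rw [Finset.sum_insert hnS, Finset.erase_insert_of_ne hrn.symm, add_comm]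
  congr 1
  · refine Finset.sum_congr rfl fun y hy => ?_
    rw [Finset.sum_insert hnr, pS_left_top hE _ (hX y hy).le, mul_zero, zero_add]
    refine Finset.sum_congr rfl fun x hx => ?_
    rw [pS_insert hE hX hr hmin hx hy]
    beta_reduce
    ring
  · rw [Finset.sum_insert hnr, pS_left_top hE _ le_rfl, mul_zero, zero_add]
    refine Finset.sum_congr rfl fun x hx => ?_
    rw [pS_top hE hX (Finset.mem_of_mem_erase hx)]
    beta_reduce
    split_ifs
    · ring
    · simp

include hE in
lemma tT_insert {S : Finset V} {n r x : V} (hX : ∀ x ∈ S, x < n) (hr : r ∈ S)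
    (hmin : ∀ x ∈ S, r ≤ x) (hx : x ∈ S.erase r) :
    tT E (insert n S) x = qI X (aC E (S.erase x) n) * tT E S x := by
  unfold tT
  have hxS := Finset.mem_of_mem_erase hx
  have hrx : r < x := lt_of_le_of_ne (hmin x hxS) (Finset.mem_erase.mp hx).1.symm
  rw [aC_insert_of_lt hE S n x (hX x hxS), tau_insert_erase hE hX hxS ⟨r, hr, hrx⟩]
  ring

include hE in
lemma tT_top {S : Finset V} {n : V} (hX : ∀ x ∈ S, x < n) :
    tT E (insert n S) n = X ^ aC E S n * tauU E X S := by
  unfold tT
  have hnS : n ∉ S := fun h => lt_irrefl _ (hX n h)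
  rw [Finset.erase_insert hnS]
  congr 2
  unfold aC
  rw [Finset.filter_insert, if_neg]
  intro h
  exact lt_irrefl _ (hE _ _ h)

include hE in
/-- The recursion for the sum over vertices. -/
lemma sumW_insert {S : Finset V} {n r : V} (hX : ∀ x ∈ S, x < n) (hr : r ∈ S)
    (hmin : ∀ x ∈ S, r ≤ x) (f : V → ℤ[X]) :
    sumW E (insert n S) r f = f n * (X ^ aC E S n * tauU E X S) +
      sumW E S r (fun x => f x * qI X (aC E (S.erase x) n)) := by
  have hnS : n ∉ S := fun h => lt_irrefl _ (hX n h)
  have hrn : r ≠ n := (hX r hr).ne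
  have hnr : n ∉ S.erase r := fun h => hnS (Finset.mem_of_mem_erase h)
  unfold sumW
  rw [Finset.erase_insert_of_ne hrn.symm, Finset.sum_insert hnr, tT_top hE hX]
  congr 1
  refine Finset.sum_congr rfl fun x hx => ?_
  rw [tT_insert hE hX hr hmin hx]
  ring

include hE in
lemma tau_top {S : Finset V} {n r : V} (hX : ∀ x ∈ S, x < n) (hr : r ∈ S) :
    tauU E (X : ℤ[X]) (insert n S) = qI X (aC E S n) * tauU E X S := by
  rw [tauU_insert hE (X : ℤ[X]) S n hX, if_neg]
  intro h
  rw [h] at hr
  simp at hr


/-- The number `0` or `1`, according to `x ∈ K`. -/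
def ind (K : Finset V) (x : V) : ℕ := if x ∈ K then 1 else 0

/-- The weight of a pair with respect to the window `K`. -/
noncomputable def cK (K : Finset V) (x y : V) : ℤ[X] := qI X (2 - (ind K x + ind K y))

/-- The indicator of `K`. -/
noncomputable def fK (K : Finset V) (x : V) : ℤ[X] := if x ∈ K then 1 else 0

variable (E) in
/-- The family of polynomials indexed by windows. -/
noncomputable def Qp (S : Finset V) (r : V) (K : Finset V) : ℤ[X] :=
  sumD E S r (cK K) + X * sumW E S r (fK K) - X ^ 2 * tauU E X S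

lemma ind_le (K : Finset V) (x : V) : ind K x ≤ 1 := by
  unfold ind
  split_ifs <;> omega

lemma NN_cK (K : Finset V) (x y : V) : NonnegCoeffs (cK K x y) := NN_qI _

lemma NN_fK (K : Finset V) (x : V) : NonnegCoeffs (fK K x) := by
  unfold fK
  split_ifs
  · exact NN_one
  · exact NN_zero

lemma qI_split (k j : ℕ) (hj : j ≤ 2) (hk : 2 ≤ k) :
    qI (X : ℤ[X]) (k - j) = qI X (k - 2) + X ^ (k - 2) * qI X (2 - j) := by
  have h := qI_sub_eq (k - 2) (k - j) (by omega)
  have h2 : k - j - (k - 2) = 2 - j := by omega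
  rw [h2] at h
  linear_combination h

lemma qI_zero' : qI (X : ℤ[X]) 0 = 0 := by simp [qI]

lemma qI_one' : qI (X : ℤ[X]) 1 = 1 := by simp [qI]

lemma qI_two' : qI (X : ℤ[X]) 2 = 1 + X := by simp [qI, Finset.sum_range_succ]

lemma ind_nbr {S : Finset V} {n x : V} (hx : x ∈ S) :
    ind (nbr E S n) x = if E x n then 1 else 0 := by
  unfold ind nbr
  simp [hx]

lemma ind_erase {K : Finset V} {n x : V} (hx : x ≠ n) : ind K x = ind (K.erase n) x := by
  unfold ind
  simp [hx]

lemma cK_empty (x y : V) : cK (∅ : Finset V) x y = 1 + X := by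
  unfold cK ind
  simp [qI_two']

lemma fK_empty (x : V) : fK (∅ : Finset V) x = 0 := by
  simp [fK]

lemma NN_Qp_of_tau_zero {S : Finset V} {r : V} (K : Finset V) (h : tauU E (X : ℤ[X]) S = 0) :
    NonnegCoeffs (Qp E S r K) := by
  unfold Qp
  rw [h, mul_zero, sub_zero]
  exact NN_add (NN_sumD fun _ _ _ _ _ => NN_cK _ _ _)
    (NN_mul NN_X (NN_sumW fun _ _ => NN_fK _ _))

include hE in
/-- The recursion when the top vertex lies in the window. -/
lemma Qp_insert_mem {S K : Finset V} {n r : V} (hX : ∀ x ∈ S, x < n) (hr : r ∈ S)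
    (hmin : ∀ x ∈ S, r ≤ x) (hn : n ∈ K) (hK2 : ∀ x ∈ K.erase n, E x n)
    (hk : 2 ≤ aC E S n) :
    Qp E (insert n S) r K = qI X (aC E S n - 2) * Qp E S r (K.erase n) +
      X ^ (aC E S n - 2) * (Qp E S r (nbr E S n) +
        sumD E S r (fun x y => cK (nbr E S n) x y * (cK (K.erase n) x y - 1))) := by
  obtain ⟨k, hk'⟩ : ∃ k, aC E S n = k + 2 := ⟨aC E S n - 2, by omega⟩
  have hD : sumD E S r (fun x y => cK K x y * qI X (aC E S n - jE E n x y)) =
      qI X k * sumD E S r (cK (K.erase n)) + X ^ k * (sumD E S r (cK (nbr E S n)) +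
        sumD E S r (fun x y => cK (nbr E S n) x y * (cK (K.erase n) x y - 1))) := by
    rw [← sumD_add, ← sumD_smul, ← sumD_smul, ← sumD_add]
    apply sumD_congr
    intro y hy x hx hxy
    have hxS := Finset.mem_of_mem_erase hx
    have h1 : cK K x y = cK (K.erase n) x y := by
      unfold cK
      rw [ind_erase (K := K) (hX x hxS).ne, ind_erase (K := K) (hX y hy).ne]
    have h2 : jE E n x y = ind (nbr E S n) x + ind (nbr E S n) y := by
      unfold jE
      rw [ind_nbr hxS, ind_nbr hy]
    have h3 := ind_le (nbr E S n) x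
    have h4 := ind_le (nbr E S n) y
    rw [h1, h2, hk', qI_split (k + 2) _ (by omega) (by omega)]
    simp only [Nat.add_sub_cancel]
    unfold cK
    ring
  have hWW : sumW E S r (fun x => if E x n then cK K x n * X ^ (aC E S n - 1) else 0) +
      X * sumW E S r (fun x => fK K x * qI X (aC E (S.erase x) n)) =
      qI X k * (X * sumW E S r (fK (K.erase n))) + X ^ k * (X * sumW E S r (fK (nbr E S n))) := by
    simp only [← sumW_smul, ← sumW_add]
    apply sumW_congr
    intro x hx
    have hxS := Finset.mem_of_mem_erase hx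
    have hxn : x ≠ n := (hX x hxS).ne
    have hnn : ind K n = 1 := by simp [ind, hn]
    by_cases hxK2 : x ∈ K.erase n
    · have hEx := hK2 x hxK2
      have hxK : x ∈ K := Finset.mem_of_mem_erase hxK2
      have h1 : cK K x n = 0 := by
        unfold cK
        rw [hnn]
        simp [ind, hxK, qI_zero']
      have h2 : aC E (S.erase x) n = k + 1 := by
        have := aC_erase_of_mem (E := E) hxS hEx
        omega
      have h3 : fK K x = 1 := by simp [fK, hxK]
      have h4 : fK (K.erase n) x = 1 := by
        unfold fK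
        rw [if_pos hxK2]
      have h5 : fK (nbr E S n) x = 1 := by
        unfold fK nbr
        simp [hxS, hEx]
      rw [if_pos hEx, h1, h2, h3, h4, h5, qI_succ']
      ring
    · have hxK : x ∉ K := fun h => hxK2 (Finset.mem_erase.mpr ⟨hxn, h⟩)
      have h3 : fK K x = 0 := by simp [fK, hxK]
      have h4 : fK (K.erase n) x = 0 := by
        unfold fK
        rw [if_neg hxK2]
      by_cases hEx : E x n
      · have h1 : cK K x n = 1 := by
          unfold cK
          rw [hnn]
          simp [ind, hxK, qI_one']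
        have h5 : fK (nbr E S n) x = 1 := by
          unfold fK nbr
          simp [hxS, hEx]
        rw [if_pos hEx, h1, h3, h4, h5, hk']
        simp only [Nat.add_succ_sub_one]
        ring
      · have h5 : fK (nbr E S n) x = 0 := by
          unfold fK nbr
          simp [hEx]
        rw [if_neg hEx, h3, h4, h5]
        ring
  have hfn : fK K n = 1 := by simp [fK, hn]
  have hq : qI (X : ℤ[X]) (k + 2) = qI X k + X ^ k * (1 + X) := by
    have := qI_split (k + 2) 0 (by omega) (by omega)
    simpa [qI_two'] using this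
  unfold Qp
  rw [sumD_insert hE hX hr hmin, sumW_insert hE hX hr hmin, tau_top hE hX hr, hfn]
  have hexp : (X : ℤ[X]) ^ aC E S n = X ^ k * X ^ 2 := by
    rw [hk', pow_add]
  have hsub : aC E S n - 2 = k := by omega
  rw [hsub, hexp]
  have hqI : qI (X : ℤ[X]) (aC E S n) = qI X k + X ^ k * (1 + X) := by
    rw [hk', hq]
  rw [hqI]
  linear_combination hD + hWW

include hE in
/-- The recursion when the window is empty. -/
lemma Qp_insert_empty {S : Finset V} {n r : V} (hX : ∀ x ∈ S, x < n) (hr : r ∈ S)
    (hmin : ∀ x ∈ S, r ≤ x) (hk : 2 ≤ aC E S n) :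
    Qp E (insert n S) r ∅ = qI X (aC E S n - 2) * Qp E S r ∅ +
      (1 + X) * X ^ (aC E S n - 2) * Qp E S r (nbr E S n) := by
  obtain ⟨k, hk'⟩ : ∃ k, aC E S n = k + 2 := ⟨aC E S n - 2, by omega⟩
  have hD : sumD E S r (fun x y => cK ∅ x y * qI X (aC E S n - jE E n x y)) =
      qI X k * sumD E S r (cK ∅) + (1 + X) * (X ^ k * sumD E S r (cK (nbr E S n))) := by
    rw [← sumD_smul, ← sumD_smul, ← sumD_smul, ← sumD_add]
    apply sumD_congr
    intro y hy x hx hxy
    have hxS := Finset.mem_of_mem_erase hx
    have h2 : jE E n x y = ind (nbr E S n) x + ind (nbr E S n) y := by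
      unfold jE
      rw [ind_nbr hxS, ind_nbr hy]
    have h3 := ind_le (nbr E S n) x
    have h4 := ind_le (nbr E S n) y
    rw [h2, hk', qI_split (k + 2) _ (by omega) (by omega)]
    simp only [Nat.add_sub_cancel, cK_empty]
    unfold cK
    ring
  have hWW : sumW E S r (fun x => if E x n then cK ∅ x n * X ^ (aC E S n - 1) else 0) =
      (1 + X) * (X ^ k * (X * sumW E S r (fK (nbr E S n)))) := by
    simp only [← sumW_smul]
    apply sumW_congr
    intro x hx
    have hxS := Finset.mem_of_mem_erase hx
    by_cases hEx : E x n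
    · have h5 : fK (nbr E S n) x = 1 := by
        unfold fK nbr
        simp [hxS, hEx]
      rw [if_pos hEx, h5, cK_empty, hk']
      simp only [Nat.add_succ_sub_one]
      ring
    · have h5 : fK (nbr E S n) x = 0 := by
        unfold fK nbr
        simp [hEx]
      rw [if_neg hEx, h5]
      ring
  have hW0 : ∀ (T : Finset V) (g : V → ℤ[X]),
      sumW E T r (fun x => fK ∅ x * g x) = 0 := by
    intro T g
    unfold sumW
    simp [fK_empty]
  have hW1 : ∀ (T : Finset V), sumW E T r (fK ∅) = 0 := by
    intro T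
    unfold sumW
    simp [fK_empty]
  have hq : qI (X : ℤ[X]) (k + 2) = qI X k + X ^ k * (1 + X) := by
    have := qI_split (k + 2) 0 (by omega) (by omega)
    simpa [qI_two'] using this
  have hqI : qI (X : ℤ[X]) (aC E S n) = qI X k + X ^ k * (1 + X) := by
    rw [hk', hq]
  have hsub : aC E S n - 2 = k := by omega
  unfold Qp
  rw [sumD_insert hE hX hr hmin, sumW_insert hE hX hr hmin, tau_top hE hX hr, hW0, hW1,
    fK_empty, hsub, hqI, hD, hWW]
  ring

include hE in
/-- The top vertex lies in the window and has one lower neighbour. -/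
lemma NN_Qp_one {S K : Finset V} {n r : V} (hX : ∀ x ∈ S, x < n) (hr : r ∈ S)
    (hmin : ∀ x ∈ S, r ≤ x) (hn : n ∈ K) (hk : aC E S n = 1) :
    NonnegCoeffs (Qp E (insert n S) r K) := by
  have hfn : fK K n = 1 := by simp [fK, hn]
  have : Qp E (insert n S) r K =
      sumD E S r (fun x y => cK K x y * qI X (aC E S n - jE E n x y)) +
        sumW E S r (fun x => if E x n then cK K x n * X ^ (aC E S n - 1) else 0) +
        X * sumW E S r (fun x => fK K x * qI X (aC E (S.erase x) n)) := by
    unfold Qp
    rw [sumD_insert hE hX hr hmin, sumW_insert hE hX hr hmin, tau_top hE hX hr, hfn, hk, qI_one']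
    ring
  rw [this]
  refine NN_add (NN_add (NN_sumD fun _ _ _ _ _ => NN_mul (NN_cK _ _ _) (NN_qI _))
    (NN_sumW fun x _ => ?_)) (NN_mul NN_X (NN_sumW fun _ _ => NN_mul (NN_fK _ _) (NN_qI _)))
  split_ifs
  · exact NN_mul (NN_cK _ _ _) (NN_X_pow _)
  · exact NN_zero

/-- The coefficient of the remainder. -/
lemma NN_g (i j : ℕ) (hij : i ≤ j) (hj : j ≤ 2) :
    NonnegCoeffs (qI (X : ℤ[X]) (2 - j) * (qI X (2 - i) - 1)) := by
  have h0 : NonnegCoeffs ((X : ℤ[X])) := NN_X
  interval_cases j <;> interval_cases i <;>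
    simp [qI_zero', qI_one', qI_two', NN_zero, NN_X, NN_one]
  all_goals first
    | exact NN_X
    | exact NN_zero
    | exact NN_mul (NN_add NN_one NN_X) NN_X


lemma aC_le_card (S : Finset V) (n : V) : aC E S n ≤ S.card := Finset.card_filter_le _ _

include hE in
/-- The top vertex is a pendant vertex and the window is empty. -/
lemma NN_Qp_two_level {S₀ : Finset V} {v n r : V} (hX₀ : ∀ x ∈ S₀, x < v) (hvn : v < n)
    (hr : r ∈ S₀) (hmin : ∀ x ∈ S₀, r ≤ x) (hEv : E v n) (hno : ∀ x ∈ S₀, ¬ E x n)
    (IH : 3 ≤ S₀.card → NonnegCoeffs (Qp E S₀ r ∅)) :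
    NonnegCoeffs (Qp E (insert n (insert v S₀)) r ∅) := by
  have hX : ∀ x ∈ insert v S₀, x < n := by
    intro x hx
    rcases Finset.mem_insert.mp hx with rfl | hx
    · exact hvn
    · exact (hX₀ x hx).trans hvn
  have hrS : r ∈ insert v S₀ := Finset.mem_insert_of_mem hr
  have hminS : ∀ x ∈ insert v S₀, r ≤ x := by
    intro x hx
    rcases Finset.mem_insert.mp hx with rfl | hx
    · exact (hX₀ r hr).le
    · exact hmin x hx
  have hk : aC E (insert v S₀) n = 1 := by
    unfold aC
    rw [Finset.filter_insert, if_pos hEv, Finset.filter_false_of_mem hno]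
    simp
  set d := aC E S₀ v with hd
  have hW0 : ∀ (g : V → ℤ[X]), sumW E (insert v S₀) r (fun x => fK ∅ x * g x) = 0 := by
    intro g
    unfold sumW
    simp [fK_empty]
  have hW1 : sumW E (insert v S₀) r (fK ∅) = 0 := by
    unfold sumW
    simp [fK_empty]
  have hW2 : sumW E S₀ r (fK ∅) = 0 := by
    unfold sumW
    simp [fK_empty]
  have hA1 : sumD E (insert v S₀) r (fun x y => cK ∅ x y * qI X (1 - jE E n x y)) =
      sumD E S₀ r (fun x y => (1 + X) * qI X (d - jE E v x y)) := by
    rw [sumD_insert hE hX₀ hr hmin, ← hd]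
    have h2 : sumW E S₀ r (fun x => if E x v then
        (cK ∅ x v * qI X (1 - jE E n x v)) * X ^ (d - 1) else 0) = 0 := by
      unfold sumW
      refine Finset.sum_eq_zero fun x hx => ?_
      have hxS := Finset.mem_of_mem_erase hx
      have : jE E n x v = 1 := by
        unfold jE
        rw [if_neg (hno x hxS), if_pos hEv]
      beta_reduce
      rw [this]
      simp [qI_zero']
    rw [h2, add_zero]
    apply sumD_congr
    intro y hy x hx _
    have hxS := Finset.mem_of_mem_erase hx
    have : jE E n x y = 0 := by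
      unfold jE
      rw [if_neg (hno x hxS), if_neg (hno y hy)]
    rw [this, cK_empty]
    simp [qI_one']
  have hA2 : sumW E (insert v S₀) r (fun x => if E x n then cK ∅ x n * X ^ (1 - 1) else 0) =
      (1 + X) * (X ^ d * tauU E X S₀) := by
    rw [sumW_insert hE hX₀ hr hmin, if_pos hEv, cK_empty, ← hd]
    have : sumW E S₀ r (fun x => (if E x n then cK ∅ x n * X ^ (1 - 1) else 0) *
        qI X (aC E (S₀.erase x) v)) = 0 := by
      unfold sumW
      refine Finset.sum_eq_zero fun x hx => ?_
      beta_reduce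
      rw [if_neg (hno x (Finset.mem_of_mem_erase hx))]
      simp
    rw [this]
    simp
  have hform : Qp E (insert n (insert v S₀)) r ∅ =
      sumD E S₀ r (fun x y => (1 + X) * qI X (d - jE E v x y)) + (1 + X) * (X ^ d * tauU E X S₀) -
        X ^ 2 * (qI X d * tauU E X S₀) := by
    unfold Qp
    rw [sumD_insert hE hX hrS hminS, sumW_insert hE hX hrS hminS, tau_top hE hX hrS, hW0,
      fK_empty, hk, hA1, hA2, qI_one', tau_top hE hX₀ hr, ← hd]
    ring
  rw [hform]
  have hS1 : ∀ f : V → V → ℤ[X], (∀ x y, NonnegCoeffs (f x y)) →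
      NonnegCoeffs (sumD E S₀ r f) := fun f hf => NN_sumD fun _ _ _ _ _ => hf _ _
  rcases Nat.lt_or_ge d 2 with hd2 | hd2
  · interval_cases hdv : d
    · have : sumD E S₀ r (fun x y => (1 + X) * qI X (0 - jE E v x y)) +
          (1 + X) * (X ^ 0 * tauU E X S₀) - X ^ 2 * (qI X 0 * tauU E X S₀) =
          sumD E S₀ r (fun x y => (1 + X) * qI X (0 - jE E v x y)) +
            (1 + X) * tauU E X S₀ := by
        rw [qI_zero']
        ring
      rw [this]
      exact NN_add (hS1 _ fun _ _ => NN_mul (NN_add NN_one NN_X) (NN_qI _))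
        (NN_mul (NN_add NN_one NN_X) (NN_tauU _))
    · have : sumD E S₀ r (fun x y => (1 + X) * qI X (1 - jE E v x y)) +
          (1 + X) * (X ^ 1 * tauU E X S₀) - X ^ 2 * (qI X 1 * tauU E X S₀) =
          sumD E S₀ r (fun x y => (1 + X) * qI X (1 - jE E v x y)) + X * tauU E X S₀ := by
        rw [qI_one']
        ring
      rw [this]
      exact NN_add (hS1 _ fun _ _ => NN_mul (NN_add NN_one NN_X) (NN_qI _))
        (NN_mul NN_X (NN_tauU _))
  · obtain ⟨d', hd'⟩ : ∃ d', d = d' + 2 := ⟨d - 2, by omega⟩
    have hD : sumD E S₀ r (fun x y => (1 + X) * qI X (d - jE E v x y)) =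
        qI X d' * sumD E S₀ r (cK ∅) +
          X ^ d' * sumD E S₀ r (fun x y => (1 + X) * cK (nbr E S₀ v) x y) := by
      rw [← sumD_smul, ← sumD_smul, ← sumD_add]
      apply sumD_congr
      intro y hy x hx _
      have hxS := Finset.mem_of_mem_erase hx
      have h2 : jE E v x y = ind (nbr E S₀ v) x + ind (nbr E S₀ v) y := by
        unfold jE
        rw [ind_nbr hxS, ind_nbr hy]
      have h3 := ind_le (nbr E S₀ v) x
      have h4 := ind_le (nbr E S₀ v) y
      rw [h2, hd', qI_split (d' + 2) _ (by omega) (by omega)]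
      simp only [Nat.add_sub_cancel, cK_empty]
      unfold cK
      ring
    have hq : qI (X : ℤ[X]) (d' + 2) = qI X d' + X ^ d' * (1 + X) := by
      have := qI_split (d' + 2) 0 (by omega) (by omega)
      simpa [qI_two'] using this
    have hQ : Qp E S₀ r ∅ = sumD E S₀ r (cK ∅) - X ^ 2 * tauU E X S₀ := by
      unfold Qp
      rw [hW2]
      ring
    have : sumD E S₀ r (fun x y => (1 + X) * qI X (d - jE E v x y)) +
        (1 + X) * (X ^ d * tauU E X S₀) - X ^ 2 * (qI X d * tauU E X S₀) =
        qI X d' * Qp E S₀ r ∅ +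
          X ^ d' * sumD E S₀ r (fun x y => (1 + X) * cK (nbr E S₀ v) x y) := by
      rw [hD, hQ, hd', hq]
      ring
    rw [this]
    refine NN_add ?_ (NN_mul (NN_X_pow _) (hS1 _ fun _ _ =>
      NN_mul (NN_add NN_one NN_X) (NN_cK _ _ _)))
    by_cases hd0 : d' = 0
    · rw [hd0, qI_zero', zero_mul]
      exact NN_zero
    · refine NN_mul (NN_qI _) (IH ?_)
      have := aC_le_card (E := E) S₀ v
      omega

include hE hW in
/-- One step of the induction. -/
lemma Qp_step {S K : Finset V} {n r : V} (hX : ∀ x ∈ S, x < n) (hr : r ∈ S)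
    (hmin : ∀ x ∈ S, r ≤ x) (hK : Suf E K (insert n S))
    (hm : 3 ≤ S.card + 1 ∨ (2 ≤ S.card + 1 ∧ K ≠ ∅))
    (IH : ∀ (T K' : Finset V), T.card ≤ S.card → r ∈ T → (∀ x ∈ T, r ≤ x) → Suf E K' T →
      (3 ≤ T.card ∨ (2 ≤ T.card ∧ K' ≠ ∅)) → NonnegCoeffs (Qp E T r K')) :
    NonnegCoeffs (Qp E (insert n S) r K) := by
  have hnS : n ∉ S := fun h => lt_irrefl _ (hX n h)
  by_cases hk0 : aC E S n = 0
  · apply NN_Qp_of_tau_zero
    rw [tau_top hE hX hr, hk0, qI_zero', zero_mul]
  have hkc := aC_le_card (E := E) S n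
  have hNne : nbr E S n ≠ ∅ := by
    intro h0
    apply hk0
    rw [← card_nbr, h0]
    rfl
  have hNsuf : Suf E (nbr E S n) S := suf_nbr hW S n hX
  by_cases hnK : n ∈ K
  · have hsub : ∀ x ∈ K.erase n, x ∈ S := by
      intro x hx
      have h1 := Finset.mem_erase.mp hx
      rcases Finset.mem_insert.mp (hK.1 h1.2) with h | h
      · exact absurd h h1.1
      · exact h
    have hEK : ∀ x ∈ K.erase n, E x n := fun x hx =>
      hK.2.2 x (Finset.mem_of_mem_erase hx) n hnK (hX x (hsub x hx))
    have hSuf2 : Suf E (K.erase n) S := by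
      refine ⟨hsub, ?_, ?_⟩
      · intro i hi j hj hij
        refine Finset.mem_erase.mpr ⟨(hX j hj).ne,
          hK.2.1 i (Finset.mem_of_mem_erase hi) j (Finset.mem_insert_of_mem hj) hij⟩
      · intro i hi j hj hij
        exact hK.2.2 i (Finset.mem_of_mem_erase hi) j (Finset.mem_of_mem_erase hj) hij
    by_cases hk1 : aC E S n = 1
    · exact NN_Qp_one hE hX hr hmin hnK hk1
    have hk2 : 2 ≤ aC E S n := by omega
    rw [Qp_insert_mem hE hX hr hmin hnK hEK hk2]
    refine NN_add ?_ (NN_mul (NN_X_pow _) (NN_add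
      (IH _ _ le_rfl hr hmin hNsuf (Or.inr ⟨by omega, hNne⟩)) ?_))
    · by_cases hk3 : aC E S n = 2
      · rw [hk3]
        simp [qI_zero', NN_zero]
      · exact NN_mul (NN_qI _) (IH _ _ le_rfl hr hmin hSuf2 (Or.inl (by omega)))
    · refine NN_sumD fun y hy x hx _ => ?_
      have hxS := Finset.mem_of_mem_erase hx
      have hmono : ∀ z, ind (K.erase n) z ≤ ind (nbr E S n) z := by
        intro z
        unfold ind
        by_cases hz : z ∈ K.erase n
        · have hzN : z ∈ nbr E S n := Finset.mem_filter.mpr ⟨hsub z hz, hEK z hz⟩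
          rw [if_pos hz, if_pos hzN]
        · rw [if_neg hz]
          omega
      have h3 := ind_le (nbr E S n) x
      have h4 := ind_le (nbr E S n) y
      unfold cK
      exact NN_g _ _ (by have := hmono x; have := hmono y; omega) (by omega)
  · have hKe : K = ∅ := by
      apply Finset.eq_empty_of_forall_notMem
      intro x hx
      rcases Finset.mem_insert.mp (hK.1 hx) with h | h
      · exact hnK (h ▸ hx)
      · exact hnK (hK.2.1 x hx n (Finset.mem_insert_self _ _) (hX x h))
    subst hKe
    have hm3 : 3 ≤ S.card + 1 := by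
      rcases hm with h | h
      · exact h
      · exact absurd rfl h.2
    by_cases hk1 : aC E S n = 1
    · -- the pendant case
      have hne : S.Nonempty := ⟨r, hr⟩
      set v := S.max' hne with hv
      have hvS : v ∈ S := S.max'_mem hne
      have hle : ∀ x ∈ S, x ≤ v := fun x hx => S.le_max' x hx
      obtain ⟨a, ha⟩ := Finset.card_eq_one.mp hk1
      have hmemf : ∀ x, x ∈ S.filter (fun i => E i n) ↔ x = a := by
        intro x
        rw [ha, Finset.mem_singleton]
      have haS : a ∈ S ∧ E a n := Finset.mem_filter.mp ((hmemf a).mpr rfl)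
      have hav : a = v := by
        rcases (hle a haS.1).lt_or_eq with h | h
        · have := (hW a v n h (hX v hvS) haS.2).1
          exact ((hmemf v).mp (Finset.mem_filter.mpr ⟨hvS, this⟩)).symm
        · exact h
      have hEv : E v n := hav ▸ haS.2
      have hSins : S = insert v (S.erase v) := (Finset.insert_erase hvS).symm
      have hcard0 : (S.erase v).card + 1 = S.card := Finset.card_erase_add_one hvS
      have hrv : r ≠ v := by
        intro h
        have h2 : 1 < S.card := by omega
        obtain ⟨z, hz, hzv⟩ := Finset.exists_mem_ne h2 v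
        have h3 := hle z hz
        have h4 := hmin z hz
        rw [h] at h4
        exact hzv (le_antisymm h3 h4)
      have hr0 : r ∈ S.erase v := Finset.mem_erase.mpr ⟨hrv, hr⟩
      have hmin0 : ∀ x ∈ S.erase v, r ≤ x := fun x hx => hmin x (Finset.mem_of_mem_erase hx)
      have hX0 : ∀ x ∈ S.erase v, x < v := fun x hx =>
        lt_of_le_of_ne (hle x (Finset.mem_of_mem_erase hx)) (Finset.mem_erase.mp hx).1
      have hno : ∀ x ∈ S.erase v, ¬ E x n := by
        intro x hx hEx
        have := (hmemf x).mp (Finset.mem_filter.mpr ⟨Finset.mem_of_mem_erase hx, hEx⟩)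
        exact (Finset.mem_erase.mp hx).1 (this.trans hav)
      rw [hSins]
      refine NN_Qp_two_level hE hX0 (hX v hvS) hr0 hmin0 hEv hno fun h3 => ?_
      exact IH _ _ (by omega) hr0 hmin0 (suf_empty _) (Or.inl h3)
    · have hk2 : 2 ≤ aC E S n := by omega
      rw [Qp_insert_empty hE hX hr hmin hk2]
      refine NN_add ?_ (NN_mul (NN_mul (NN_add NN_one NN_X) (NN_X_pow _))
        (IH _ _ le_rfl hr hmin hNsuf (Or.inr ⟨by omega, hNne⟩)))
      by_cases hk3 : aC E S n = 2
      · rw [hk3]
        simp [qI_zero', NN_zero]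
      · exact NN_mul (NN_qI _) (IH _ _ le_rfl hr hmin (suf_empty _) (Or.inl (by omega)))

include hE hW in
/-- The family of polynomials has coefficients in `ℕ`. -/
theorem Qp_nn (r : V) : ∀ (m : ℕ) (T K : Finset V), T.card ≤ m → r ∈ T → (∀ x ∈ T, r ≤ x) →
    Suf E K T → (3 ≤ T.card ∨ (2 ≤ T.card ∧ K ≠ ∅)) → NonnegCoeffs (Qp E T r K) := by
  intro m
  induction m with
  | zero =>
    intro T K hT hr
    have : T.card = 0 := by omega
    rw [Finset.card_eq_zero] at this
    rw [this] at hr
    simp at hr
  | succ m ih =>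
    intro T K hT hr hmin hK hm
    have hc2 : 2 ≤ T.card := by
      rcases hm with h | h
      · omega
      · exact h.1
    have hne : T.Nonempty := ⟨r, hr⟩
    set n := T.max' hne with hn
    have hnT : n ∈ T := T.max'_mem hne
    have hle : ∀ x ∈ T, x ≤ n := fun x hx => T.le_max' x hx
    have hTins : T = insert n (T.erase n) := (Finset.insert_erase hnT).symm
    have hcard : (T.erase n).card + 1 = T.card := Finset.card_erase_add_one hnT
    have hX : ∀ x ∈ T.erase n, x < n := fun x hx =>
      lt_of_le_of_ne (hle x (Finset.mem_of_mem_erase hx)) (Finset.mem_erase.mp hx).1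
    have hrn : r ≠ n := by
      intro h
      have h2 : 1 < T.card := by omega
      obtain ⟨z, hz, hzv⟩ := Finset.exists_mem_ne h2 n
      have h3 := hle z hz
      have h4 := hmin z hz
      rw [h] at h4
      exact hzv (le_antisymm h3 h4)
    have hr0 : r ∈ T.erase n := Finset.mem_erase.mpr ⟨hrn, hr⟩
    have hmin0 : ∀ x ∈ T.erase n, r ≤ x := fun x hx => hmin x (Finset.mem_of_mem_erase hx)
    have hK' : Suf E K (insert n (T.erase n)) := by
      rw [← hTins]
      exact hK
    have hm' : 3 ≤ (T.erase n).card + 1 ∨ (2 ≤ (T.erase n).card + 1 ∧ K ≠ ∅) := by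
      rw [hcard]
      exact hm
    rw [hTins]
    exact Qp_step hE hW hX hr0 hmin0 hK' hm' fun T' K' hT' hr' hmin' hK'' hm'' =>
      ih T' K' (by omega) hr' hmin' hK'' hm''


/-! ### The pairs containing the minimal vertex -/

section root

/-- The weighted sum over pairs containing `r`. -/
noncomputable def Rf (E : V → V → Prop) [DecidableRel E] (S : Finset V) (r : V)
    (f : V → ℤ[X]) : ℤ[X] :=
  ∑ y ∈ S.erase r, f y * pS E S r y

/-- The indicator of the complement of `K`. -/
noncomputable def fKc (K : Finset V) (x : V) : ℤ[X] := if x ∈ K then 0 else 1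

/-- The value of the product of `[a_j]` on a complete graph. -/
noncomputable def qF : ℕ → ℤ[X]
  | 0 => 1
  | 1 => 1
  | (m + 2) => qI X (m + 1) * qF (m + 1)

lemma fK_add_fKc (K : Finset V) (x : V) : fK K x + fKc K x = 1 := by
  unfold fK fKc
  split_ifs <;> simp

lemma NN_fKc (K : Finset V) (x : V) : NonnegCoeffs (fKc K x) := by
  unfold fKc
  split_ifs
  · exact NN_zero
  · exact NN_one

lemma NN_Rf {S : Finset V} {r : V} {f : V → ℤ[X]} (h : ∀ y, NonnegCoeffs (f y)) :
    NonnegCoeffs (Rf E S r f) :=
  NN_sum _ _ fun _ _ => NN_mul (h _) (NN_pS _ _ _)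

lemma Rf_congr {S : Finset V} {r : V} {f f' : V → ℤ[X]}
    (h : ∀ y ∈ S.erase r, f y = f' y) : Rf E S r f = Rf E S r f' :=
  Finset.sum_congr rfl fun y hy => by rw [h y hy]

lemma Rf_add (S : Finset V) (r : V) (f f' : V → ℤ[X]) :
    Rf E S r (fun y => f y + f' y) = Rf E S r f + Rf E S r f' := by
  unfold Rf
  rw [← Finset.sum_add_distrib]
  refine Finset.sum_congr rfl fun x _ => ?_
  ring

lemma Rf_smul (S : Finset V) (r : V) (a : ℤ[X]) (f : V → ℤ[X]) :
    Rf E S r (fun y => a * f y) = a * Rf E S r f := by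
  unfold Rf
  rw [Finset.mul_sum]
  refine Finset.sum_congr rfl fun x _ => ?_
  ring

include hE in
lemma aC_root {S : Finset V} {r : V} (hmin : ∀ x ∈ S, r ≤ x) : aC E S r = 0 := by
  unfold aC
  rw [Finset.card_eq_zero, Finset.filter_eq_empty_iff]
  intro i hi hEi
  exact absurd (hE _ _ hEi) (not_lt.mpr (hmin i hi))

include hE in
lemma pS_insert_of_ne {S : Finset V} {n x y : V} (hX : ∀ x ∈ S, x < n) (hxS : x ∈ S) (hy : y ∈ S)
    (hyx : y ≠ x) (hne : (S.erase x).erase y ≠ ∅) :
    pS E (insert n S) x y = qI X (aC E S n - jE E n x y) * pS E S x y := by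
  unfold pS
  by_cases hxy : E x y
  · rw [if_pos hxy, if_pos hxy]
    have hxn : x ≠ n := (hX x hxS).ne
    have hyn : y ≠ n := (hX y hy).ne
    have h1 : aC E (insert n S) x = aC E S x := aC_insert_of_lt hE S n x (hX x hxS)
    have h2 : (insert n S).erase x = insert n (S.erase x) :=
      Finset.erase_insert_of_ne hxn.symm
    have h3 : aC E (insert n (S.erase x)) y = aC E (S.erase x) y :=
      aC_insert_of_lt hE _ n y (hX y hy)
    have h4 : (insert n (S.erase x)).erase y = insert n ((S.erase x).erase y) :=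
      Finset.erase_insert_of_ne hyn.symm
    have h5 := tauU_insert hE (X : ℤ[X]) ((S.erase x).erase y) n
      (fun z hz => hX z (Finset.mem_of_mem_erase (Finset.mem_of_mem_erase hz)))
    rw [if_neg hne] at h5
    have h6 := aC_erase2 (E := E) S x y n hxS hy hyx
    have h7 : aC E ((S.erase x).erase y) n = aC E S n - jE E n x y := by omega
    rw [h1, h2, h3, h4, h5, h7]
    ring
  · simp [hxy]

include hE in
lemma Rf_insert {S : Finset V} {n r : V} (hX : ∀ x ∈ S, x < n) (hr : r ∈ S) (hrn : ¬ E r n)
    (hc : 3 ≤ S.card) (f : V → ℤ[X]) :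
    Rf E (insert n S) r f = Rf E S r (fun y => f y * qI X (aC E S n - jE E n r y)) := by
  have hnS : n ∉ S := fun h => lt_irrefl _ (hX n h)
  have hrn' : r ≠ n := (hX r hr).ne
  have hnr : n ∉ S.erase r := fun h => hnS (Finset.mem_of_mem_erase h)
  unfold Rf
  rw [Finset.erase_insert_of_ne hrn'.symm, Finset.sum_insert hnr, pS_top hE hX hr, if_neg hrn,
    mul_zero, zero_add]
  refine Finset.sum_congr rfl fun y hy => ?_
  have hyS := Finset.mem_of_mem_erase hy
  have hne : (S.erase r).erase y ≠ ∅ := by
    intro h0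
    have h1 := Finset.card_erase_add_one hy
    have h2 := Finset.card_erase_add_one hr
    rw [h0] at h1
    simp at h1
    omega
  rw [pS_insert_of_ne hE hX hr hyS (Finset.mem_erase.mp hy).1 hne]
  ring

include hE in
lemma tau_clique : ∀ C : Finset V, (∀ x ∈ C, ∀ y ∈ C, x < y → E x y) →
    tauU E (X : ℤ[X]) C = qF C.card := by
  intro C
  induction C using Finset.induction_on_max with
  | empty => intro _; simp [tauU, qF]
  | insert n C hC ih =>
    intro hcl
    have hX : ∀ x ∈ C, x < n := hC
    have hnC : n ∉ C := fun h => lt_irrefl _ (hX n h)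
    rw [tauU_insert hE (X : ℤ[X]) C n hX, Finset.card_insert_of_notMem hnC,
      ih fun x hx y hy hxy => hcl x (Finset.mem_insert_of_mem hx) y (Finset.mem_insert_of_mem hy) hxy]
    by_cases h0 : C = ∅
    · subst h0
      simp [qF]
    · rw [if_neg h0]
      obtain ⟨m, hm⟩ : ∃ m, C.card = m + 1 := by
        have := Finset.card_pos.mpr (Finset.nonempty_iff_ne_empty.mpr h0)
        exact ⟨C.card - 1, by omega⟩
      have : aC E C n = C.card := by
        unfold aC
        rw [Finset.filter_true_of_mem]
        intro x hx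
        exact hcl x (Finset.mem_insert_of_mem hx) n (Finset.mem_insert_self _ _) (hX x hx)
      rw [this, hm]
      rfl

include hE in
lemma sum_clique : ∀ C : Finset V, (∀ x ∈ C, ∀ y ∈ C, x < y → E x y) →
    ∑ y ∈ C, (X : ℤ[X]) ^ aC E C y = qI X C.card := by
  intro C
  induction C using Finset.induction_on_max with
  | empty => intro _; simp [qI]
  | insert n C hC ih =>
    intro hcl
    have hX : ∀ x ∈ C, x < n := hC
    have hnC : n ∉ C := fun h => lt_irrefl _ (hX n h)
    have h1 : aC E (insert n C) n = C.card := by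
      unfold aC
      rw [Finset.filter_insert, if_neg (fun h => lt_irrefl _ (hE _ _ h)),
        Finset.filter_true_of_mem]
      intro x hx
      exact hcl x (Finset.mem_insert_of_mem hx) n (Finset.mem_insert_self _ _) (hX x hx)
    rw [Finset.sum_insert hnC, Finset.card_insert_of_notMem hnC, qI_succ', h1, add_comm,
      ← ih fun x hx y hy hxy => hcl x (Finset.mem_insert_of_mem hx) y (Finset.mem_insert_of_mem hy) hxy]
    congr 1
    refine Finset.sum_congr rfl fun y hy => ?_
    rw [aC_insert_of_lt hE C n y (hX y hy)]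

include hE in
lemma sum_clique_low (C K : Finset V) (hcl : ∀ x ∈ C, ∀ y ∈ C, x < y → E x y) (hK : K ⊆ C)
    (hup : ∀ i ∈ K, ∀ j ∈ C, i < j → j ∈ K) :
    ∑ y ∈ C, fKc K y * (X : ℤ[X]) ^ aC E C y = qI X (C.card - K.card) := by
  have hsd : (C \ K).card = C.card - K.card := Finset.card_sdiff_of_subset hK
  rw [← hsd, ← sum_clique hE (C \ K) fun x hx y hy hxy =>
    hcl x (Finset.mem_sdiff.mp hx).1 y (Finset.mem_sdiff.mp hy).1 hxy]
  have h1 : ∑ y ∈ C, fKc K y * (X : ℤ[X]) ^ aC E C y =
      ∑ y ∈ C.filter (fun y => y ∉ K), (X : ℤ[X]) ^ aC E C y := by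
    rw [Finset.sum_filter]
    refine Finset.sum_congr rfl fun y _ => ?_
    unfold fKc
    by_cases h : y ∈ K <;> simp [h]
  have h2 : C.filter (fun y => y ∉ K) = C \ K := by
    ext y
    simp [Finset.mem_sdiff]
  rw [h1, h2]
  refine Finset.sum_congr rfl fun y hy => ?_
  have hy' := Finset.mem_sdiff.mp hy
  congr 1
  unfold aC
  congr 1
  ext i
  simp only [Finset.mem_filter, Finset.mem_sdiff]
  constructor
  · rintro ⟨hi, hEi⟩
    refine ⟨⟨hi, fun hiK => hy'.2 (hup i hiK y hy'.1 (hE _ _ hEi))⟩, hEi⟩
  · rintro ⟨⟨hi, _⟩, hEi⟩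
    exact ⟨hi, hEi⟩

include hE in
lemma sum_clique_high (C K : Finset V) (hcl : ∀ x ∈ C, ∀ y ∈ C, x < y → E x y) (hK : K ⊆ C)
    (hup : ∀ i ∈ K, ∀ j ∈ C, i < j → j ∈ K) :
    ∑ y ∈ C, fK K y * (X : ℤ[X]) ^ aC E C y = X ^ (C.card - K.card) * qI X K.card := by
  have h1 := sum_clique_low hE C K hcl hK hup
  have h2 := sum_clique hE C hcl
  have h3 : ∑ y ∈ C, fK K y * (X : ℤ[X]) ^ aC E C y +
      ∑ y ∈ C, fKc K y * (X : ℤ[X]) ^ aC E C y = qI X C.card := by
    rw [← h2, ← Finset.sum_add_distrib]
    refine Finset.sum_congr rfl fun y _ => ?_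
    rw [← add_mul, fK_add_fKc, one_mul]
  have hle : K.card ≤ C.card := Finset.card_le_card hK
  have h4 := qI_sub_eq (C.card - K.card) C.card (by omega)
  have h5 : C.card - (C.card - K.card) = K.card := by omega
  rw [h5] at h4
  rw [← h4, ← h3, h1]
  ring

include hE in
/-- On a complete graph the terms of the sum are explicit. -/
lemma Rf_clique {S : Finset V} {r : V} (hr : r ∈ S) (hmin : ∀ x ∈ S, r ≤ x)
    (hcl : ∀ x ∈ S, ∀ y ∈ S, x < y → E x y) (f : V → ℤ[X]) :
    Rf E S r f = (∑ y ∈ S.erase r, f y * (X : ℤ[X]) ^ aC E (S.erase r) y) * qF (S.card - 2) := by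
  unfold Rf
  rw [Finset.sum_mul]
  refine Finset.sum_congr rfl fun y hy => ?_
  have hyS := Finset.mem_of_mem_erase hy
  have hry : r < y := lt_of_le_of_ne (hmin y hyS) (Finset.mem_erase.mp hy).1.symm
  unfold pS
  rw [if_pos (hcl r hr y hyS hry), aC_root hE hmin, zero_add,
    tau_clique hE _ fun a ha b hb hab =>
      hcl a (Finset.mem_of_mem_erase (Finset.mem_of_mem_erase ha)) b
        (Finset.mem_of_mem_erase (Finset.mem_of_mem_erase hb)) hab]
  have h1 := Finset.card_erase_add_one hy
  have h2 := Finset.card_erase_add_one hr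
  have h3 : ((S.erase r).erase y).card = S.card - 2 := by omega
  rw [h3]
  ring

include hW in
lemma clique_of_top {T : Finset V} {r n : V} (hr : r ∈ T) (hmin : ∀ x ∈ T, r ≤ x)
    (hle : ∀ x ∈ T, x ≤ n) (hEr : E r n) : ∀ x ∈ T, ∀ y ∈ T, x < y → E x y := by
  have h1 : ∀ x ∈ T, x < n → E x n := by
    intro x hx hxn
    rcases (hmin x hx).lt_or_eq with h | h
    · exact (hW r x n h hxn hEr).1
    · exact h ▸ hEr
  intro x hx y hy hxy
  rcases (hle y hy).lt_or_eq with h | h
  · exact (hW x y n hxy h (h1 x hx (hxy.trans h))).2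
  · rw [h]
    exact h1 x hx (h ▸ hxy)


/-- The comparison of the two parts of the sum over pairs containing `r`. -/
noncomputable def Cmp (E : V → V → Prop) [DecidableRel E] (S : Finset V) (r : V)
    (K : Finset V) : ℤ[X] :=
  X ^ (S.card - 1 - K.card) * qI X K.card * Rf E S r (fKc K) -
    qI X (S.card - 1 - K.card) * Rf E S r (fK K)

include hE in
lemma Cmp_clique {S K : Finset V} {r : V} (hr : r ∈ S) (hmin : ∀ x ∈ S, r ≤ x)
    (hcl : ∀ x ∈ S, ∀ y ∈ S, x < y → E x y) (hK : Suf E K S) (hrK : r ∉ K) :
    Cmp E S r K = 0 := by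
  have hcl' : ∀ x ∈ S.erase r, ∀ y ∈ S.erase r, x < y → E x y := fun x hx y hy hxy =>
    hcl x (Finset.mem_of_mem_erase hx) y (Finset.mem_of_mem_erase hy) hxy
  have hKs : K ⊆ S.erase r := fun x hx =>
    Finset.mem_erase.mpr ⟨fun h => hrK (h ▸ hx), hK.1 hx⟩
  have hup : ∀ i ∈ K, ∀ j ∈ S.erase r, i < j → j ∈ K := fun i hi j hj hij =>
    hK.2.1 i hi j (Finset.mem_of_mem_erase hj) hij
  unfold Cmp
  rw [Rf_clique hE hr hmin hcl, Rf_clique hE hr hmin hcl,
    sum_clique_low hE _ K hcl' hKs hup, sum_clique_high hE _ K hcl' hKs hup,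
    Finset.card_erase_of_mem hr]
  ring

include hE hW in
theorem Cmp_nn (S : Finset V) : ∀ (r : V), r ∈ S → (∀ x ∈ S, r ≤ x) → ∀ K, Suf E K S → r ∉ K →
    NonnegCoeffs (Cmp E S r K) := by
  induction S using Finset.induction_on_max with
  | empty => intro r hr; simp at hr
  | insert v S₀ hS₀ ih =>
    intro r hr hmin K hK hrK
    have hX₀ : ∀ x ∈ S₀, x < v := hS₀
    have hvS : v ∉ S₀ := fun h => lt_irrefl _ (hX₀ v h)
    by_cases hKe : K = ∅
    · subst hKe
      unfold Cmp
      have : Rf E (insert v S₀) r (fK ∅) = 0 := by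
        unfold Rf
        simp [fK_empty]
      rw [this]
      simp [qI_zero', NN_zero]
    have hvK : v ∈ K := by
      obtain ⟨i, hi⟩ := Finset.nonempty_iff_ne_empty.mpr hKe
      rcases Finset.mem_insert.mp (hK.1 hi) with h | h
      · exact h ▸ hi
      · exact hK.2.1 i hi v (Finset.mem_insert_self _ _) (hX₀ i h)
    have hrv : r ≠ v := fun h => hrK (h ▸ hvK)
    have hr0 : r ∈ S₀ := by
      rcases Finset.mem_insert.mp hr with h | h
      · exact absurd h hrv
      · exact h
    have hmin0 : ∀ x ∈ S₀, r ≤ x := fun x hx => hmin x (Finset.mem_insert_of_mem hx)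
    have hle : ∀ x ∈ insert v S₀, x ≤ v := by
      intro x hx
      rcases Finset.mem_insert.mp hx with h | h
      · exact h.le
      · exact (hX₀ x h).le
    by_cases hEr : E r v
    · rw [Cmp_clique hE hr hmin (clique_of_top hW hr hmin hle hEr) hK hrK]
      exact NN_zero
    have hcardS : (insert v S₀).card = S₀.card + 1 := Finset.card_insert_of_notMem hvS
    have hK2sub : ∀ x ∈ K.erase v, x ∈ S₀ := by
      intro x hx
      have h1 := Finset.mem_erase.mp hx
      rcases Finset.mem_insert.mp (hK.1 h1.2) with h | h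
      · exact absurd h h1.1
      · exact h
    have hEK : ∀ x ∈ K.erase v, E x v := fun x hx =>
      hK.2.2 x (Finset.mem_of_mem_erase hx) v hvK (hX₀ x (hK2sub x hx))
    have hSuf2 : Suf E (K.erase v) S₀ := by
      refine ⟨hK2sub, ?_, ?_⟩
      · intro i hi j hj hij
        refine Finset.mem_erase.mpr ⟨(hX₀ j hj).ne,
          hK.2.1 i (Finset.mem_of_mem_erase hi) j (Finset.mem_insert_of_mem hj) hij⟩
      · intro i hi j hj hij
        exact hK.2.2 i (Finset.mem_of_mem_erase hi) j (Finset.mem_of_mem_erase hj) hij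
    have hrK2 : r ∉ K.erase v := fun h => hrK (Finset.mem_of_mem_erase h)
    have hcardK : (K.erase v).card + 1 = K.card := Finset.card_erase_add_one hvK
    have hK2le : (K.erase v).card + 1 ≤ S₀.card := by
      have hs : K.erase v ⊆ S₀.erase r := fun x hx =>
        Finset.mem_erase.mpr ⟨fun h => hrK2 (h ▸ hx), hK2sub x hx⟩
      have h1 := Finset.card_le_card hs
      have h2 := Finset.card_erase_add_one hr0
      omega
    set l := S₀.card - 1 - (K.erase v).card with hl
    have hl' : (insert v S₀).card - 1 - K.card = l := by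
      rw [hcardS]
      omega
    have hNNlow : NonnegCoeffs (Rf E (insert v S₀) r (fKc K)) := NN_Rf (NN_fKc K)
    -- the easy cases
    by_cases hl0 : l = 0
    · unfold Cmp
      rw [hl', hl0, qI_zero', zero_mul, sub_zero]
      exact NN_mul (NN_mul (NN_X_pow _) (NN_qI _)) hNNlow
    have hpv : pS E (insert v S₀) r v = 0 := by
      rw [pS_top hE hX₀ hr0, if_neg hEr]
    by_cases hK2e : K.erase v = ∅
    · have : Rf E (insert v S₀) r (fK K) = 0 := by
        unfold Rf
        refine Finset.sum_eq_zero fun y hy => ?_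
        by_cases hyv : y = v
        · rw [hyv, hpv, mul_zero]
        · have : y ∉ K := fun h => by
            have : y ∈ K.erase v := Finset.mem_erase.mpr ⟨hyv, h⟩
            rw [hK2e] at this
            simp at this
          simp [fK, this]
      unfold Cmp
      rw [this, mul_zero, sub_zero]
      exact NN_mul (NN_mul (NN_X_pow _) (NN_qI _)) hNNlow
    -- the main case
    have hc3 : 3 ≤ S₀.card := by
      have : 0 < (K.erase v).card := Finset.card_pos.mpr (Finset.nonempty_iff_ne_empty.mpr hK2e)
      omega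
    have hnr : v ∉ S₀.erase r := fun h => hvS (Finset.mem_of_mem_erase h)
    have hfKv : ∀ g : V → ℤ[X], Rf E (insert v S₀) r g =
        Rf E S₀ r (fun y => g y * qI X (aC E S₀ v - jE E v r y)) :=
      fun g => Rf_insert hE hX₀ hr0 hEr hc3 g
    obtain ⟨d, hd⟩ : ∃ d, aC E S₀ v = d + 1 := by
      obtain ⟨z, hz⟩ := Finset.nonempty_iff_ne_empty.mpr hK2e
      have : 0 < aC E S₀ v := Finset.card_pos.mpr
        ⟨z, Finset.mem_filter.mpr ⟨hK2sub z hz, hEK z hz⟩⟩
      exact ⟨aC E S₀ v - 1, by omega⟩
    have hjr : ∀ y, jE E v r y = if E y v then 1 else 0 := by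
      intro y
      unfold jE
      rw [if_neg hEr, zero_add]
    have hC : Rf E (insert v S₀) r (fK K) = qI X d * Rf E S₀ r (fK (K.erase v)) := by
      rw [hfKv, ← Rf_smul]
      apply Rf_congr
      intro y hy
      have hyS := Finset.mem_of_mem_erase hy
      have hyv : y ≠ v := (hX₀ y hyS).ne
      by_cases hyK : y ∈ K
      · have hyK2 : y ∈ K.erase v := Finset.mem_erase.mpr ⟨hyv, hyK⟩
        have h1 : fK K y = 1 := by simp [fK, hyK]
        have h2 : fK (K.erase v) y = 1 := by
          unfold fK
          rw [if_pos hyK2]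
        rw [h1, h2, hjr, if_pos (hEK y hyK2), hd]
        simp
      · have hyK2 : y ∉ K.erase v := fun h => hyK (Finset.mem_of_mem_erase h)
        have h1 : fK K y = 0 := by simp [fK, hyK]
        have h2 : fK (K.erase v) y = 0 := by
          unfold fK
          rw [if_neg hyK2]
        rw [h1, h2]
        ring
    have hA : Rf E (insert v S₀) r (fKc K) = qI X d * Rf E S₀ r (fKc (K.erase v)) +
        X ^ d * Rf E S₀ r (fun y => fKc (K.erase v) y * (if E y v then 0 else 1)) := by
      rw [hfKv, ← Rf_smul, ← Rf_smul, ← Rf_add]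
      apply Rf_congr
      intro y hy
      have hyS := Finset.mem_of_mem_erase hy
      have hyv : y ≠ v := (hX₀ y hyS).ne
      have h1 : fKc K y = fKc (K.erase v) y := by
        unfold fKc
        simp [hyv]
      rw [h1, hjr, hd]
      by_cases hEy : E y v
      · rw [if_pos hEy, if_pos hEy]
        simp
        ring
      · rw [if_neg hEy, if_neg hEy]
        simp only [Nat.sub_zero]
        rw [qI_succ']
        ring
    have hih := ih r hr0 hmin0 (K.erase v) hSuf2 hrK2
    unfold Cmp at hih ⊢
    rw [hl', hC, hA, ← hcardK, qI_succ']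
    rw [← hl] at hih
    have : (X : ℤ[X]) ^ l * (qI X (K.erase v).card + X ^ (K.erase v).card) *
          (qI X d * Rf E S₀ r (fKc (K.erase v)) +
            X ^ d * Rf E S₀ r (fun y => fKc (K.erase v) y * (if E y v then 0 else 1))) -
        qI X l * (qI X d * Rf E S₀ r (fK (K.erase v))) =
        qI X d * (X ^ l * qI X (K.erase v).card * Rf E S₀ r (fKc (K.erase v)) -
          qI X l * Rf E S₀ r (fK (K.erase v))) +
        qI X d * (X ^ l * X ^ (K.erase v).card * Rf E S₀ r (fKc (K.erase v))) +
        X ^ l * (qI X (K.erase v).card + X ^ (K.erase v).card) *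
          (X ^ d * Rf E S₀ r (fun y => fKc (K.erase v) y * (if E y v then 0 else 1))) := by
      ring
    rw [this]
    refine NN_add (NN_add (NN_mul (NN_qI _) hih) (NN_mul (NN_qI _) (NN_mul (NN_mul (NN_X_pow _)
      (NN_X_pow _)) (NN_Rf (NN_fKc _))))) (NN_mul (NN_mul (NN_X_pow _)
        (NN_add (NN_qI _) (NN_X_pow _))) (NN_mul (NN_X_pow _) (NN_Rf fun y => ?_)))
    refine NN_mul (NN_fKc _ _) ?_
    split_ifs
    · exact NN_zero
    · exact NN_one

lemma qI_add (a b : ℕ) : qI (X : ℤ[X]) (a + b) = qI X a + X ^ a * qI X b := by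
  have h := qI_sub_eq a (a + b) (by omega)
  rw [Nat.add_sub_cancel_left] at h
  linear_combination h


/-- The sum over pairs containing `r`, compared with the unique-source polynomial. -/
noncomputable def Vp (E : V → V → Prop) [DecidableRel E] (S : Finset V) (r : V) : ℤ[X] :=
  qI X (S.card - 2) * Rf E S r (fun _ => 1) - tauU E X S

include hE in
lemma Vp_base {r y n : V} (hry : r < y) (hyn : y < n) (hrn : ¬ E r n) :
    NonnegCoeffs (Vp E (insert n ({r, y} : Finset V)) r) := by
  have hrn' : r < n := hry.trans hyn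
  have hX : ∀ x ∈ ({r, y} : Finset V), x < n := by
    intro x hx
    simp only [Finset.mem_insert, Finset.mem_singleton] at hx
    rcases hx with rfl | rfl
    · exact hrn'
    · exact hyn
  have hrm : r ∈ ({r, y} : Finset V) := by simp
  have hnS : n ∉ ({r, y} : Finset V) := fun h => lt_irrefl _ (hX n h)
  have hcard : (insert n ({r, y} : Finset V)).card = 3 := by
    rw [Finset.card_insert_of_notMem hnS, Finset.card_pair hry.ne]
  have he : (insert n ({r, y} : Finset V)).erase r = {n, y} := by
    ext x
    simp only [Finset.mem_erase, Finset.mem_insert, Finset.mem_singleton]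
    constructor
    · rintro ⟨h, h1 | h1 | h1⟩
      · exact Or.inl h1
      · exact absurd h1 h
      · exact Or.inr h1
    · rintro (h | h)
      · exact ⟨h ▸ hrn'.ne', Or.inl h⟩
      · exact ⟨h ▸ hry.ne', Or.inr (Or.inr h)⟩
  have hminT : ∀ x ∈ insert n ({r, y} : Finset V), r ≤ x := by
    intro x hx
    simp only [Finset.mem_insert, Finset.mem_singleton] at hx
    rcases hx with rfl | rfl | rfl
    · exact hrn'.le
    · exact le_rfl
    · exact hry.le
  have h1 : pS E (insert n ({r, y} : Finset V)) r n = 0 := by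
    rw [pS_top hE hX hrm, if_neg hrn]
  have h2 : pS E (insert n ({r, y} : Finset V)) r y = if E r y then 1 else 0 := by
    unfold pS
    split_ifs with hEry
    · rw [aC_root hE hminT, he]
      have h3 : aC E ({n, y} : Finset V) y = 0 := by
        unfold aC
        rw [Finset.card_eq_zero, Finset.filter_eq_empty_iff]
        intro i hi hEi
        simp only [Finset.mem_insert, Finset.mem_singleton] at hi
        rcases hi with rfl | rfl
        · exact absurd (hE _ _ hEi) (lt_asymm hyn)
        · exact lt_irrefl _ (hE _ _ hEi)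
      have h4 : ({n, y} : Finset V).erase y = {n} := by
        ext x
        simp only [Finset.mem_erase, Finset.mem_insert, Finset.mem_singleton]
        constructor
        · rintro ⟨h, h1 | h1⟩
          · exact h1
          · exact absurd h1 h
        · rintro rfl
          exact ⟨hyn.ne', Or.inl rfl⟩
      rw [h3, h4]
      simp [tauU]
    · rfl
  have h3 : Rf E (insert n ({r, y} : Finset V)) r (fun _ => 1) = if E r y then 1 else 0 := by
    unfold Rf
    rw [he, Finset.sum_pair hyn.ne', h1, h2]
    simp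
  have h4 : tauU E (X : ℤ[X]) ({r, y} : Finset V) = if E r y then 1 else 0 := by
    have h5 : ({r, y} : Finset V) = insert y {r} := by
      ext x
      simp [or_comm]
    rw [h5, tauU_insert hE (X : ℤ[X]) {r} y (by simpa using hry), if_neg (by simp)]
    have h6 : aC E ({r} : Finset V) y = if E r y then 1 else 0 := by
      unfold aC
      rw [Finset.filter_singleton]
      split_ifs <;> simp
    rw [h6]
    split_ifs <;> simp [tauU, qI_one', qI_zero']
  have h5 : aC E ({r, y} : Finset V) n = if E y n then 1 else 0 := by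
    unfold aC
    rw [Finset.filter_insert, if_neg hrn, Finset.filter_singleton]
    split_ifs <;> simp
  unfold Vp
  rw [hcard, h3, tau_top hE hX hrm, h4, h5]
  by_cases hEry : E r y <;> by_cases hEyn : E y n <;>
    simp [hEry, hEyn, qI_one', qI_zero', NN_zero, NN_one]

include hE hW in
theorem Vp_nn (S : Finset V) : ∀ r : V, r ∈ S → (∀ x ∈ S, r ≤ x) → 3 ≤ S.card →
    NonnegCoeffs (Vp E S r) := by
  induction S using Finset.induction_on_max with
  | empty => intro r hr; simp at hr
  | insert n S hS ih =>
    intro r hr hmin hc3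
    have hX : ∀ x ∈ S, x < n := hS
    have hnS : n ∉ S := fun h => lt_irrefl _ (hX n h)
    have hcardS : (insert n S).card = S.card + 1 := Finset.card_insert_of_notMem hnS
    have hc2 : 2 ≤ S.card := by omega
    have hrS : r ∈ S := by
      rcases Finset.mem_insert.mp hr with h | h
      · obtain ⟨z, hz⟩ : S.Nonempty := Finset.card_pos.mp (by omega)
        have h1 := hmin z (Finset.mem_insert_of_mem hz)
        have h2 := hX z hz
        rw [h] at h1
        exact absurd h2 (not_lt.mpr h1)
      · exact h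
    have hmin0 : ∀ x ∈ S, r ≤ x := fun x hx => hmin x (Finset.mem_insert_of_mem hx)
    have hle : ∀ x ∈ insert n S, x ≤ n := by
      intro x hx
      rcases Finset.mem_insert.mp hx with h | h
      · exact h.le
      · exact (hX x h).le
    by_cases hEr : E r n
    · have hcl := clique_of_top hW hr hmin hle hEr
      have hcl' : ∀ x ∈ (insert n S).erase r, ∀ y ∈ (insert n S).erase r, x < y → E x y :=
        fun x hx y hy hxy =>
          hcl x (Finset.mem_of_mem_erase hx) y (Finset.mem_of_mem_erase hy) hxy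
      have h1 : Vp E (insert n S) r = 0 := by
        unfold Vp
        rw [Rf_clique hE hr hmin hcl, tau_clique hE _ hcl]
        simp only [one_mul]
        rw [sum_clique hE _ hcl', Finset.card_erase_of_mem hr]
        obtain ⟨m, hm⟩ : ∃ m, (insert n S).card = m + 3 := ⟨(insert n S).card - 3, by omega⟩
        rw [hm]
        simp only [Nat.add_succ_sub_one, show m + 3 - 2 = m + 1 by omega, qF]
        ring
      rw [h1]
      exact NN_zero
    rcases Nat.lt_or_ge S.card 3 with h2 | h3
    · -- three vertices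
      have hcS : S.card = 2 := by omega
      have h1 : (S.erase r).card = 1 := by
        have := Finset.card_erase_add_one hrS
        omega
      obtain ⟨y, hy⟩ := Finset.card_eq_one.mp h1
      have hyS : y ∈ S.erase r := by
        rw [hy]
        exact Finset.mem_singleton_self y
      have hS2 : S = {r, y} := by
        rw [← Finset.insert_erase hrS, hy]
      have hry : r < y := lt_of_le_of_ne (hmin0 y (Finset.mem_of_mem_erase hyS))
        (Finset.mem_erase.mp hyS).1.symm
      rw [hS2]
      exact Vp_base hE hry (hX y (Finset.mem_of_mem_erase hyS)) hEr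
    · have hih := ih r hrS hmin0 h3
      by_cases hk0 : aC E S n = 0
      · have h1 : Vp E (insert n S) r = 0 := by
          unfold Vp
          rw [Rf_insert hE hX hrS hEr h3, tau_top hE hX hrS, hk0]
          have : Rf E S r (fun y => 1 * qI X (0 - jE E n r y)) = 0 := by
            unfold Rf
            refine Finset.sum_eq_zero fun y _ => ?_
            simp [qI_zero']
          rw [this, qI_zero']
          ring
        rw [h1]
        exact NN_zero
      obtain ⟨k, hk⟩ : ∃ k, aC E S n = k + 1 := ⟨aC E S n - 1, by omega⟩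
      have hrK : r ∉ nbr E S n := fun h => hEr (Finset.mem_filter.mp h).2
      have hNsub : nbr E S n ⊆ S.erase r := fun x hx =>
        Finset.mem_erase.mpr ⟨fun h => hrK (h ▸ hx), (Finset.mem_filter.mp hx).1⟩
      have hNcard : (nbr E S n).card = k + 1 := by rw [card_nbr, hk]
      have hcN : k + 1 + 1 ≤ S.card := by
        have h1 := Finset.card_le_card hNsub
        have h2 := Finset.card_erase_add_one hrS
        omega
      obtain ⟨l, hl⟩ : ∃ l, S.card = l + k + 2 := ⟨S.card - k - 2, by omega⟩
      have hcmp := Cmp_nn hE hW S r hrS hmin0 (nbr E S n) (suf_nbr hW S n hX) hrK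
      have hl2 : S.card - 1 - (nbr E S n).card = l := by
        rw [hNcard]
        omega
      have hR1 : Rf E (insert n S) r (fun _ => 1) = qI X k * Rf E S r (fK (nbr E S n)) +
          qI X (k + 1) * Rf E S r (fKc (nbr E S n)) := by
        rw [Rf_insert hE hX hrS hEr h3, ← Rf_smul, ← Rf_smul, ← Rf_add]
        apply Rf_congr
        intro y hy
        have hyS := Finset.mem_of_mem_erase hy
        have hj : jE E n r y = if E y n then 1 else 0 := by
          unfold jE
          rw [if_neg hEr, zero_add]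
        rw [hj, hk]
        by_cases hEy : E y n
        · have h1 : y ∈ nbr E S n := Finset.mem_filter.mpr ⟨hyS, hEy⟩
          simp [hEy, fK, fKc, h1]
        · have h1 : y ∉ nbr E S n := fun h => hEy (Finset.mem_filter.mp h).2
          simp [hEy, fK, fKc, h1]
      have hR2 : Rf E S r (fun _ => 1) = Rf E S r (fK (nbr E S n)) +
          Rf E S r (fKc (nbr E S n)) := by
        rw [← Rf_add]
        apply Rf_congr
        intro y _
        rw [fK_add_fKc]
      have hs : qI (X : ℤ[X]) (k + l) = qI X l + X ^ l * qI X k := by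
        rw [add_comm]
        exact qI_add l k
      have hid : Vp E (insert n S) r =
          qI X (k + 1) * Vp E S r + X ^ k * Cmp E S r (nbr E S n) := by
        unfold Vp Cmp
        rw [hl2, hNcard, hR1, hR2, tau_top hE hX hrS, hk, hcardS, hl,
          show l + k + 2 + 1 - 2 = k + l + 1 by omega, show l + k + 2 - 2 = k + l by omega,
          qI_succ' X (k + l), qI_succ' X k, pow_add]
        linear_combination (- X ^ k * Rf E S r (fK (nbr E S n))) * hs
      rw [hid]
      exact NN_add (NN_mul (NN_qI _) hih) (NN_mul (NN_X_pow _) hcmp)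


end root

/-! ### The coefficient of `e_{n-2} e_2` -/

section assembly

variable {n : ℕ}

include hE in
lemma tau_pair {x y : V} (hxy : x < y) :
    tauU E (X : ℤ[X]) ({x, y} : Finset V) = if E x y then 1 else 0 := by
  have h5 : ({x, y} : Finset V) = insert y {x} := by
    ext z
    simp [or_comm]
  rw [h5, tauU_insert hE (X : ℤ[X]) {x} y (by simpa using hxy), if_neg (by simp)]
  have h6 : aC E ({x} : Finset V) y = if E x y then 1 else 0 := by
    unfold aC
    rw [Finset.filter_singleton]
    split_ifs <;> simp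
  rw [h6]
  split_ifs <;> simp [tauU, qI_one', qI_zero']

/-- The sum over subsets of size `n - 2` is a sum over pairs. -/
lemma sum_powersetCard_two (hn : 2 ≤ n) (g : Finset (Fin n) → ℤ[X]) :
    ∑ U ∈ Finset.powersetCard (n - 2) (Finset.univ : Finset (Fin n)), g U =
      ∑ p ∈ ((Finset.univ : Finset (Fin n × Fin n)).filter fun p => p.1 < p.2),
        g ((Finset.univ.erase p.1).erase p.2) := by
  symm
  refine Finset.sum_bij (fun p _ => (Finset.univ.erase p.1).erase p.2) ?_ ?_ ?_ ?_
  · intro p hp
    have hlt := (Finset.mem_filter.mp hp).2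
    rw [Finset.mem_powersetCard]
    refine ⟨Finset.subset_univ _, ?_⟩
    rw [Finset.card_erase_of_mem (Finset.mem_erase.mpr ⟨hlt.ne', Finset.mem_univ _⟩),
      Finset.card_erase_of_mem (Finset.mem_univ _), Finset.card_univ, Fintype.card_fin]
    omega
  · intro p hp q hq hpq
    have hlt := (Finset.mem_filter.mp hp).2
    have hlt' := (Finset.mem_filter.mp hq).2
    have key : ∀ z, (z = p.1 ∨ z = p.2) ↔ (z = q.1 ∨ z = q.2) := by
      intro z
      have hpq' : (Finset.univ.erase p.1).erase p.2 = (Finset.univ.erase q.1).erase q.2 := hpq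
      have h1 : z ∈ (Finset.univ.erase p.1).erase p.2 ↔ z ∈ (Finset.univ.erase q.1).erase q.2 := by
        rw [hpq']
      simp only [Finset.mem_erase, Finset.mem_univ, and_true] at h1
      tauto
    have h1 := (key p.1).mp (Or.inl rfl)
    have h2 := (key p.2).mp (Or.inr rfl)
    have h3 := (key q.1).mpr (Or.inl rfl)
    have h4 := (key q.2).mpr (Or.inr rfl)
    have e1 : p.1 = q.1 := by
      rcases h1 with h | h
      · exact h
      · rcases h3 with h' | h'
        · exact h'.symm
        · exfalso
          rw [h'] at hlt'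
          rw [h] at hlt
          exact lt_asymm hlt hlt'
    have e2 : p.2 = q.2 := by
      rcases h2 with h | h
      · exfalso
        rw [← e1] at h
        exact hlt.ne' h
      · exact h
    exact Prod.ext e1 e2
  · intro U hU
    have hc := (Finset.mem_powersetCard.mp hU).2
    have hc2 : (Finset.univ \ U).card = 2 := by
      rw [Finset.card_sdiff_of_subset (Finset.subset_univ _), Finset.card_univ, Fintype.card_fin, hc]
      omega
    obtain ⟨a, b, hab, hU2⟩ := Finset.card_eq_two.mp hc2
    have hmem : ∀ z, z ∉ U ↔ (z = a ∨ z = b) := by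
      intro z
      have : z ∈ (Finset.univ \ U) ↔ z ∈ ({a, b} : Finset (Fin n)) := by rw [hU2]
      simpa using this
    rcases lt_or_gt_of_ne hab with hlt | hlt
    · refine ⟨(a, b), Finset.mem_filter.mpr ⟨Finset.mem_univ _, hlt⟩, ?_⟩
      ext z
      simp only [Finset.mem_erase, Finset.mem_univ, and_true]
      have := hmem z
      tauto
    · refine ⟨(b, a), Finset.mem_filter.mpr ⟨Finset.mem_univ _, hlt⟩, ?_⟩
      ext z
      simp only [Finset.mem_erase, Finset.mem_univ, and_true]
      have := hmem z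
      tauto
  · intro p _
    rfl

/-- The term of a pair in the formula for the coefficient. -/
lemma term_pair (h : Fin n → Fin n) (hn : 2 ≤ n) {x y : Fin n} (hxy : x < y) :
    rZ h ((Finset.univ.erase x).erase y) *
        X ^ eCount (IsEdge h) ((Finset.univ.erase x).erase y)
          (Finset.univ \ ((Finset.univ.erase x).erase y)) *
        rZ h (Finset.univ \ ((Finset.univ.erase x).erase y)) =
      qI X (n - 2) * (1 + X) * pS (IsEdge h) Finset.univ x y := by
  have hEt : ∀ a b, IsEdge h a b → a < b := isEdge_lt h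
  set U := (Finset.univ.erase x).erase y with hU
  have hc : U.card = n - 2 := by
    rw [hU, Finset.card_erase_of_mem (Finset.mem_erase.mpr ⟨hxy.ne', Finset.mem_univ _⟩),
      Finset.card_erase_of_mem (Finset.mem_univ _), Finset.card_univ, Fintype.card_fin]
    omega
  have hcomp : Finset.univ \ U = {x, y} := by
    ext z
    simp only [hU, Finset.mem_sdiff, Finset.mem_erase, Finset.mem_univ, and_true, true_and,
      Finset.mem_insert, Finset.mem_singleton]
    tauto
  have hxU : x ∉ U := by simp [hU]
  have hyU : y ∉ U := by simp [hU]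
  have he : eCount (IsEdge h) U {x, y} =
      aC (IsEdge h) Finset.univ x + aC (IsEdge h) (Finset.univ.erase x) y := by
    have hd : Disjoint ({x} : Finset (Fin n)) {y} := by
      simpa using hxy.ne
    rw [show ({x, y} : Finset (Fin n)) = {x} ∪ {y} from rfl, eCount_union_right _ _ _ _ hd,
      eCount_singleton_right, eCount_singleton_right]
    have h1 : (U.filter fun i => IsEdge h i x).card = aC (IsEdge h) Finset.univ x := by
      have h2 : aC (IsEdge h) U x = aC (IsEdge h) (Finset.univ.erase x) x :=
        aC_erase_of_not (fun hh => lt_asymm (hEt _ _ hh) hxy)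
      have h3 : aC (IsEdge h) (Finset.univ.erase x) x = aC (IsEdge h) Finset.univ x :=
        aC_erase_of_not (fun hh => lt_irrefl _ (hEt _ _ hh))
      exact h2.trans h3
    have h2 : (U.filter fun i => IsEdge h i y).card = aC (IsEdge h) (Finset.univ.erase x) y :=
      aC_erase_of_not (fun hh => lt_irrefl _ (hEt _ _ hh))
    rw [h1, h2]
  rw [hcomp, he]
  unfold rZ rU pS
  rw [hc, Finset.card_pair hxy.ne, tau_pair hEt hxy, qI_two']
  split_ifs
  · ring
  · ring


/-- The coefficient of `e_{n-2} e_2` lies in `ℕ[q]`, for every natural unit interval graph. -/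
theorem coeff_pred_two_nonneg {h : Fin n → Fin n} (hm : Monotone h)
    {c : n.Partition → Polynomial ℤ} (hc : IsEExpansion h c) (hn : 3 ≤ n)
    (l : n.Partition) (hl : l.parts = {n - 2, 2}) : NonnegCoeffs (c l) := by
  have hform := coeff_two_part_int hm hc (n - 2) 2 (by omega) (by omega) (by omega) l hl
  apply NN_of_ite_mul (a := n - 2) (b := 2)
  have hEt : ∀ a b, IsEdge h a b → a < b := isEdge_lt h
  have hWt := isEdge_window hm
  let r : Fin n := ⟨0, by omega⟩
  have hmin : ∀ x ∈ (Finset.univ : Finset (Fin n)), r ≤ x :=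
    fun x _ => Fin.le_def.mpr (Nat.zero_le _)
  have hr : r ∈ (Finset.univ : Finset (Fin n)) := Finset.mem_univ _
  have hcard : (Finset.univ : Finset (Fin n)).card = n := by
    rw [Finset.card_univ, Fintype.card_fin]
  have hsum : ∑ U ∈ Finset.powersetCard (n - 2) (Finset.univ : Finset (Fin n)),
        rZ h U * X ^ eCount (IsEdge h) U (Finset.univ \ U) * rZ h (Finset.univ \ U) =
      qI X (n - 2) * (1 + X) * (sumD (IsEdge h) Finset.univ r (fun _ _ => 1) +
        Rf (IsEdge h) Finset.univ r (fun _ => 1)) := by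
    rw [sum_powersetCard_two (by omega)]
    have h1 : ∀ p ∈ ((Finset.univ : Finset (Fin n × Fin n)).filter fun p => p.1 < p.2),
        rZ h ((Finset.univ.erase p.1).erase p.2) *
          X ^ eCount (IsEdge h) ((Finset.univ.erase p.1).erase p.2)
            (Finset.univ \ ((Finset.univ.erase p.1).erase p.2)) *
          rZ h (Finset.univ \ ((Finset.univ.erase p.1).erase p.2)) =
        qI X (n - 2) * (1 + X) * pS (IsEdge h) Finset.univ p.1 p.2 :=
      fun p hp => term_pair h (by omega) (Finset.mem_filter.mp hp).2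
    rw [Finset.sum_congr rfl h1, ← Finset.mul_sum]
    congr 1
    rw [Finset.sum_filter, ← Finset.univ_product_univ, Finset.sum_product]
    have h2 : ∀ x y : Fin n, (if x < y then pS (IsEdge h) Finset.univ x y else 0) =
        pS (IsEdge h) Finset.univ x y := by
      intro x y
      split_ifs with hxy
      · rfl
      · unfold pS
        rw [if_neg fun hh => hxy (hEt _ _ hh)]
    simp only [h2]
    rw [Finset.sum_comm]
    unfold sumD Rf
    simp only [one_mul]
    have h3 : ∀ y : Fin n, ∑ x, pS (IsEdge h) Finset.univ x y =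
        pS (IsEdge h) Finset.univ r y + ∑ x ∈ Finset.univ.erase r, pS (IsEdge h) Finset.univ x y :=
      fun y => (Finset.add_sum_erase _ _ hr).symm
    simp only [h3]
    rw [Finset.sum_add_distrib, add_comm]
    congr 1
    rw [← Finset.add_sum_erase _ _ hr]
    have h4 : pS (IsEdge h) Finset.univ r r = 0 := by
      unfold pS
      rw [if_neg fun hh => lt_irrefl _ (hEt _ _ hh)]
    rw [h4, zero_add]
  have hrZ : rZ h Finset.univ = qI X n * tauU (IsEdge h) X Finset.univ := by
    unfold rZ rU
    rw [hcard]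
  have hQ : Qp (IsEdge h) Finset.univ r ∅ =
      (1 + X) * sumD (IsEdge h) Finset.univ r (fun _ _ => 1) -
        X ^ 2 * tauU (IsEdge h) X Finset.univ := by
    have h1 : sumD (IsEdge h) Finset.univ r (cK ∅) =
        sumD (IsEdge h) Finset.univ r (fun _ _ => (1 + X) * 1) := by
      apply sumD_congr
      intro y _ x _ _
      rw [cK_empty, mul_one]
    have h2 : sumW (IsEdge h) Finset.univ r (fK ∅) = 0 := by
      unfold sumW
      simp [fK_empty]
    unfold Qp
    rw [h1, sumD_smul (E := IsEdge h) Finset.univ r (1 + X) (fun _ _ => 1), h2]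
    ring
  have hV : Vp (IsEdge h) Finset.univ r =
      qI X (n - 2) * Rf (IsEdge h) Finset.univ r (fun _ => 1) -
        tauU (IsEdge h) X Finset.univ := by
    unfold Vp
    rw [hcard]
  have hqn : qI (X : ℤ[X]) n = (1 + X) + X ^ 2 * qI X (n - 2) := by
    have := qI_add 2 (n - 2)
    rw [show 2 + (n - 2) = n by omega, qI_two'] at this
    exact this
  have hrw : (if n - 2 = 2 then (2 : Polynomial ℤ) else 1) * c l =
      (1 + X) * Vp (IsEdge h) Finset.univ r + qI X (n - 2) * Qp (IsEdge h) Finset.univ r ∅ := by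
    rw [hV, hQ]
    rw [hsum, hrZ] at hform
    linear_combination (-1 : Polynomial ℤ) * hform - tauU (IsEdge h) X Finset.univ * hqn
  rw [hrw]
  exact NN_add (NN_mul (NN_add NN_one NN_X) (Vp_nn hEt hWt Finset.univ r hr hmin (by omega)))
    (NN_mul (NN_qI _) (Qp_nn hEt hWt r _ Finset.univ ∅ le_rfl hr hmin (suf_empty _)
      (Or.inl (by omega))))

end assembly

end Vale.Agent.Lib.P066.Pair
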