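import Vale.Agent.Lib.P066.Transfer

/-!
Positivity for the coefficient of `e_{n-1} e_1`.
-/

open Finset Polynomial

namespace Vale.Agent.Lib.P066

set_option linter.unusedSectionVars false
set_option linter.unusedSimpArgs false
set_option linter.unusedVariables false

section nn

lemma NN_zero : NonnegCoeffs 0 := fun k => by simp

lemma NN_one : NonnegCoeffs 1 := fun k => by
  rw [Polynomial.coeff_one]
  split_ifs <;> simp

lemma NN_add {p r : Polynomial ℤ} (hp : NonnegCoeffs p) (hr : NonnegCoeffs r) :
    NonnegCoeffs (p + r) := fun k => by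
  rw [Polynomial.coeff_add]
  exact add_nonneg (hp k) (hr k)

lemma NN_mul {p r : Polynomial ℤ} (hp : NonnegCoeffs p) (hr : NonnegCoeffs r) :
    NonnegCoeffs (p * r) := fun k => by
  rw [Polynomial.coeff_mul]
  exact Finset.sum_nonneg fun x _ => mul_nonneg (hp _) (hr _)

lemma NN_sum {ι : Type*} (s : Finset ι) (f : ι → Polynomial ℤ) (h : ∀ i ∈ s, NonnegCoeffs (f i)) :
    NonnegCoeffs (∑ i ∈ s, f i) := fun k => by
  rw [Polynomial.finset_sum_coeff]
  exact Finset.sum_nonneg fun i hi => h i hi k

lemma NN_X_pow (m : ℕ) : NonnegCoeffs ((X : Polynomial ℤ) ^ m) := fun k => by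
  rw [Polynomial.coeff_X_pow]
  split_ifs <;> simp

lemma NN_X : NonnegCoeffs (X : Polynomial ℤ) := by
  simpa using NN_X_pow 1

lemma NN_qI (m : ℕ) : NonnegCoeffs (qI (X : Polynomial ℤ) m) :=
  NN_sum _ _ fun i _ => NN_X_pow i

lemma NN_prod {ι : Type*} (s : Finset ι) (f : ι → Polynomial ℤ) (h : ∀ i ∈ s, NonnegCoeffs (f i)) :
    NonnegCoeffs (∏ i ∈ s, f i) := by
  classical
  induction s using Finset.induction_on with
  | empty => simpa using NN_one
  | insert a s ha ih =>
    rw [Finset.prod_insert ha]
    exact NN_mul (h a (Finset.mem_insert_self _ _))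
      (ih fun i hi => h i (Finset.mem_insert_of_mem hi))

lemma qI_sub_eq (d k : ℕ) (hd : d ≤ k) :
    qI (X : Polynomial ℤ) k - qI X d = X ^ d * qI X (k - d) := by
  obtain ⟨m, rfl⟩ : ∃ m, k = d + m := ⟨k - d, by omega⟩
  rw [Nat.add_sub_cancel_left]
  clear hd
  induction m with
  | zero => simp
  | succ m ih =>
    rw [← add_assoc, qI_succ', add_sub_right_comm, ih, qI_succ', pow_add]
    ring

end nn

variable {V : Type*} [LinearOrder V] {E : V → V → Prop} [DecidableRel E]

lemma NN_tauU (U : Finset V) : NonnegCoeffs (tauU E (X : Polynomial ℤ) U) := by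
  unfold tauU
  refine NN_prod _ _ fun j _ => ?_
  split_ifs
  · exact NN_qI _
  · exact NN_one

/-- Every non-minimal vertex of `U` has a lower neighbour in `U`. -/
def Conn (E : V → V → Prop) [DecidableRel E] (U : Finset V) : Prop :=
  ∀ j ∈ U, (∃ i ∈ U, i < j) → 0 < aC E U j

/-- The weighted sum over vertices of `K` that are not minimal in `X`. -/
noncomputable def sumK (E : V → V → Prop) [DecidableRel E] (X K : Finset V) : Polynomial ℤ :=
  ∑ v ∈ K, if ∃ i ∈ X, i < v then (Polynomial.X : Polynomial ℤ) ^ aC E X v *
    tauU E (Polynomial.X : Polynomial ℤ) (X.erase v) else 0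

lemma NN_sumK (X K : Finset V) : NonnegCoeffs (sumK E X K) := by
  unfold sumK
  refine NN_sum _ _ fun v _ => ?_
  split_ifs
  · exact NN_mul (NN_X_pow _) (NN_tauU _)
  · exact NN_zero

variable (hE : ∀ a b, E a b → a < b)
  (hW : ∀ i i' j, i < i' → i' < j → E i j → E i' j ∧ E i i')

include hE in
lemma conn_of_insert {X : Finset V} {n : V} (hX : ∀ x ∈ X, x < n) (h : Conn E (insert n X)) :
    Conn E X := by
  intro j hj hex
  obtain ⟨i, hi, hij⟩ := hex
  have := h j (Finset.mem_insert_of_mem hj) ⟨i, Finset.mem_insert_of_mem hi, hij⟩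
  rwa [aC_insert_of_lt hE X n j (hX j hj)] at this

lemma aC_erase_of_mem {X : Finset V} {n v : V} (hv : v ∈ X) (hvn : E v n) :
    aC E (X.erase v) n + 1 = aC E X n := by
  unfold aC
  rw [Finset.filter_erase, Finset.card_erase_of_mem (Finset.mem_filter.mpr ⟨hv, hvn⟩)]
  have : 0 < (X.filter fun i => E i n).card :=
    Finset.card_pos.mpr ⟨v, Finset.mem_filter.mpr ⟨hv, hvn⟩⟩
  omega

lemma aC_erase_of_not {X : Finset V} {n v : V} (hvn : ¬ E v n) :
    aC E (X.erase v) n = aC E X n := by
  unfold aC
  rw [Finset.filter_erase, Finset.erase_eq_of_notMem]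
  intro h
  exact hvn (Finset.mem_filter.mp h).2

include hE in
/-- erasing a non-minimal vertex `v` below the top vertex `n` -/
lemma tau_insert_erase {X : Finset V} {n v : V} (hX : ∀ x ∈ X, x < n) (hv : v ∈ X)
    (hex : ∃ i ∈ X, i < v) :
    tauU E (Polynomial.X : Polynomial ℤ) ((insert n X).erase v) =
      qI Polynomial.X (aC E (X.erase v) n) * tauU E Polynomial.X (X.erase v) := by
  obtain ⟨i, hi, hiv⟩ := hex
  have hne : v ≠ n := (hX v hv).ne
  rw [Finset.erase_insert_of_ne hne.symm,
    tauU_insert hE _ (X.erase v) n (fun x hx => hX x (Finset.mem_of_mem_erase hx))]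
  rw [if_neg]
  intro h0
  have : i ∈ X.erase v := Finset.mem_erase.mpr ⟨hiv.ne, hi⟩
  rw [h0] at this
  simp at this

lemma X_mul_qI_sub (a : ℕ) :
    (Polynomial.X : Polynomial ℤ) * qI Polynomial.X (a + 1) - Polynomial.X ^ (a + 1) =
      Polynomial.X * qI Polynomial.X a := by
  rw [qI_succ', pow_succ]
  ring

include hE in
/-- recursion for `sumK` when the top vertex of `X` is the top vertex of `K` -/
lemma sumK_insert {X K₁ : Finset V} {m : V} (hX : ∀ x ∈ X, x < m) (hne : X ≠ ∅)
    (hK₁ : K₁ ⊆ X) (hK₁n : ∀ v ∈ K₁, E v m) (a : ℕ) (ha : aC E X m = a + 1) :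
    sumK E (insert m X) (insert m K₁) =
      Polynomial.X ^ (a + 1) * tauU E Polynomial.X X + qI Polynomial.X a * sumK E X K₁ := by
  have hmX : m ∉ X := fun h => lt_irrefl _ (hX m h)
  have hmK : m ∉ K₁ := fun h => hmX (hK₁ h)
  unfold sumK
  rw [Finset.sum_insert hmK, Finset.mul_sum]
  congr 1
  · obtain ⟨x, hx⟩ := Finset.nonempty_iff_ne_empty.mpr hne
    rw [if_pos ⟨x, Finset.mem_insert_of_mem hx, hX x hx⟩, Finset.erase_insert hmX]
    have : aC E (insert m X) m = a + 1 := by
      rw [← ha]
      unfold aC
      rw [Finset.filter_insert, if_neg]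
      intro h
      exact lt_irrefl _ (hE _ _ h)
    rw [this]
  · refine Finset.sum_congr rfl fun v hv => ?_
    have hvX := hK₁ hv
    have hvm := hX v hvX
    have hiff : (∃ i ∈ insert m X, i < v) ↔ ∃ i ∈ X, i < v := by
      constructor
      · rintro ⟨i, hi, hiv⟩
        rcases Finset.mem_insert.mp hi with h | h
        · rw [h] at hiv
          exact absurd hiv (lt_asymm hvm)
        · exact ⟨i, h, hiv⟩
      · rintro ⟨i, hi, hiv⟩
        exact ⟨i, Finset.mem_insert_of_mem hi, hiv⟩
    by_cases hex : ∃ i ∈ X, i < v
    · rw [if_pos (hiff.mpr hex), if_pos hex, aC_insert_of_lt hE X m v hvm,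
        tau_insert_erase hE hX hvX hex]
      have h1 := aC_erase_of_mem (E := E) hvX (hK₁n v hv)
      have h2 : aC E (X.erase v) m = a := by omega
      rw [h2]
      ring
    · rw [if_neg (fun h => hex (hiff.mp h)), if_neg hex, mul_zero]

include hE hW in
/-- The telescoping inequality. -/
lemma tele (X : Finset V) : ∀ K : Finset V, Conn E X → Suf E K X → X ≠ ∅ →
    NonnegCoeffs (Polynomial.X * tauU E Polynomial.X X - sumK E X K) := by
  induction X using Finset.induction_on_max with
  | empty => intro K _ _ h; exact absurd rfl h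
  | insert m X hX ih =>
    intro K hc hK _
    have hX' : ∀ x ∈ X, x < m := hX
    have hmX : m ∉ X := fun h => lt_irrefl _ (hX' m h)
    by_cases hKe : K = ∅
    · subst hKe
      simp only [sumK, Finset.sum_empty, sub_zero]
      exact NN_mul NN_X (NN_tauU _)
    · have hmK : m ∈ K := by
        obtain ⟨i, hi⟩ := Finset.nonempty_iff_ne_empty.mpr hKe
        rcases Finset.mem_insert.mp (hK.1 hi) with h | h
        · rw [← h]
          exact hi
        · exact hK.2.1 i hi m (Finset.mem_insert_self _ _) (hX' i h)
      set K₁ := K.erase m with hK₁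
      have hK₁eq : K = insert m K₁ := (Finset.insert_erase hmK).symm
      have hsub : K₁ ⊆ X := by
        intro i hi
        have h1 := Finset.mem_erase.mp hi
        rcases Finset.mem_insert.mp (hK.1 h1.2) with h | h
        · exact absurd h h1.1
        · exact h
      have hsubn : ∀ v ∈ K₁, E v m := fun v hv =>
        hK.2.2 v (Finset.mem_erase.mp hv).2 m hmK (hX' v (hsub hv))
      by_cases hXe : X = ∅
      · subst hXe
        have h0 : K₁ = ∅ := Finset.subset_empty.mp hsub
        rw [hK₁eq, h0]
        simp [sumK, tauU]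
        exact NN_X
      · obtain ⟨x, hx⟩ := Finset.nonempty_iff_ne_empty.mpr hXe
        have hpos := hc m (Finset.mem_insert_self _ _) ⟨x, Finset.mem_insert_of_mem hx, hX' x hx⟩
        have hac : aC E (insert m X) m = aC E X m := by
          unfold aC
          rw [Finset.filter_insert, if_neg]
          intro h
          exact lt_irrefl _ (hE _ _ h)
        rw [hac] at hpos
        obtain ⟨a, ha⟩ : ∃ a, aC E X m = a + 1 := ⟨aC E X m - 1, by omega⟩
        have hsuf : Suf E K₁ X := by
          refine ⟨hsub, ?_, ?_⟩
          · intro i hi j hj hij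
            have h1 := Finset.mem_erase.mp hi
            refine Finset.mem_erase.mpr ⟨?_, hK.2.1 i h1.2 j (Finset.mem_insert_of_mem hj) hij⟩
            rintro rfl
            exact hmX hj
          · intro i hi j hj hij
            exact hK.2.2 i (Finset.mem_erase.mp hi).2 j (Finset.mem_erase.mp hj).2 hij
        have hIH := ih K₁ (conn_of_insert hE hX' hc) hsuf hXe
        rw [hK₁eq, sumK_insert hE hX' hXe hsub hsubn a ha, tauU_insert hE _ X m hX', if_neg hXe, ha]
        have : (Polynomial.X : Polynomial ℤ) * (qI Polynomial.X (a + 1) * tauU E Polynomial.X X) -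
            (Polynomial.X ^ (a + 1) * tauU E Polynomial.X X + qI Polynomial.X a * sumK E X K₁) =
            qI Polynomial.X a * (Polynomial.X * tauU E Polynomial.X X - sumK E X K₁) := by
          have h3 := X_mul_qI_sub a
          linear_combination (tauU E Polynomial.X X) * h3
        rw [this]
        exact NN_mul (NN_qI a) hIH

/-- `E_1 = A_1 - q τ`. -/
noncomputable def e1 (E : V → V → Prop) [DecidableRel E] (U : Finset V) : Polynomial ℤ :=
  sumK E U U - Polynomial.X * tauU E Polynomial.X U

include hE hW in
lemma e1_insert {X : Finset V} {n : V} (hX : ∀ x ∈ X, x < n) (hne : X ≠ ∅)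
    (a : ℕ) (ha : aC E X n = a + 1) :
    e1 E (insert n X) = qI Polynomial.X (a + 1) * e1 E X +
      Polynomial.X ^ a * (Polynomial.X * tauU E Polynomial.X X - sumK E X (nbr E X n)) := by
  have hnX : n ∉ X := fun h => lt_irrefl _ (hX n h)
  unfold e1
  rw [tauU_insert hE _ X n hX, if_neg hne, ha]
  have h1 : sumK E (insert n X) (insert n X) =
      Polynomial.X ^ (a + 1) * tauU E Polynomial.X X + qI Polynomial.X (a + 1) * sumK E X X -
        Polynomial.X ^ a * sumK E X (nbr E X n) := by
    unfold sumK
    rw [Finset.sum_insert hnX, Finset.mul_sum, Finset.mul_sum]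
    have hsplit : ∑ v ∈ nbr E X n, (if ∃ i ∈ X, i < v then (Polynomial.X : Polynomial ℤ) ^ aC E X v *
          tauU E Polynomial.X (X.erase v) else 0) * Polynomial.X ^ a =
        ∑ v ∈ X, (if E v n then (if ∃ i ∈ X, i < v then (Polynomial.X : Polynomial ℤ) ^ aC E X v *
          tauU E Polynomial.X (X.erase v) else 0) * Polynomial.X ^ a else 0) := by
      unfold nbr
      rw [Finset.sum_filter]
    have h2 : ∑ v ∈ nbr E X n, Polynomial.X ^ a * (if ∃ i ∈ X, i < v then
          (Polynomial.X : Polynomial ℤ) ^ aC E X v * tauU E Polynomial.X (X.erase v) else 0) =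
        ∑ v ∈ X, (if E v n then (if ∃ i ∈ X, i < v then (Polynomial.X : Polynomial ℤ) ^ aC E X v *
          tauU E Polynomial.X (X.erase v) else 0) * Polynomial.X ^ a else 0) := by
      rw [← hsplit]
      refine Finset.sum_congr rfl fun v _ => ?_
      ring
    rw [h2, add_sub_assoc, ← Finset.sum_sub_distrib]
    congr 1
    · obtain ⟨x, hx⟩ := Finset.nonempty_iff_ne_empty.mpr hne
      rw [if_pos ⟨x, Finset.mem_insert_of_mem hx, hX x hx⟩, Finset.erase_insert hnX]
      have : aC E (insert n X) n = a + 1 := by
        rw [← ha]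
        unfold aC
        rw [Finset.filter_insert, if_neg]
        intro h
        exact lt_irrefl _ (hE _ _ h)
      rw [this]
    · refine Finset.sum_congr rfl fun v hv => ?_
      have hvn := hX v hv
      have hiff : (∃ i ∈ insert n X, i < v) ↔ ∃ i ∈ X, i < v := by
        constructor
        · rintro ⟨i, hi, hiv⟩
          rcases Finset.mem_insert.mp hi with h | h
          · rw [h] at hiv
            exact absurd hiv (lt_asymm hvn)
          · exact ⟨i, h, hiv⟩
        · rintro ⟨i, hi, hiv⟩
          exact ⟨i, Finset.mem_insert_of_mem hi, hiv⟩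
      by_cases hex : ∃ i ∈ X, i < v
      · rw [if_pos (hiff.mpr hex), if_pos hex, aC_insert_of_lt hE X n v hvn,
          tau_insert_erase hE hX hv hex]
        by_cases hvE : E v n
        · rw [if_pos hvE]
          have h1 := aC_erase_of_mem (E := E) hv hvE
          have h2 : aC E (X.erase v) n = a := by omega
          rw [h2, qI_succ']
          ring
        · rw [if_neg hvE, aC_erase_of_not hvE, ha]
          ring
      · rw [if_neg (fun h => hex (hiff.mp h)), if_neg hex]
        simp
  rw [h1]
  rw [pow_succ]
  ring

include hE hW in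
/-- Positivity of `E_1`. -/
theorem e1_nonneg (U : Finset V) : Conn E U → 2 ≤ U.card → NonnegCoeffs (e1 E U) := by
  induction U using Finset.induction_on_max with
  | empty => intro _ h; simp at h
  | insert n X hX ih =>
    intro hc hcard
    have hX' : ∀ x ∈ X, x < n := hX
    have hnX : n ∉ X := fun h => lt_irrefl _ (hX' n h)
    rw [Finset.card_insert_of_notMem hnX] at hcard
    have hXne : X ≠ ∅ := by
      rintro rfl
      simp at hcard
    obtain ⟨x, hx⟩ := Finset.nonempty_iff_ne_empty.mpr hXne
    have hpos := hc n (Finset.mem_insert_self _ _) ⟨x, Finset.mem_insert_of_mem hx, hX' x hx⟩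
    have hac : aC E (insert n X) n = aC E X n := by
      unfold aC
      rw [Finset.filter_insert, if_neg]
      intro h
      exact lt_irrefl _ (hE _ _ h)
    rw [hac] at hpos
    obtain ⟨a, ha⟩ : ∃ a, aC E X n = a + 1 := ⟨aC E X n - 1, by omega⟩
    have hcX := conn_of_insert hE hX' hc
    rw [e1_insert hE hW hX' hXne a ha]
    have htele := tele hE hW X (nbr E X n) hcX (suf_nbr hW X n hX') hXne
    by_cases hone : X.card = 1
    · obtain ⟨y, rfl⟩ := Finset.card_eq_one.mp hone
      have ha0 : a = 0 := by
        have : aC E {y} n ≤ 1 := by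
          unfold aC
          calc _ ≤ ({y} : Finset V).card := Finset.card_filter_le _ _
            _ = 1 := by simp
        omega
      subst ha0
      have hs : sumK E {y} ({y} : Finset V) = 0 := by
        simp [sumK]
      have hnb : nbr E {y} n = {y} := by
        apply Finset.eq_of_subset_of_card_le (Finset.filter_subset _ _)
        have h5 : (Finset.filter (fun i => E i n) ({y} : Finset V)).card = aC E {y} n := rfl
        rw [h5, ha]
        simp
      have ht : tauU E (Polynomial.X : Polynomial ℤ) {y} = 1 := by
        simp [tauU]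
      unfold e1
      rw [hnb, hs, ht]
      simp only [qI_succ, qI_zero]
      have : (1 + (Polynomial.X : Polynomial ℤ) * 0) * (0 - Polynomial.X * 1) +
          Polynomial.X ^ 0 * (Polynomial.X * 1 - 0) = 0 := by ring
      rw [this]
      exact NN_zero
    · have hX2 : 2 ≤ X.card := by
        have : 0 < X.card := Finset.card_pos.mpr ⟨x, hx⟩
        omega
      exact NN_add (NN_mul (NN_qI _) (ih hcX hX2)) (NN_mul (NN_X_pow _) htele)

include hE hW in
/-- Removing the minimal vertex. -/
theorem tau_min (U : Finset V) : Conn E U → 2 ≤ U.card → ∀ m ∈ U, (∀ x ∈ U, m ≤ x) →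
    tauU E (Polynomial.X : Polynomial ℤ) U =
      qI Polynomial.X (U.filter fun j => E m j).card * tauU E Polynomial.X (U.erase m) := by
  induction U using Finset.induction_on_max with
  | empty => intro _ h; simp at h
  | insert n X hX ih =>
    intro hc hcard m hm hmin
    have hX' : ∀ x ∈ X, x < n := hX
    have hnX : n ∉ X := fun h => lt_irrefl _ (hX' n h)
    rw [Finset.card_insert_of_notMem hnX] at hcard
    have hXne : X ≠ ∅ := by
      rintro rfl
      simp at hcard
    obtain ⟨x, hx⟩ := Finset.nonempty_iff_ne_empty.mpr hXne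
    have hmn : m ≠ n := by
      rintro rfl
      exact absurd (hmin x (Finset.mem_insert_of_mem hx)) (not_le.mpr (hX' x hx))
    have hmX : m ∈ X := by
      rcases Finset.mem_insert.mp hm with h | h
      · exact absurd h hmn
      · exact h
    have hminX : ∀ y ∈ X, m ≤ y := fun y hy => hmin y (Finset.mem_insert_of_mem hy)
    have hmlt := hX' m hmX
    have hpos := hc n (Finset.mem_insert_self _ _) ⟨x, Finset.mem_insert_of_mem hx, hX' x hx⟩
    have hac : aC E (insert n X) n = aC E X n := by
      unfold aC
      rw [Finset.filter_insert, if_neg]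
      intro h
      exact lt_irrefl _ (hE _ _ h)
    rw [hac] at hpos
    have hcX := conn_of_insert hE hX' hc
    rw [Finset.erase_insert_of_ne hmn.symm, tauU_insert hE _ X n hX', if_neg hXne]
    by_cases hone : X.card = 1
    · obtain ⟨y, rfl⟩ := Finset.card_eq_one.mp hone
      have hy : y = m := (Finset.mem_singleton.mp hmX).symm
      subst hy
      have hE' : E y n := by
        have : ((({y} : Finset V).filter fun i => E i n)).Nonempty := Finset.card_pos.mp hpos
        obtain ⟨z, hz⟩ := this
        have h1 := Finset.mem_filter.mp hz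
        rw [Finset.mem_singleton.mp h1.1] at h1
        exact h1.2
      have h2 : ({y} : Finset V).erase y = ∅ := Finset.erase_singleton y
      have h3 : aC E {y} n = 1 := by
        unfold aC
        rw [Finset.filter_singleton, if_pos hE']
        simp
      have h4 : ((insert n ({y} : Finset V)).filter fun j => E y j).card = 1 := by
        rw [Finset.filter_insert, if_pos hE', Finset.filter_singleton, if_neg]
        · simp
        · intro h
          exact lt_irrefl _ (hE _ _ h)
      rw [h2, h3, h4]
      simp [tauU]
    · have hX2 : 2 ≤ X.card := by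
        have : 0 < X.card := Finset.card_pos.mpr ⟨x, hx⟩
        omega
      rw [ih hcX hX2 m hmX hminX]
      have hne2 : X.erase m ≠ ∅ := by
        intro h0
        have := Finset.card_erase_of_mem hmX
        rw [h0] at this
        simp at this
        omega
      rw [tauU_insert hE _ (X.erase m) n (fun y hy => hX' y (Finset.mem_of_mem_erase hy)),
        if_neg hne2]
      by_cases hEn : E m n
      · -- `m` is adjacent to all
        have hall : ∀ y ∈ X, y ≠ m → E m y ∧ E y n := by
          intro y hy hne
          have h1 : m < y := lt_of_le_of_ne (hminX y hy) (Ne.symm hne)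
          have := hW m y n h1 (hX' y hy) hEn
          exact ⟨this.2, this.1⟩
        have h1 : (X.filter fun j => E m j) = X.erase m := by
          ext y
          simp only [Finset.mem_filter, Finset.mem_erase]
          constructor
          · rintro ⟨h1, h2⟩
            refine ⟨?_, h1⟩
            rintro rfl
            exact lt_irrefl _ (hE _ _ h2)
          · rintro ⟨h1, h2⟩
            exact ⟨h2, (hall y h2 h1).1⟩
        have h2 : ((insert n X).filter fun j => E m j) = insert n (X.erase m) := by
          rw [Finset.filter_insert, if_pos hEn, h1]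
        have h3 : aC E X n = (X.erase m).card + 1 := by
          have := aC_erase_of_mem (E := E) hmX hEn
          have h4 : aC E (X.erase m) n = (X.erase m).card := by
            unfold aC
            rw [Finset.filter_true_of_mem]
            intro y hy
            have h5 := Finset.mem_erase.mp hy
            exact (hall y h5.2 h5.1).2
          omega
        have h6 : aC E (X.erase m) n = (X.erase m).card := by
          have := aC_erase_of_mem (E := E) hmX hEn
          omega
        have hnot : n ∉ X.erase m := fun h => hnX (Finset.mem_of_mem_erase h)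
        rw [h1, h2, h3, h6, Finset.card_insert_of_notMem hnot]
        first | done | ring
      · have h1 : ((insert n X).filter fun j => E m j) = X.filter fun j => E m j := by
          rw [Finset.filter_insert, if_neg hEn]
        rw [h1, aC_erase_of_not hEn]
        first | done | ring

lemma card_filter_lt_of_mem {U : Finset V} {m : V} (hE : ∀ a b, E a b → a < b) (hm : m ∈ U) :
    (U.filter fun j => E m j).card ≤ U.card - 1 := by
  have : (U.filter fun j => E m j) ⊆ U.erase m := by
    intro y hy
    have h1 := Finset.mem_filter.mp hy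
    refine Finset.mem_erase.mpr ⟨?_, h1.1⟩
    rintro rfl
    exact lt_irrefl _ (hE _ _ h1.2)
  have h2 := Finset.card_le_card this
  rwa [Finset.card_erase_of_mem hm] at h2

include hE hW in
/-- Positivity of `E_{|U|-1}`. -/
theorem etop_nonneg (U : Finset V) (hc : Conn E U) (hcard : 2 ≤ U.card) (m : V) (hm : m ∈ U)
    (hmin : ∀ x ∈ U, m ≤ x) :
    NonnegCoeffs (qI Polynomial.X (U.card - 1) * tauU E Polynomial.X (U.erase m) -
      tauU E Polynomial.X U) := by
  rw [tau_min hE hW U hc hcard m hm hmin]
  have hd := card_filter_lt_of_mem hE hm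
  have : qI (Polynomial.X : Polynomial ℤ) (U.card - 1) * tauU E Polynomial.X (U.erase m) -
      qI Polynomial.X (U.filter fun j => E m j).card * tauU E Polynomial.X (U.erase m) =
      (qI Polynomial.X (U.card - 1) - qI Polynomial.X (U.filter fun j => E m j).card) *
        tauU E Polynomial.X (U.erase m) := by ring
  rw [this, qI_sub_eq _ _ hd]
  exact NN_mul (NN_mul (NN_X_pow _) (NN_qI _)) (NN_tauU _)

end Vale.Agent.Lib.P066
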