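import Vale.Agent.Lib.P066.Defs
import Vale.Agent.Lib.P066.Extract
import Vale.Agent.Lib.P066.Bridge

/-!
From the expansion of the chromatic quasisymmetric function to the formula for the coefficients.
-/

open Finset Polynomial

namespace Vale.Agent.Lib.P066

set_option linter.unusedSectionVars false
set_option linter.unusedSimpArgs false
set_option linter.unusedVariables false

variable {n : ℕ}

lemma isEdge_lt (h : Fin n → Fin n) (a b : Fin n) (H : IsEdge h a b) : a < b := H.1

lemma isEdge_window {h : Fin n → Fin n} (hm : Monotone h) (i i' j : Fin n) (h1 : i < i')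
    (h2 : i' < j) (H : IsEdge h i j) : IsEdge h i' j ∧ IsEdge h i i' :=
  ⟨⟨h2, H.2.trans (hm h1.le)⟩, ⟨h1, h2.le.trans H.2⟩⟩

/-- The ring homomorphism from `ℤ[q]` used for substitution. -/
noncomputable def iotaH : Polynomial ℤ →+* (ℚ[X])[X][X] :=
  (C.comp C).comp (Polynomial.mapRingHom (Int.castRingHom ℚ))

lemma iotaH_X : iotaH X = C (C X) := by
  simp [iotaH]

lemma eval_chromaticQ (h : Fin n → Fin n) (c : n.Partition → Polynomial ℤ)
    (hc : IsEExpansion h c) (L : List (ℚ[X])[X][X]) :
    conv (IsEdge h) (C (C X)) L Finset.univ =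
      ∑ l : n.Partition, C (C ((c l).map (Int.castRingHom ℚ))) *
        (l.parts.map fun i => (L : Multiset (ℚ[X])[X][X]).esymm i).prod := by
  let N := L.length
  let x : Fin N → (ℚ[X])[X][X] := L.get
  have hL : List.ofFn x = L := List.ofFn_get L
  have hconv := sum_proper_eq_conv (IsEdge h) ((C (C X)) : (ℚ[X])[X][X]) x
  rw [hL] at hconv
  rw [← hconv]
  have h1 := congrArg (MvPolynomial.eval₂Hom iotaH x) (hc N)
  have hesymm : ∀ i, MvPolynomial.eval₂Hom iotaH x (MvPolynomial.esymm (Fin N) (Polynomial ℤ) i) =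
      (L : Multiset (ℚ[X])[X][X]).esymm i := by
    intro i
    have h2 : (L : Multiset (ℚ[X])[X][X]) = (Finset.univ : Finset (Fin N)).val.map x := by
      rw [Fin.univ_val_map, hL]
    rw [h2, Finset.esymm_map_val]
    unfold MvPolynomial.esymm
    rw [map_sum]
    refine Finset.sum_congr rfl fun t _ => ?_
    rw [map_prod]
    refine Finset.prod_congr rfl fun j _ => ?_
    simp
  unfold chromaticQ at h1
  rw [map_sum, map_sum] at h1
  simp only [map_mul, map_prod, MvPolynomial.coe_eval₂Hom, MvPolynomial.eval₂_C,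
    MvPolynomial.eval₂_X, map_pow, iotaH_X] at h1
  have h3 : ∀ l : n.Partition, MvPolynomial.eval₂ iotaH x
      (l.parts.map fun i => MvPolynomial.esymm (Fin N) (Polynomial ℤ) i).prod =
      (l.parts.map fun i => (L : Multiset (ℚ[X])[X][X]).esymm i).prod := by
    intro l
    have := map_multiset_prod (MvPolynomial.eval₂Hom iotaH x)
      (l.parts.map fun i => MvPolynomial.esymm (Fin N) (Polynomial ℤ) i)
    simp only [MvPolynomial.coe_eval₂Hom] at this
    rw [this, Multiset.map_map]
    congr 1
    refine Multiset.map_congr rfl fun i _ => ?_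
    exact hesymm i
  simp only [h3] at h1
  have h4 : ∀ l : n.Partition, iotaH (c l) = C (C ((c l).map (Int.castRingHom ℚ))) := by
    intro l
    simp [iotaH]
  simp only [h4, ascCount] at h1
  convert h1

/-- `[m]_q τ(U)` in `ℤ[q]`. -/
noncomputable def rZ (h : Fin n → Fin n) (U : Finset (Fin n)) : Polynomial ℤ :=
  rU (IsEdge h) (X : Polynomial ℤ) U

lemma map_rZ (h : Fin n → Fin n) (U : Finset (Fin n)) :
    (rZ h U).map (Int.castRingHom ℚ) = rU (IsEdge h) (X : ℚ[X]) U := by
  unfold rZ rU
  have h1 := map_qI (Polynomial.mapRingHom (Int.castRingHom ℚ)) (X : Polynomial ℤ) U.card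
  have h2 := map_tauU (E := IsEdge h) (Polynomial.mapRingHom (Int.castRingHom ℚ))
    (X : Polynomial ℤ) U
  simp only [Polynomial.coe_mapRingHom, Polynomial.map_X] at h1 h2
  rw [Polynomial.map_mul, h1, h2]

lemma map_injective_int : Function.Injective (Polynomial.map (Int.castRingHom ℚ)) :=
  Polynomial.map_injective _ Int.cast_injective

/-- The coefficient of `e_n`: it is `[n]_q` times the product of the `[a_j]_q`. -/
theorem coeff_one_part_int {h : Fin n → Fin n} (hm : Monotone h)
    {c : n.Partition → Polynomial ℤ} (hc : IsEExpansion h c) (hn : 0 < n) :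
    c (Nat.Partition.indiscrete n) = rZ h Finset.univ := by
  apply map_injective_int
  rw [map_rZ]
  exact coeff_one_part (K := ℚ[X]) (E := IsEdge h) (isEdge_lt h) (isEdge_window hm) (X : ℚ[X])
    (fun l => (c l).map (Int.castRingHom ℚ)) (eval_chromaticQ h c hc) hn

/-- The coefficient of `e_a e_b`. -/
theorem coeff_two_part_int {h : Fin n → Fin n} (hm : Monotone h)
    {c : n.Partition → Polynomial ℤ} (hc : IsEExpansion h c)
    (a b : ℕ) (ha : 0 < a) (hb : 0 < b) (hab : a + b = n)
    (l₂ : n.Partition) (hl₂ : l₂.parts = {a, b}) :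
    ∑ U ∈ Finset.powersetCard a (Finset.univ : Finset (Fin n)),
        rZ h U * X ^ eCount (IsEdge h) U (Finset.univ \ U) * rZ h (Finset.univ \ U) =
      rZ h Finset.univ + (if a = b then 2 else 1) * c l₂ := by
  rw [← coeff_one_part_int hm hc (by omega)]
  apply map_injective_int
  have := coeff_two_part (K := ℚ[X]) (E := IsEdge h) (isEdge_lt h) (isEdge_window hm) (X : ℚ[X])
    (fun l => (c l).map (Int.castRingHom ℚ)) (eval_chromaticQ h c hc) a b ha hb hab l₂ hl₂
  rw [Polynomial.map_sum]
  simp only [Polynomial.map_mul, Polynomial.map_pow, Polynomial.map_X, map_rZ, Polynomial.map_add]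
  rw [this]
  congr 1
  split_ifs <;> simp

end Vale.Agent.Lib.P066
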