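import Vale.Agent.Lib.P066.Hook
import Vale.Agent.Lib.P066.Hook1
import Vale.Agent.Lib.P066K.Main

/-!
The two forms of the chromatic quasisymmetric function agree, and the coefficients of an expansion
in the `e_λ` are unique.
-/

namespace Vale.Agent.Lib.P066

open Finset MvPolynomial

variable {n : ℕ}

lemma chromQ_eq_chromaticQ (h : Fin n → Fin n) (N : ℕ) :
    Vale.Agent.Lib.P066K.chromQ h N = chromaticQ h N := by
  unfold Vale.Agent.Lib.P066K.chromQ chromaticQ
  rw [Finset.sum_filter]
  refine Finset.sum_congr rfl fun f _ => ?_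
  have e1 : (∀ i j : Fin n, i < j → j ≤ h i → f i ≠ f j) ↔ (∀ a b, IsEdge h a b → f a ≠ f b) := by
    constructor
    · intro H a b hab
      exact H a b hab.1 hab.2
    · intro H a b h1 h2
      exact H a b ⟨h1, h2⟩
  have e2 : Vale.Agent.Lib.P066K.ascCount h f = ascCount h f := by
    unfold Vale.Agent.Lib.P066K.ascCount ascCount
    refine congrArg Finset.card (Finset.filter_congr fun p _ => ?_)
    simp only [IsEdge]
    tauto
  simp only [e1, e2]

/-- The exponent vector of a partition: the multiplicity of `j + 1` at `j`. -/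
noncomputable def partExp (l : n.Partition) : Fin n →₀ ℕ :=
  Finsupp.equivFunOnFinite.symm fun j => l.parts.count ((j : ℕ) + 1)

lemma partExp_apply (l : n.Partition) (j : Fin n) :
    partExp l j = l.parts.count ((j : ℕ) + 1) := rfl

lemma part_mem_bound (l : n.Partition) {a : ℕ} (ha : a ∈ l.parts) : 0 < a ∧ a ≤ n := by
  refine ⟨l.parts_pos ha, ?_⟩
  rw [← l.parts_sum]
  exact Multiset.single_le_sum (fun _ _ => Nat.zero_le _) a ha

lemma partExp_injective : Function.Injective (partExp (n := n)) := by
  intro l l' hl
  apply Nat.Partition.ext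
  ext a
  by_cases ha : 0 < a ∧ a ≤ n
  · have := DFunLike.congr_fun hl ⟨a - 1, by omega⟩
    simp only [partExp_apply] at this
    have e : a - 1 + 1 = a := by omega
    rwa [e] at this
  · have h1 : a ∉ l.parts := fun hm => ha (part_mem_bound l hm)
    have h2 : a ∉ l'.parts := fun hm => ha (part_mem_bound l' hm)
    rw [Multiset.count_eq_zero_of_notMem h1, Multiset.count_eq_zero_of_notMem h2]

lemma aeval_monomial_partExp {R : Type*} [CommRing R] (l : n.Partition) (r : R) :
    aeval (fun i : Fin n => esymm (Fin n) R ((i : ℕ) + 1)) (monomial (partExp l) r) =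
      C r * (l.parts.map fun i => esymm (Fin n) R i).prod := by
  rw [aeval_monomial, Finsupp.prod_fintype]
  · rw [algebraMap_eq]
    congr 1
    rw [Finset.prod_multiset_map_count]
    have hsub : ∀ a ∈ l.parts.toFinset, 0 < a ∧ a ≤ n := fun a ha =>
      part_mem_bound l (Multiset.mem_toFinset.mp ha)
    symm
    refine Finset.prod_bij_ne_one (fun a ha hne => (⟨a - 1, by
        have := hsub a ha
        omega⟩ : Fin n)) ?_ ?_ ?_ ?_
    · intro a ha hne
      exact Finset.mem_univ _
    · intro a ha hne b hb hne' hab
      have h1 := hsub a ha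
      have h2 := hsub b hb
      have := congrArg Fin.val hab
      simp only at this
      omega
    · intro j _ hj
      simp only [partExp_apply] at hj
      have hcount : l.parts.count ((j : ℕ) + 1) ≠ 0 := by
        intro h0
        rw [h0] at hj
        simp at hj
      have hmem : (j : ℕ) + 1 ∈ l.parts.toFinset :=
        Multiset.mem_toFinset.mpr (Multiset.count_ne_zero.mp hcount)
      refine ⟨(j : ℕ) + 1, hmem, ?_, ?_⟩
      · simpa using hj
      · ext
        simp
    · intro a ha hne
      have h1 := hsub a ha
      have e : a - 1 + 1 = a := by omega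
      simp [partExp_apply, e]
  · intro i
    simp

/-- The products of elementary symmetric polynomials are linearly independent in `n` variables. -/
lemma eExpansion_coeff_unique {R : Type*} [CommRing R] (d : n.Partition → R)
    (hd : ∑ l : n.Partition, C (d l) *
      (l.parts.map fun i => esymm (Fin n) R i).prod = 0) (l : n.Partition) : d l = 0 := by
  set P : MvPolynomial (Fin n) R := ∑ l : n.Partition, monomial (partExp l) (d l) with hP
  have h1 : aeval (fun i : Fin n => esymm (Fin n) R ((i : ℕ) + 1)) P = 0 := by
    rw [hP, map_sum, ← hd]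
    refine Finset.sum_congr rfl fun l _ => ?_
    exact aeval_monomial_partExp l (d l)
  have h2 : P = 0 := by
    apply esymmAlgHom_injective (σ := Fin n) (R := R) (n := n) (by simp)
    rw [map_zero]
    apply Subtype.ext
    rw [esymmAlgHom_apply]
    simpa using h1
  have h3 : coeff (partExp l) P = d l := by
    rw [hP, coeff_sum]
    rw [Finset.sum_eq_single l]
    · simp
    · intro b _ hb
      rw [coeff_monomial, if_neg]
      exact fun h => hb (partExp_injective h)
    · simp
  rw [← h3, h2, coeff_zero]

lemma isEExpansion_unique {h : Fin n → Fin n} {c c' : n.Partition → Polynomial ℤ}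
    (hc : IsEExpansion h c) (hc' : IsEExpansion h c') : c = c' := by
  funext l
  have h1 := hc n
  rw [hc' n] at h1
  have h2 : ∑ l : n.Partition, C (c' l - c l) *
      (l.parts.map fun i => esymm (Fin n) (Polynomial ℤ) i).prod = 0 := by
    simp only [map_sub, sub_mul]
    rw [Finset.sum_sub_distrib, h1, sub_self]
  have := eExpansion_coeff_unique _ h2 l
  exact (sub_eq_zero.mp this).symm

/-- For graphs without four pairwise adjacent vertices, the expansion exists, and its coefficients
are in `ℕ[q]`. -/
theorem k4free_expansion {h : Fin n → Fin n} (hn : 0 < n) (hm : Monotone h) (hi : ∀ i, i ≤ h i)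
    (h3 : ∀ i : Fin n, (h i : ℕ) ≤ i + 2) :
    (∃ c, IsEExpansion h c) ∧ ∀ c, IsEExpansion h c → ∀ l, NonnegCoeffs (c l) := by
  obtain ⟨c0, hc0⟩ := Vale.Agent.Lib.P066K.main_k4free h hn hm hi h3
  have hE : IsEExpansion h fun l => (c0 l).map (Nat.castRingHom ℤ) := by
    intro N
    rw [← chromQ_eq_chromaticQ, hc0 N]
    rfl
  refine ⟨⟨_, hE⟩, fun c hc l k => ?_⟩
  rw [isEExpansion_unique hc hE]
  simp

end Vale.Agent.Lib.P066
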